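import Vale.Agent.P088.R2.H437.Lin
import Vale.Agent.P088.R2.H794.B.Spec2

/-!
# P088, row B_LC: two metrics near one constant metric on a smooth domain

From row B_SC by the linear change of coordinates `x = S⁻¹ (y - 1/2)`, `Sᵀ S = G`.
-/

open MeasureTheory Set
open scoped ContDiff Matrix

noncomputable section

namespace Vale.Agent.P088.HY.H437

open Vale.Agent.P088.LR Vale.Agent.P088.LR.B Vale.Agent.P088.LR.CF Vale.Agent.P088.H639
open Vale.Agent.P088.HY.H794 Vale.Agent.P088.HY.Bd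

variable {n : ℕ} {M : Matrix (Fin n) (Fin n) ℝ}

/-- Isometries under an affine change of variables. -/
theorem isoOn_ap {κ : ℝ} (hκ : 0 < κ) (hM : M.det ≠ 0) {ρ : V n → ℝ} {g₁ g₂ : MF n}
    {Φ Ψ : V n → V n}
    (h : IsoOn (fun y => ρ (ap M y)) (gsr κ M g₁) (gsr κ M g₂) Φ Ψ) :
    IsoOn ρ g₁ g₂ (fun x => ap M (Φ (ai M x))) (fun x => ap M (Ψ (ai M x))) := by
  obtain ⟨h1, h2, h3, h4, h5, h6, h7, h8⟩ := h
  refine ⟨(contDiff_ap M).comp (h1.comp (contDiff_ai M)),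
    (contDiff_ap M).comp (h2.comp (contDiff_ai M)), fun x => ?_, fun x => ?_, fun x hx => ?_,
    fun x => ?_, fun x => ?_, fun x hx => ?_⟩
  · show ap M (Ψ (ai M (ap M (Φ (ai M x))))) = x
    rw [ai_ap hM, h3, ap_ai hM]
  · show ap M (Φ (ai M (ap M (Ψ (ai M x))))) = x
    rw [ai_ap hM, h4, ap_ai hM]
  · show ap M (Φ (ai M x)) = x
    rw [h5 (ai M x) (by show ρ (ap M (ai M x)) = 0; rwa [ap_ai hM]), ap_ai hM]
  · have h9 : 0 < ρ (ap M (Φ (ai M x))) ↔ 0 < ρ (ap M (ai M x)) := h6 (ai M x)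
    rw [ap_ai hM] at h9
    exact h9
  · rw [det_Jm_conj hM h1]
    exact h7 _
  · refine metric_conj hκ hM h1 (h8 (ai M x) ?_)
    show 0 ≤ ρ (ap M (ai M x))
    rwa [ap_ai hM]

/-- **Row B_LC.** -/
theorem rowBLC : RowBSC → RowBLC := by
  intro hSC n hn ρ hρ G hG
  obtain ⟨S, hS, hS0⟩ := posDef_root hG
  have hSu : IsUnit S.det := hS0.isUnit
  obtain ⟨M, hMe⟩ : ∃ M : Matrix (Fin n) (Fin n) ℝ, M = S⁻¹ := ⟨_, rfl⟩
  have hM : M.det ≠ 0 := by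
    rw [hMe, Matrix.det_nonsing_inv, Ring.inverse_eq_inv']
    exact inv_ne_zero hS0
  have hMG : Mᵀ * G * M = 1 := by
    rw [hMe, ← hS, ← Matrix.mul_assoc, ← Matrix.transpose_mul, Matrix.mul_nonsing_inv S hSu,
      Matrix.transpose_one, Matrix.one_mul, Matrix.mul_nonsing_inv S hSu]
  obtain ⟨k, ε, hε, hF⟩ := hSC n hn (fun y => ρ (ap M y)) (sdom_ap hM hρ)
  obtain ⟨δ, hδ, hcl⟩ := cl_gsr hMG (by omega) k hε
  refine ⟨k, δ, hδ, fun g₁ g₂ s1 s2 p1 p2 c1 c2 hSE => ?_⟩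
  have hO : IsOpen (Om ρ) := isOpen_lt continuous_const hρ.sm.continuous
  obtain ⟨Φ, Ψ, hI⟩ := hF (gsr 1 M g₁) (gsr 1 M g₂) (smM_gsr s1) (smM_gsr s2)
    (posDef_gsr one_pos hM p1) (posDef_gsr one_pos hM p2) (hcl g₁ s1 c1) (hcl g₂ s2 c2)
    (SE_gsr one_pos hM hO.measurableSet p1 p2 hSE)
  exact ⟨_, _, isoOn_ap one_pos hM hI⟩

end Vale.Agent.P088.HY.H437
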