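import Vale.Agent.P088.R2.H794.B.Spec3
import Vale.Agent.P088.H442.E.AA

/-!
# P088, two metrics on a smooth domain: small oscillation (row B-OS)
-/

open MeasureTheory Set Filter Topology
open scoped ContDiff Matrix

noncomputable section

namespace Vale.Agent.P088.HY.H437

open Vale.Agent.P088.LR Vale.Agent.P088.LR.B Vale.Agent.P088.LR.CF Vale.Agent.P088.H639
open Vale.Agent.P088.HY.Bd

/-- Interpolation on `ℝ^n`: a function with bounded derivatives of order `≤ M` which is small is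
small with its derivatives of order `≤ m`. -/
theorem interpG (n m : ℕ) : ∃ M : ℕ, ∀ b : ℕ → ℝ, ∀ η : ℝ, 0 < η → ∃ ε > 0, ∀ f : V n → ℝ,
    ContDiff ℝ ∞ f → (∀ x, |f x| ≤ ε) → (∀ l ≤ M, ∀ x, ‖iteratedFDeriv ℝ l f x‖ ≤ b l) →
    Cl m η f := by
  obtain ⟨M, hM⟩ := Vale.Agent.P088.H442.AA.interpR n m
  let χ : ContDiffBump (fun _ => 1 / 2 : V n) := ⟨1 / 8, 1 / 4, by norm_num, by norm_num⟩
  have hχs : ContDiff ℝ ∞ χ := χ.contDiff
  have hc : ∀ l : ℕ, ∃ c : ℝ, 0 ≤ c ∧ ∀ x, ‖iteratedFDeriv ℝ l χ x‖ ≤ c := by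
    intro l
    have h1 : Continuous (iteratedFDeriv ℝ l χ) :=
      hχs.continuous_iteratedFDeriv (by exact_mod_cast le_top)
    obtain ⟨c, hc⟩ := (χ.hasCompactSupport.iteratedFDeriv (𝕜 := ℝ) l).exists_bound_of_continuous h1
    exact ⟨max c 0, le_max_right _ _, fun x => (hc x).trans (le_max_left _ _)⟩
  choose c hc0 hc using hc
  refine ⟨M, fun b η hη => ?_⟩
  set S : ℕ → ℝ := fun l => ∑ i ∈ Finset.range (l + 1), (l.choose i : ℝ) * c i * |b (l - i)|
    with hS
  have hS0 : ∀ l, 0 ≤ S l := fun l => Finset.sum_nonneg fun i _ =>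
    mul_nonneg (mul_nonneg (Nat.cast_nonneg _) (hc0 i)) (abs_nonneg _)
  set B : ℝ := 1 + ∑ l ∈ Finset.range (M + 1), S l with hB
  have hB1 : 1 ≤ B := by
    have := Finset.sum_nonneg (s := Finset.range (M + 1)) fun l _ => hS0 l
    linarith
  have hSB : ∀ l ≤ M, S l ≤ B := by
    intro l hl
    have := Finset.single_le_sum (f := S) (s := Finset.range (M + 1)) (fun l _ => hS0 l)
      (Finset.mem_range.2 (Nat.lt_succ_of_le hl))
    linarith
  obtain ⟨ε, hε, H⟩ := hM B hB1 η hη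
  refine ⟨ε, hε, fun f hf hfs hfb l hl x₀ => ?_⟩
  set a : V n := x₀ - (fun _ => 1 / 2 : V n) with ha
  set F : V n → ℝ := fun y => f (y + a) with hF
  have hFs : ContDiff ℝ ∞ F := hf.comp (contDiff_id.add contDiff_const)
  have hFd : ∀ (l : ℕ) y, iteratedFDeriv ℝ l F y = iteratedFDeriv ℝ l f (y + a) := fun l y =>
    iteratedFDeriv_comp_add_right l a y
  have hG : Cl m η (fun y => χ y * F y) := by
    refine H _ (hχs.mul hFs) (fun y hy => ?_) (fun y => ?_) (fun l hl y => ?_)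
    · have : χ y = 0 := by
        refine χ.zero_of_le_dist ?_
        by_contra hlt
        refine hy fun j => ?_
        have h1 := (dist_le_pi_dist y (fun _ => 1 / 2 : V n) j).trans (not_le.1 hlt).le
        rw [Real.dist_eq] at h1
        have h2 := abs_le.1 h1
        have h3 : χ.rOut = 1 / 4 := rfl
        rw [h3] at h2
        constructor <;> linarith [h2.1, h2.2]
      rw [this, zero_mul]
    · rw [abs_mul, abs_of_nonneg χ.nonneg]
      calc χ y * |F y| ≤ 1 * |F y| := mul_le_mul_of_nonneg_right χ.le_one (abs_nonneg _)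
        _ ≤ ε := by rw [one_mul]; exact hfs _
    · refine (norm_iteratedFDeriv_mul_le hχs hFs y (n := l) (by exact_mod_cast le_top)).trans ?_
      refine le_trans ?_ (hSB l hl)
      refine Finset.sum_le_sum fun i hi => ?_
      rw [hFd]
      refine mul_le_mul (mul_le_mul_of_nonneg_left (hc i y) (Nat.cast_nonneg _)) ?_ (norm_nonneg _)
        (mul_nonneg (Nat.cast_nonneg _) (hc0 i))
      exact (hfb (l - i) ((Nat.sub_le _ _).trans hl) _).trans (le_abs_self _)
  have h1 := hG l hl (fun _ => 1 / 2 : V n)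
  have h2 : (fun y => χ y * F y) =ᶠ[𝓝 (fun _ => 1 / 2 : V n)] F := by
    filter_upwards [χ.eventuallyEq_one] with y hy
    rw [hy]
    simp
  rw [(Filter.EventuallyEq.iteratedFDeriv (𝕜 := ℝ) h2 l).self_of_nhds, hFd] at h1
  have h3 : (fun _ => 1 / 2 : V n) + a = x₀ := by rw [ha]; abel
  rw [h3] at h1
  exact h1

theorem rowBOS (HC : RowBCC) : RowBOS := by
  intro n hn ρ hρ b
  have hn0 : 0 < n := by omega
  rcases le_or_gt (b 0) 0 with hb | hb
  · refine ⟨0, 1, one_pos, fun g₁ g₂ h₁ _ _ _ => ?_⟩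
    exfalso
    have h2 := (h₁.2.1 0).diag_pos (i := (⟨0, hn0⟩ : Fin n))
    have h3 := h₁.2.2.1 ⟨0, hn0⟩ ⟨0, hn0⟩ 0 le_rfl 0
    rw [norm_iteratedFDeriv_zero, Real.norm_eq_abs] at h3
    have h4 := (abs_le.1 h3).2
    linarith
  · obtain ⟨k₀, ε₀, hε₀, H⟩ := HC n hn ρ hρ (b 0) hb
    obtain ⟨M, hM⟩ := interpG n k₀
    obtain ⟨ε, hε, HI⟩ := hM (fun l => if l = 0 then 2 * b 0 else b l) ε₀ hε₀
    have key : ∀ g : MF n, MetB M b g → Osc ε g → CoG (b 0) (g 0) ∧ NrC k₀ ε₀ (g 0) g := by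
      intro g hg ho
      have h0 : ∀ i j x, |g x i j| ≤ b 0 := by
        intro i j x
        have h3 := hg.2.2.1 i j 0 (Nat.zero_le _) x
        rwa [norm_iteratedFDeriv_zero, Real.norm_eq_abs] at h3
      refine ⟨⟨hg.2.1 0, fun i j => h0 i j 0, hg.2.2.2 0⟩, fun i j => ?_⟩
      refine HI _ ((hg.1 i j).sub contDiff_const) (fun x => ho i j x 0) (fun l hl x => ?_)
      rcases Nat.eq_zero_or_pos l with h | h
      · subst h
        rw [if_pos rfl, norm_iteratedFDeriv_zero, Real.norm_eq_abs]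
        have h1 := abs_le.1 (h0 i j x)
        have h2 := abs_le.1 (h0 i j 0)
        rw [abs_le]
        constructor <;> linarith [h1.1, h1.2, h2.1, h2.2]
      · rw [if_neg h.ne']
        have h1 : iteratedFDeriv ℝ l (fun x => g x i j - g 0 i j) x
            = iteratedFDeriv ℝ l (fun x => g x i j) x := by
          have h2 := iteratedFDeriv_sub_apply (𝕜 := ℝ) (i := l) (f := fun x => g x i j)
            (g := fun _ : V n => g 0 i j) (x := x)
            (((hg.1 i j).of_le (by exact_mod_cast le_top)).contDiffAt) contDiff_const.contDiffAt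
          rw [iteratedFDeriv_const_of_ne h.ne'] at h2
          simp only [Pi.zero_apply, sub_zero] at h2
          exact h2
        rw [h1]
        exact hg.2.2.1 i j l hl x
    refine ⟨M, ε, hε, fun g₁ g₂ h₁ h₂ o₁ o₂ => ?_⟩
    exact H (g₁ 0) (g₂ 0) (key g₁ h₁ o₁).1 (key g₂ h₂ o₂).1 g₁ g₂ h₁.1 h₂.1 h₁.2.1 h₂.2.1
      (key g₁ h₁ o₁).2 (key g₂ h₂ o₂).2

end Vale.Agent.P088.HY.H437
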