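import Vale.Agent.P088.R2.H455.S4.SpecE

/-!
# P088, stage 4: the a priori estimate for systems from the scalar estimate with gains
-/

open MeasureTheory Set Filter
open scoped ContDiff Matrix Topology

noncomputable section

namespace Vale.Agent.P088.S4.H437

open Vale.Agent.P088.LR
open Vale.Agent.P088.HY (VV)
open Vale.Agent.P088.R2.H269

variable {n m : ℕ}

/-- The gain: all first order quantities which occur in the perturbation. -/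
def gn (W a₁ a₂ : VV n → ℝ) (z : VV n) : ℝ :=
  (∑ i, ((HY.dx i a₁ z - HY.dx i W z * a₁ z) ^ 2 + (HY.dy i a₁ z + HY.dy i W z * a₁ z) ^ 2 +
    (HY.dy i a₂ z - HY.dy i W z * a₂ z) ^ 2 + (HY.dx i a₂ z + HY.dx i W z * a₂ z) ^ 2)) +
    (a₁ z ^ 2 + a₂ z ^ 2)

theorem cs2 {M : ℝ} {c x : Fin n → Fin m → ℝ} (hc : ∀ i b, |c i b| ≤ M) :
    (∑ i, ∑ b, c i b * x i b) ^ 2 ≤ (n * m * M ^ 2) * ∑ b, ∑ i, x i b ^ 2 := by
  rw [Finset.sum_comm (f := fun b i => x i b ^ 2)]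
  rw [← Fintype.sum_prod_type' (f := fun i b => c i b * x i b),
    ← Fintype.sum_prod_type' (f := fun i b => x i b ^ 2)]
  refine (Finset.sum_mul_sq_le_sq_mul_sq _ _ _).trans ?_
  refine mul_le_mul_of_nonneg_right ?_ (Finset.sum_nonneg fun _ _ => sq_nonneg _)
  refine (Finset.sum_le_sum (g := fun _ => M ^ 2) fun p _ => ?_).trans (le_of_eq ?_)
  · exact sq_le_sq' (by linarith [(abs_le.1 (hc p.1 p.2)).1]) (abs_le.1 (hc p.1 p.2)).2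
  · rw [Finset.sum_const, Finset.card_univ, Fintype.card_prod, Fintype.card_fin, Fintype.card_fin,
      nsmul_eq_mul]
    push_cast
    ring

theorem sum_const_n (f : Fin m → ℝ) : ∑ b, ∑ _i : Fin n, f b = n * ∑ b, f b := by
  rw [Finset.mul_sum]
  refine Finset.sum_congr rfl fun b _ => ?_
  rw [Finset.sum_const, Finset.card_univ, Fintype.card_fin, nsmul_eq_mul]

theorem gn_nonneg (W a₁ a₂ : VV n → ℝ) (z : VV n) : 0 ≤ gn W a₁ a₂ z := by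
  unfold gn
  have : 0 ≤ ∑ i, ((HY.dx i a₁ z - HY.dx i W z * a₁ z) ^ 2 +
      (HY.dy i a₁ z + HY.dy i W z * a₁ z) ^ 2 +
      (HY.dy i a₂ z - HY.dy i W z * a₂ z) ^ 2 + (HY.dx i a₂ z + HY.dx i W z * a₂ z) ^ 2) :=
    Finset.sum_nonneg fun i _ => by positivity
  positivity

theorem gn_parts (W a₁ a₂ : VV n → ℝ) (z : VV n) :
    ∑ i, (HY.dx i a₁ z - HY.dx i W z * a₁ z) ^ 2 + ∑ i, (HY.dy i a₁ z + HY.dy i W z * a₁ z) ^ 2 +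
    ∑ i, (HY.dy i a₂ z - HY.dy i W z * a₂ z) ^ 2 + ∑ i, (HY.dx i a₂ z + HY.dx i W z * a₂ z) ^ 2 +
    (a₁ z ^ 2 + a₂ z ^ 2) = gn W a₁ a₂ z := by
  unfold gn
  simp only [Finset.sum_add_distrib]

theorem half_sq (x d : ℝ) : x ^ 2 / 2 - d ^ 2 ≤ (x + d) ^ 2 := by
  nlinarith [sq_nonneg (x + 2 * d)]

theorem sq4 (p q r s : ℝ) : (p + q + r + s) ^ 2 ≤ 4 * (p ^ 2 + q ^ 2 + r ^ 2 + s ^ 2) := by
  nlinarith [sq_nonneg (p - q), sq_nonneg (p - r), sq_nonneg (p - s), sq_nonneg (q - r),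
    sq_nonneg (q - s), sq_nonneg (r - s)]

/-- The perturbation of the first equation. -/
def d1 (B C : Fin n → V n → Matrix (Fin m) (Fin m) ℝ) (W : VV n → ℝ) (a₁ a₂ : Fin m → VV n → ℝ)
    (a : Fin m) (z : VV n) : ℝ :=
  -(∑ i, ∑ b, B i z.1 b a * (HY.dx i (a₁ b) z - HY.dx i W z * a₁ b z)) +
    -(∑ i, ∑ b, pd i (fun x => B i x b a) z.1 * a₁ b z) +
    -(∑ i, ∑ b, C i z.2 b a * (HY.dy i (a₂ b) z - HY.dy i W z * a₂ b z)) +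
    -(∑ i, ∑ b, pd i (fun x => C i x b a) z.2 * a₂ b z)

/-- The perturbation of the second equation. -/
def d2 (B C : Fin n → V n → Matrix (Fin m) (Fin m) ℝ) (W : VV n → ℝ) (a₁ a₂ : Fin m → VV n → ℝ)
    (a : Fin m) (z : VV n) : ℝ :=
  (∑ i, ∑ b, C i z.2 a b * (HY.dy i (a₁ b) z + HY.dy i W z * a₁ b z)) -
    ∑ i, ∑ b, B i z.1 a b * (HY.dx i (a₂ b) z + HY.dx i W z * a₂ b z)

variable {s₁ s₂ : MF n} {B C : Fin n → V n → Matrix (Fin m) (Fin m) ℝ} {W : VV n → ℝ}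
  {a₁ a₂ : Fin m → VV n → ℝ}

theorem Q_eq (a : Fin m) (z : VV n) : QXN s₁ B W a₁ a z + QYN s₂ C W a₂ a z =
    (QX s₁ W (a₁ a) z + QY s₂ W (a₂ a) z) + d1 B C W a₁ a₂ a z := by
  unfold QXN QYN d1
  simp only [Finset.sum_add_distrib]
  ring

theorem P_eq (a : Fin m) (z : VV n) : PYN s₂ C W a₁ a z - PXN s₁ B W a₂ a z =
    (PY s₂ W (a₁ a) z - PX s₁ W (a₂ a) z) + d2 B C W a₁ a₂ a z := by
  unfold PYN PXN d2
  ring

theorem d1_le {M : ℝ} (hB : Bn M B) (hC : Bn M C) (a : Fin m) (z : VV n) :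
    d1 B C W a₁ a₂ a z ^ 2 ≤ 4 * (n * m * M ^ 2) * (1 + n) * ∑ b, gn W (a₁ b) (a₂ b) z := by
  obtain ⟨K, hK⟩ : ∃ K : ℝ, K = n * m * M ^ 2 := ⟨_, rfl⟩
  have hK0 : 0 ≤ K := by rw [hK]; positivity
  have e1 := cs2 (n := n) (m := m) (M := M) (c := fun i b => B i z.1 b a)
    (x := fun i b => HY.dx i (a₁ b) z - HY.dx i W z * a₁ b z) (fun i b => hB.b0 i b a z.1)
  have e2 := cs2 (n := n) (m := m) (M := M) (c := fun i b => pd i (fun x => B i x b a) z.1)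
    (x := fun _ b => a₁ b z) (fun i b => hB.b1 i i b a z.1)
  have e3 := cs2 (n := n) (m := m) (M := M) (c := fun i b => C i z.2 b a)
    (x := fun i b => HY.dy i (a₂ b) z - HY.dy i W z * a₂ b z) (fun i b => hC.b0 i b a z.2)
  have e4 := cs2 (n := n) (m := m) (M := M) (c := fun i b => pd i (fun x => C i x b a) z.2)
    (x := fun _ b => a₂ b z) (fun i b => hC.b1 i i b a z.2)
  rw [← hK] at e1 e2 e3 e4
  rw [sum_const_n] at e2 e4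
  have h0 := sq4 (-(∑ i, ∑ b, B i z.1 b a * (HY.dx i (a₁ b) z - HY.dx i W z * a₁ b z)))
    (-(∑ i, ∑ b, pd i (fun x => B i x b a) z.1 * a₁ b z))
    (-(∑ i, ∑ b, C i z.2 b a * (HY.dy i (a₂ b) z - HY.dy i W z * a₂ b z)))
    (-(∑ i, ∑ b, pd i (fun x => C i x b a) z.2 * a₂ b z))
  simp only [neg_sq] at h0
  obtain ⟨x1, hx1⟩ : ∃ x, x = ∑ b, ∑ i, (HY.dx i (a₁ b) z - HY.dx i W z * a₁ b z) ^ 2 := ⟨_, rfl⟩
  obtain ⟨x2, hx2⟩ : ∃ x, x = ∑ b, a₁ b z ^ 2 := ⟨_, rfl⟩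
  obtain ⟨x3, hx3⟩ : ∃ x, x = ∑ b, ∑ i, (HY.dy i (a₂ b) z - HY.dy i W z * a₂ b z) ^ 2 := ⟨_, rfl⟩
  obtain ⟨x4, hx4⟩ : ∃ x, x = ∑ b, a₂ b z ^ 2 := ⟨_, rfl⟩
  obtain ⟨x5, hx5⟩ : ∃ x, x = ∑ b, ∑ i, (HY.dy i (a₁ b) z + HY.dy i W z * a₁ b z) ^ 2 := ⟨_, rfl⟩
  obtain ⟨x6, hx6⟩ : ∃ x, x = ∑ b, ∑ i, (HY.dx i (a₂ b) z + HY.dx i W z * a₂ b z) ^ 2 := ⟨_, rfl⟩
  have p1 : 0 ≤ x1 := by rw [hx1]; positivity
  have p2 : 0 ≤ x2 := by rw [hx2]; positivity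
  have p3 : 0 ≤ x3 := by rw [hx3]; positivity
  have p4 : 0 ≤ x4 := by rw [hx4]; positivity
  have p5 : 0 ≤ x5 := by rw [hx5]; positivity
  have p6 : 0 ≤ x6 := by rw [hx6]; positivity
  have hs : ∑ b, gn W (a₁ b) (a₂ b) z = x1 + x5 + x3 + x6 + (x2 + x4) := by
    rw [Finset.sum_congr rfl fun b _ => (gn_parts W (a₁ b) (a₂ b) z).symm]
    simp only [Finset.sum_add_distrib]
    rw [hx1, hx2, hx3, hx4, hx5, hx6]
  rw [← hx1] at e1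
  rw [← hx2] at e2
  rw [← hx3] at e3
  rw [← hx4] at e4
  unfold d1
  refine h0.trans ?_
  rw [hs]
  have hn : (0 : ℝ) ≤ n := by positivity
  have t1 : (∑ i, ∑ b, B i z.1 b a * (HY.dx i (a₁ b) z - HY.dx i W z * a₁ b z)) ^ 2 +
      (∑ i, ∑ b, pd i (fun x => B i x b a) z.1 * a₁ b z) ^ 2 +
      (∑ i, ∑ b, C i z.2 b a * (HY.dy i (a₂ b) z - HY.dy i W z * a₂ b z)) ^ 2 +
      (∑ i, ∑ b, pd i (fun x => C i x b a) z.2 * a₂ b z) ^ 2 ≤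
      K * (x1 + n * x2 + x3 + n * x4) := by linarith
  have t2 : x1 + n * x2 + x3 + n * x4 ≤ (1 + n) * (x1 + x5 + x3 + x6 + (x2 + x4)) := by
    have r1 := mul_nonneg hn p1
    have r3 := mul_nonneg hn p3
    have r5 := mul_nonneg hn p5
    have r6 := mul_nonneg hn p6
    nlinarith
  have t3 := mul_le_mul_of_nonneg_left t2 hK0
  rw [← hK]
  linarith

theorem d2_le {M : ℝ} (hB : Bn M B) (hC : Bn M C) (a : Fin m) (z : VV n) :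
    d2 B C W a₁ a₂ a z ^ 2 ≤ 4 * (n * m * M ^ 2) * (1 + n) * ∑ b, gn W (a₁ b) (a₂ b) z := by
  obtain ⟨K, hK⟩ : ∃ K : ℝ, K = n * m * M ^ 2 := ⟨_, rfl⟩
  have hK0 : 0 ≤ K := by rw [hK]; positivity
  have e1 := cs2 (n := n) (m := m) (M := M) (c := fun i b => B i z.1 a b)
    (x := fun i b => HY.dx i (a₂ b) z + HY.dx i W z * a₂ b z) (fun i b => hB.b0 i a b z.1)
  have e3 := cs2 (n := n) (m := m) (M := M) (c := fun i b => C i z.2 a b)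
    (x := fun i b => HY.dy i (a₁ b) z + HY.dy i W z * a₁ b z) (fun i b => hC.b0 i a b z.2)
  rw [← hK] at e1 e3
  obtain ⟨x1, hx1⟩ : ∃ x, x = ∑ b, ∑ i, (HY.dx i (a₁ b) z - HY.dx i W z * a₁ b z) ^ 2 := ⟨_, rfl⟩
  obtain ⟨x2, hx2⟩ : ∃ x, x = ∑ b, a₁ b z ^ 2 := ⟨_, rfl⟩
  obtain ⟨x3, hx3⟩ : ∃ x, x = ∑ b, ∑ i, (HY.dy i (a₂ b) z - HY.dy i W z * a₂ b z) ^ 2 := ⟨_, rfl⟩
  obtain ⟨x4, hx4⟩ : ∃ x, x = ∑ b, a₂ b z ^ 2 := ⟨_, rfl⟩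
  obtain ⟨x5, hx5⟩ : ∃ x, x = ∑ b, ∑ i, (HY.dy i (a₁ b) z + HY.dy i W z * a₁ b z) ^ 2 := ⟨_, rfl⟩
  obtain ⟨x6, hx6⟩ : ∃ x, x = ∑ b, ∑ i, (HY.dx i (a₂ b) z + HY.dx i W z * a₂ b z) ^ 2 := ⟨_, rfl⟩
  have p1 : 0 ≤ x1 := by rw [hx1]; positivity
  have p2 : 0 ≤ x2 := by rw [hx2]; positivity
  have p3 : 0 ≤ x3 := by rw [hx3]; positivity
  have p4 : 0 ≤ x4 := by rw [hx4]; positivity
  have p5 : 0 ≤ x5 := by rw [hx5]; positivity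
  have p6 : 0 ≤ x6 := by rw [hx6]; positivity
  have hs : ∑ b, gn W (a₁ b) (a₂ b) z = x1 + x5 + x3 + x6 + (x2 + x4) := by
    rw [Finset.sum_congr rfl fun b _ => (gn_parts W (a₁ b) (a₂ b) z).symm]
    simp only [Finset.sum_add_distrib]
    rw [hx1, hx2, hx3, hx4, hx5, hx6]
  rw [← hx6] at e1
  rw [← hx5] at e3
  rw [hs, ← hK]
  unfold d2
  obtain ⟨y1, hy1⟩ : ∃ y, y = ∑ i, ∑ b, C i z.2 a b * (HY.dy i (a₁ b) z + HY.dy i W z * a₁ b z) :=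
    ⟨_, rfl⟩
  obtain ⟨y2, hy2⟩ : ∃ y, y = ∑ i, ∑ b, B i z.1 a b * (HY.dx i (a₂ b) z + HY.dx i W z * a₂ b z) :=
    ⟨_, rfl⟩
  rw [← hy1, ← hy2]
  rw [← hy2] at e1
  rw [← hy1] at e3
  have hn : (0 : ℝ) ≤ n := by positivity
  have t0 : (y1 - y2) ^ 2 ≤ 2 * (y1 ^ 2 + y2 ^ 2) := by nlinarith [sq_nonneg (y1 + y2)]
  have t1 : y1 ^ 2 + y2 ^ 2 ≤ K * (x5 + x6) := by linarith
  have t2 : x5 + x6 ≤ (1 + n) * (x1 + x5 + x3 + x6 + (x2 + x4)) := by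
    have r1 := mul_nonneg hn p1
    have r2 := mul_nonneg hn p2
    have r3 := mul_nonneg hn p3
    have r4 := mul_nonneg hn p4
    have r5 := mul_nonneg hn p5
    have r6 := mul_nonneg hn p6
    nlinarith
  have t3 := mul_le_mul_of_nonneg_left t2 hK0
  have t4 : 0 ≤ K * ((1 + n) * (x1 + x5 + x3 + x6 + (x2 + x4))) := by positivity
  linarith

/-! ## Integration -/

theorem tt_dx {f : VV n → ℝ} (h : Tt univ f) (i : Fin n) : Tt univ (HY.dx i f) := by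
  refine ⟨S.dx h.s i, ?_, subset_univ _⟩
  rw [← db_inl]
  exact cs_db h.c _

theorem tt_dy {f : VV n → ℝ} (h : Tt univ f) (i : Fin n) : Tt univ (HY.dy i f) := by
  refine ⟨S.dy h.s i, ?_, subset_univ _⟩
  rw [← db_inr]
  exact cs_db h.c _

theorem tt_mulL {f g : VV n → ℝ} (hf : S f) (hg : Tt univ g) : Tt univ (fun z => f z * g z) :=
  ⟨hf.mul hg.s, hg.c.mul_left, subset_univ _⟩

theorem tt_add {f g : VV n → ℝ} (hf : Tt univ f) (hg : Tt univ g) : Tt univ (fun z => f z + g z) :=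
  ⟨hf.s.add hg.s, hf.c.add hg.c, subset_univ _⟩

theorem tt_sub {f g : VV n → ℝ} (hf : Tt univ f) (hg : Tt univ g) : Tt univ (fun z => f z - g z) :=
  ⟨hf.s.sub hg.s, hf.c.sub hg.c, subset_univ _⟩

theorem tt_neg {f : VV n → ℝ} (hf : Tt univ f) : Tt univ (fun z => -f z) :=
  ⟨hf.s.neg, hf.c.neg, subset_univ _⟩

theorem tt_sq {f : VV n → ℝ} (hf : Tt univ f) : Tt univ (fun z => f z ^ 2) := by
  have h := tt_mulL hf.s hf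
  have e : (fun z => f z ^ 2) = fun z => f z * f z := by
    funext z
    ring
  rw [e]
  exact h

theorem tt_zero : Tt univ (fun _ : VV n => (0 : ℝ)) :=
  ⟨contDiff_const, HasCompactSupport.zero, subset_univ _⟩

theorem tt_sum {ι : Type*} (t : Finset ι) {f : ι → VV n → ℝ} (hf : ∀ i, Tt univ (f i)) :
    Tt univ (fun z => ∑ i ∈ t, f i z) := by
  classical
  induction t using Finset.induction_on with
  | empty =>
    simp only [Finset.sum_empty]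
    exact tt_zero
  | insert a t ha ih =>
    simp only [Finset.sum_insert ha]
    exact tt_add (hf a) ih

theorem tt_gn {W a₁ a₂ : VV n → ℝ} (hW : S W) (h1 : Tt univ a₁) (h2 : Tt univ a₂) :
    Tt univ (gn W a₁ a₂) := by
  unfold gn
  refine tt_add (tt_sum _ fun i => tt_add (tt_add (tt_add ?_ ?_) ?_) ?_) (tt_add (tt_sq h1) (tt_sq h2))
  · exact tt_sq (tt_sub (tt_dx h1 i) (tt_mulL (S.dx hW i) h1))
  · exact tt_sq (tt_add (tt_dy h1 i) (tt_mulL (S.dy hW i) h1))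
  · exact tt_sq (tt_sub (tt_dy h2 i) (tt_mulL (S.dy hW i) h2))
  · exact tt_sq (tt_add (tt_dx h2 i) (tt_mulL (S.dx hW i) h2))

theorem tt_QX {s : MF n} (hs : SmM s) {W f : VV n → ℝ} (hW : S W) (hf : Tt univ f) :
    Tt univ (QX s W f) := by
  rw [QX_eq]
  exact ⟨S.Qd (sm_aX hs) hW hf.s, cs_Qd hf.c, subset_univ _⟩

theorem tt_QY {s : MF n} (hs : SmM s) {W f : VV n → ℝ} (hW : S W) (hf : Tt univ f) :
    Tt univ (QY s W f) := by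
  rw [QY_eq]
  exact ⟨S.Qd (sm_aY hs) hW hf.s, cs_Qd hf.c, subset_univ _⟩

theorem tt_PX {s : MF n} (hs : SmM s) {W f : VV n → ℝ} (hW : S W) (hf : Tt univ f) :
    Tt univ (PX s W f) := by
  rw [PX_eq hs hW]
  exact ⟨S.Qd (sm_aX hs) hW.neg hf.s, cs_Qd hf.c, subset_univ _⟩

theorem tt_PY {s : MF n} (hs : SmM s) {W f : VV n → ℝ} (hW : S W) (hf : Tt univ f) :
    Tt univ (PY s W f) := by
  rw [PY_eq hs hW]
  exact ⟨S.Qd (sm_aY hs) hW.neg hf.s, cs_Qd hf.c, subset_univ _⟩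

theorem s_fst {f : V n → ℝ} (hf : ContDiff ℝ ∞ f) : S (fun z : VV n => f z.1) := hf.comp contDiff_fst

theorem s_snd {f : V n → ℝ} (hf : ContDiff ℝ ∞ f) : S (fun z : VV n => f z.2) := hf.comp contDiff_snd

theorem s_pd {f : V n → ℝ} (hf : ContDiff ℝ ∞ f) (i : Fin n) : ContDiff ℝ ∞ (pd i f) :=
  (hf.fderiv_right (by simp)).clm_apply contDiff_const

theorem tt_d1 {M : ℝ} (hB : Bn M B) (hC : Bn M C) (hW : S W) (h1 : ∀ a, Tt univ (a₁ a))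
    (h2 : ∀ a, Tt univ (a₂ a)) (a : Fin m) : Tt univ (d1 B C W a₁ a₂ a) := by
  unfold d1
  refine tt_add (tt_add (tt_add ?_ ?_) ?_) ?_
  · exact tt_neg (tt_sum _ fun i => tt_sum _ fun b => tt_mulL (s_fst (hB.sm i b a))
      (tt_sub (tt_dx (h1 b) i) (tt_mulL (S.dx hW i) (h1 b))))
  · exact tt_neg (tt_sum _ fun i => tt_sum _ fun b => tt_mulL (s_fst (s_pd (hB.sm i b a) i)) (h1 b))
  · exact tt_neg (tt_sum _ fun i => tt_sum _ fun b => tt_mulL (s_snd (hC.sm i b a))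
      (tt_sub (tt_dy (h2 b) i) (tt_mulL (S.dy hW i) (h2 b))))
  · exact tt_neg (tt_sum _ fun i => tt_sum _ fun b => tt_mulL (s_snd (s_pd (hC.sm i b a) i)) (h2 b))

theorem tt_d2 {M : ℝ} (hB : Bn M B) (hC : Bn M C) (hW : S W) (h1 : ∀ a, Tt univ (a₁ a))
    (h2 : ∀ a, Tt univ (a₂ a)) (a : Fin m) : Tt univ (d2 B C W a₁ a₂ a) := by
  unfold d2
  refine tt_sub ?_ ?_
  · exact tt_sum _ fun i => tt_sum _ fun b => tt_mulL (s_snd (hC.sm i a b))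
      (tt_add (tt_dy (h1 b) i) (tt_mulL (S.dy hW i) (h1 b)))
  · exact tt_sum _ fun i => tt_sum _ fun b => tt_mulL (s_fst (hB.sm i a b))
      (tt_add (tt_dx (h2 b) i) (tt_mulL (S.dx hW i) (h2 b)))

theorem int_ct {o f : VV n → ℝ} (ho : Continuous o) (hf : Tt univ f) :
    Integrable (fun z => o z * f z) :=
  (ho.mul hf.s.continuous).integrable_of_hasCompactSupport hf.c.mul_left

/-- **ESTN.** The estimate of `RowSOL3N` from the scalar estimate with gains. -/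
theorem estN (n m : ℕ) (M : ℝ) {C₀ : ℝ} (hC₀ : 0 ≤ C₀) : ∃ G0 : ℝ, 0 ≤ G0 ∧
    ∀ (s₁ s₂ : MF n), SmM s₁ → SmM s₂ → ∀ B C : Fin n → V n → Matrix (Fin m) (Fin m) ℝ,
    Bn M B → Bn M C → ∀ W : VV n → ℝ, ContDiff ℝ ∞ W → ∀ w o₁ o₂ : VV n → ℝ, Continuous w →
    Continuous o₁ → (∀ z, 0 < o₁ z) → (∀ z, o₁ z ≤ C₀) → Continuous o₂ → (∀ z, 0 < o₂ z) →
    (∀ z, o₂ z ≤ C₀) →
    (∀ a₁ a₂ : VV n → ℝ, Tt univ a₁ → Tt univ a₂ →
      (∫ z, w z * (a₁ z ^ 2 + a₂ z ^ 2)) + G0 * ∫ z, gn W a₁ a₂ z ≤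
        ∫ z, (o₁ z * (QX s₁ W a₁ z + QY s₂ W a₂ z) ^ 2
          + o₂ z * (PY s₂ W a₁ z - PX s₁ W a₂ z) ^ 2)) →
    ∀ a₁ a₂ : Fin m → VV n → ℝ, (∀ a, Tt univ (a₁ a)) → (∀ a, Tt univ (a₂ a)) →
      ∫ z, (w z / 2) * ∑ a, (a₁ a z ^ 2 + a₂ a z ^ 2) ≤
        ∫ z, (o₁ z * ∑ a, (QXN s₁ B W a₁ a z + QYN s₂ C W a₂ a z) ^ 2
          + o₂ z * ∑ a, (PYN s₂ C W a₁ a z - PXN s₁ B W a₂ a z) ^ 2) := by
  obtain ⟨L, hL⟩ : ∃ L : ℝ, L = 4 * (n * m * M ^ 2) * (1 + n) := ⟨_, rfl⟩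
  have hL0 : 0 ≤ L := by rw [hL]; positivity
  refine ⟨4 * C₀ * m * L, by positivity, ?_⟩
  intro s₁ s₂ hs₁ hs₂ B C hB hC W hW w o₁ o₂ cw co₁ p₁ b₁ co₂ p₂ b₂ est a₁ a₂ h1 h2
  -- pointwise
  have hpt : ∀ z, (∑ a, (o₁ z * (QX s₁ W (a₁ a) z + QY s₂ W (a₂ a) z) ^ 2
      + o₂ z * (PY s₂ W (a₁ a) z - PX s₁ W (a₂ a) z) ^ 2)) / 2 -
      2 * C₀ * m * L * ∑ a, gn W (a₁ a) (a₂ a) z ≤
      o₁ z * ∑ a, (QXN s₁ B W a₁ a z + QYN s₂ C W a₂ a z) ^ 2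
          + o₂ z * ∑ a, (PYN s₂ C W a₁ a z - PXN s₁ B W a₂ a z) ^ 2 := by
    intro z
    have hg : 0 ≤ ∑ a, gn W (a₁ a) (a₂ a) z := Finset.sum_nonneg fun a _ => gn_nonneg _ _ _ _
    have k1 : ∀ a, o₁ z * (QX s₁ W (a₁ a) z + QY s₂ W (a₂ a) z) ^ 2 / 2 -
        C₀ * (L * ∑ b, gn W (a₁ b) (a₂ b) z) ≤
        o₁ z * (QXN s₁ B W a₁ a z + QYN s₂ C W a₂ a z) ^ 2 := by
      intro a
      rw [Q_eq]
      have e1 := half_sq (QX s₁ W (a₁ a) z + QY s₂ W (a₂ a) z) (d1 B C W a₁ a₂ a z)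
      have e2 := d1_le (W := W) (a₁ := a₁) (a₂ := a₂) hB hC a z
      rw [← hL] at e2
      have e3 := mul_le_mul_of_nonneg_left e1 (p₁ z).le
      have e4 : o₁ z * d1 B C W a₁ a₂ a z ^ 2 ≤ C₀ * (L * ∑ b, gn W (a₁ b) (a₂ b) z) :=
        mul_le_mul (b₁ z) e2 (sq_nonneg _) hC₀
      linarith
    have k2 : ∀ a, o₂ z * (PY s₂ W (a₁ a) z - PX s₁ W (a₂ a) z) ^ 2 / 2 -
        C₀ * (L * ∑ b, gn W (a₁ b) (a₂ b) z) ≤
        o₂ z * (PYN s₂ C W a₁ a z - PXN s₁ B W a₂ a z) ^ 2 := by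
      intro a
      rw [P_eq]
      have e1 := half_sq (PY s₂ W (a₁ a) z - PX s₁ W (a₂ a) z) (d2 B C W a₁ a₂ a z)
      have e2 := d2_le (W := W) (a₁ := a₁) (a₂ := a₂) hB hC a z
      rw [← hL] at e2
      have e3 := mul_le_mul_of_nonneg_left e1 (p₂ z).le
      have e4 : o₂ z * d2 B C W a₁ a₂ a z ^ 2 ≤ C₀ * (L * ∑ b, gn W (a₁ b) (a₂ b) z) :=
        mul_le_mul (b₂ z) e2 (sq_nonneg _) hC₀
      linarith
    have k3 := Finset.sum_le_sum fun a (_ : a ∈ Finset.univ) => add_le_add (k1 a) (k2 a)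
    have k4 : ∑ a : Fin m, ((o₁ z * (QX s₁ W (a₁ a) z + QY s₂ W (a₂ a) z) ^ 2 / 2 -
        C₀ * (L * ∑ b, gn W (a₁ b) (a₂ b) z)) +
        (o₂ z * (PY s₂ W (a₁ a) z - PX s₁ W (a₂ a) z) ^ 2 / 2 -
        C₀ * (L * ∑ b, gn W (a₁ b) (a₂ b) z))) =
        (∑ a, (o₁ z * (QX s₁ W (a₁ a) z + QY s₂ W (a₂ a) z) ^ 2
          + o₂ z * (PY s₂ W (a₁ a) z - PX s₁ W (a₂ a) z) ^ 2)) / 2 -
          2 * C₀ * m * L * ∑ a, gn W (a₁ a) (a₂ a) z := by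
      have e5 : ∀ a : Fin m, ((o₁ z * (QX s₁ W (a₁ a) z + QY s₂ W (a₂ a) z) ^ 2 / 2 -
        C₀ * (L * ∑ b, gn W (a₁ b) (a₂ b) z)) +
        (o₂ z * (PY s₂ W (a₁ a) z - PX s₁ W (a₂ a) z) ^ 2 / 2 -
        C₀ * (L * ∑ b, gn W (a₁ b) (a₂ b) z))) =
        (o₁ z * (QX s₁ W (a₁ a) z + QY s₂ W (a₂ a) z) ^ 2
          + o₂ z * (PY s₂ W (a₁ a) z - PX s₁ W (a₂ a) z) ^ 2) / 2 -
          2 * C₀ * L * ∑ b, gn W (a₁ b) (a₂ b) z := fun a => by ring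
      rw [Finset.sum_congr rfl fun a _ => e5 a, Finset.sum_sub_distrib, Finset.sum_const,
        Finset.card_univ, Fintype.card_fin, nsmul_eq_mul, ← Finset.sum_div]
      ring
    have k5 : ∑ a, (o₁ z * (QXN s₁ B W a₁ a z + QYN s₂ C W a₂ a z) ^ 2 +
        o₂ z * (PYN s₂ C W a₁ a z - PXN s₁ B W a₂ a z) ^ 2) =
        o₁ z * ∑ a, (QXN s₁ B W a₁ a z + QYN s₂ C W a₂ a z) ^ 2
          + o₂ z * ∑ a, (PYN s₂ C W a₁ a z - PXN s₁ B W a₂ a z) ^ 2 := by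
      rw [Finset.sum_add_distrib, ← Finset.mul_sum, ← Finset.mul_sum]
    rw [k4, k5] at k3
    exact k3
  -- integrability
  have i1 : ∀ a, Integrable (fun z => o₁ z * (QX s₁ W (a₁ a) z + QY s₂ W (a₂ a) z) ^ 2
      + o₂ z * (PY s₂ W (a₁ a) z - PX s₁ W (a₂ a) z) ^ 2) := fun a =>
    (int_ct co₁ (tt_sq (tt_add (tt_QX hs₁ hW (h1 a)) (tt_QY hs₂ hW (h2 a))))).add
      (int_ct co₂ (tt_sq (tt_sub (tt_PY hs₂ hW (h1 a)) (tt_PX hs₁ hW (h2 a)))))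
  have i2 : ∀ a, Integrable (gn W (a₁ a) (a₂ a)) := fun a =>
    (tt_gn hW (h1 a) (h2 a)).s.continuous.integrable_of_hasCompactSupport
      (tt_gn hW (h1 a) (h2 a)).c
  have i3 : Integrable (fun z => o₁ z * ∑ a, (QXN s₁ B W a₁ a z + QYN s₂ C W a₂ a z) ^ 2
      + o₂ z * ∑ a, (PYN s₂ C W a₁ a z - PXN s₁ B W a₂ a z) ^ 2) := by
    simp only [Q_eq, P_eq]
    exact (int_ct co₁ (tt_sum _ fun a => tt_sq (tt_add (tt_add (tt_QX hs₁ hW (h1 a))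
      (tt_QY hs₂ hW (h2 a))) (tt_d1 hB hC hW h1 h2 a)))).add
      (int_ct co₂ (tt_sum _ fun a => tt_sq (tt_add (tt_sub (tt_PY hs₂ hW (h1 a))
        (tt_PX hs₁ hW (h2 a))) (tt_d2 hB hC hW h1 h2 a))))
  have i4 : ∀ a, Integrable (fun z => w z * (a₁ a z ^ 2 + a₂ a z ^ 2)) := fun a =>
    int_ct cw (tt_add (tt_sq (h1 a)) (tt_sq (h2 a)))
  have j1 : Integrable (fun z => ∑ a, (o₁ z * (QX s₁ W (a₁ a) z + QY s₂ W (a₂ a) z) ^ 2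
      + o₂ z * (PY s₂ W (a₁ a) z - PX s₁ W (a₂ a) z) ^ 2)) := integrable_finsetSum _ fun a _ => i1 a
  have j2 : Integrable (fun z => ∑ a, gn W (a₁ a) (a₂ a) z) := integrable_finsetSum _ fun a _ => i2 a
  have j3 : Integrable (fun z => (∑ a, (o₁ z * (QX s₁ W (a₁ a) z + QY s₂ W (a₂ a) z) ^ 2
      + o₂ z * (PY s₂ W (a₁ a) z - PX s₁ W (a₂ a) z) ^ 2)) / 2 -
      2 * C₀ * m * L * ∑ a, gn W (a₁ a) (a₂ a) z) :=
    (j1.div_const 2).sub (j2.const_mul (2 * C₀ * m * L))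
  have hint := integral_mono j3 i3 hpt
  rw [integral_sub (j1.div_const 2) (j2.const_mul (2 * C₀ * m * L)), integral_div,
    integral_const_mul, integral_finsetSum _ fun a _ => i1 a, integral_finsetSum _ fun a _ => i2 a]
    at hint
  have hsum := Finset.sum_le_sum fun a (_ : a ∈ Finset.univ) => est (a₁ a) (a₂ a) (h1 a) (h2 a)
  rw [Finset.sum_add_distrib, ← Finset.mul_sum] at hsum
  have e6 : ∫ z, (w z / 2) * ∑ a, (a₁ a z ^ 2 + a₂ a z ^ 2) =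
      (∑ a, ∫ z, w z * (a₁ a z ^ 2 + a₂ a z ^ 2)) / 2 := by
    rw [← integral_finsetSum _ fun a _ => i4 a, ← integral_div]
    congr 1
    funext z
    rw [← Finset.mul_sum]
    ring
  rw [e6]
  refine le_trans ?_ hint
  linarith

end Vale.Agent.P088.S4.H437
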