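import Vale.Agent.P088.H641.BHad

/-!
# P088, stage 3, row EXT: smooth symmetric divergence free extension across `{x_0 = 0}`
-/

open MeasureTheory Set Filter Topology
open scoped ContDiff Matrix

noncomputable section

namespace Vale.Agent.P088.HY.H437

open Vale.Agent.P088.LR

variable {n : ℕ}

/-- `∫_0^{x_i} e(x with x_i replaced by t) dt`. -/
def prim (i : Fin n) (e : V n → ℝ) (x : V n) : ℝ :=
  ∫ t in (0 : ℝ)..(x i), e (Function.update x i t)

theorem upd_smooth (i : Fin n) : ContDiff ℝ ∞ fun p : V n × ℝ => Function.update p.1 i p.2 := by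
  rw [contDiff_pi]
  intro j
  rcases eq_or_ne j i with h | h
  · subst h
    simpa using contDiff_snd
  · simp only [Function.update_of_ne h]
    exact (contDiff_apply ℝ ℝ j).comp contDiff_fst

theorem prim_eq (i : Fin n) {e : V n → ℝ} (x : V n) :
    prim i e x = x i * ∫ θ in (0 : ℝ)..1, e (Function.update x i (θ * x i)) := by
  unfold prim
  have h := intervalIntegral.smul_integral_comp_mul_right (a := 0) (b := 1)
    (fun t => e (Function.update x i t)) (x i)
  rw [zero_mul, one_mul, smul_eq_mul] at h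
  exact h.symm

theorem prim_smooth (i : Fin n) {e : V n → ℝ} (he : ContDiff ℝ ∞ e) :
    ContDiff ℝ ∞ (prim i e) := by
  have h1 : ContDiff ℝ ∞ fun p : V n × ℝ => e (Function.update p.1 i (p.2 * p.1 i)) :=
    he.comp ((upd_smooth i).comp (contDiff_fst.prodMk
      (contDiff_snd.mul ((contDiff_apply ℝ ℝ i).comp contDiff_fst))))
  have h2 := Vale.Agent.P088.LR.B.H641.contDiff_integral_unit h1
  have h3 : prim i e = fun x => x i * ∫ θ in (0 : ℝ)..1, e (Function.update x i (θ * x i)) :=
    funext fun x => prim_eq i x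
  rw [h3]
  exact (contDiff_apply ℝ ℝ i).mul h2

theorem pd_prim (i : Fin n) {e : V n → ℝ} (he : ContDiff ℝ ∞ e) (x : V n) :
    pd i (prim i e) x = e x := by
  have hd : DifferentiableAt ℝ (prim i e) x := ((prim_smooth i he).differentiable (by simp)) x
  -- derivative along the line `x + s e_i`
  have hl : HasDerivAt (fun s : ℝ => Function.update x i s) (Pi.single i 1) (x i) := by
    rw [hasDerivAt_pi]
    intro j
    rcases eq_or_ne j i with h | h
    · subst h
      simp only [Function.update_self, Pi.single_eq_same]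
      exact hasDerivAt_id' (x j)
    · simp only [Function.update_of_ne h, Pi.single_eq_of_ne h]
      exact hasDerivAt_const _ _
  have hx : Function.update x i (x i) = x := Function.update_eq_self i x
  have h1 : HasDerivAt (fun s : ℝ => prim i e (Function.update x i s)) (pd i (prim i e) x) (x i) := by
    have h2 : HasFDerivAt (prim i e) (fderiv ℝ (prim i e) x) (Function.update x i (x i)) := by
      rw [hx]
      exact hd.hasFDerivAt
    exact h2.comp_hasDerivAt (x i) hl
  have h2 : (fun s : ℝ => prim i e (Function.update x i s)) =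
      fun s => ∫ t in (0 : ℝ)..s, e (Function.update x i t) := by
    funext s
    unfold prim
    simp
  rw [h2] at h1
  have hc : Continuous fun t : ℝ => e (Function.update x i t) :=
    he.continuous.comp (continuous_const.update i continuous_id)
  have h3 := intervalIntegral.integral_hasDerivAt_right (hc.intervalIntegrable 0 (x i))
    (hc.stronglyMeasurableAtFilter _ _) hc.continuousAt
  rw [hx] at h3
  exact h1.unique h3

/-- Sets which contain with `x` the segment to its projection to `{x_i = 0}`. -/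
def Seg (i : Fin n) (D : Set (V n)) : Prop :=
  ∀ x ∈ D, ∀ θ ∈ Icc (0 : ℝ) 1, Function.update x i (θ * x i) ∈ D

theorem prim_zero {i : Fin n} {D : Set (V n)} (hD : Seg i D) {e : V n → ℝ}
    (he : ∀ x ∈ D, 0 ≤ x i → e x = 0) {x : V n} (hx : x ∈ D) (h0 : 0 ≤ x i) : prim i e x = 0 := by
  rw [prim_eq]
  have h1 : ∫ θ in (0 : ℝ)..1, e (Function.update x i (θ * x i)) = ∫ θ in (0 : ℝ)..1, (0 : ℝ) := by
    refine intervalIntegral.integral_congr fun θ hθ => ?_
    rw [uIcc_of_le zero_le_one] at hθ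
    refine he _ (hD x hx θ hθ) ?_
    rw [Function.update_self]
    exact mul_nonneg hθ.1 h0
  rw [h1]
  simp

/-- A smooth function which vanishes on `D ∩ {x_i ≥ 0}` has vanishing derivatives there. -/
theorem pd_zero {i : Fin n} {D : Set (V n)} (hD : IsOpen D) {f : V n → ℝ} (hf : ContDiff ℝ ∞ f)
    (h : ∀ x ∈ D, 0 ≤ x i → f x = 0) (j : Fin n) {x : V n} (hx : x ∈ D) (h0 : 0 ≤ x i) :
    pd j f x = 0 := by
  have hpos : ∀ y ∈ D, 0 < y i → pd j f y = 0 := by
    intro y hy hy0
    have h1 : f =ᶠ[𝓝 y] fun _ => 0 := by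
      filter_upwards [hD.mem_nhds hy, (continuous_apply i).continuousAt.preimage_mem_nhds
        (Ioi_mem_nhds hy0)] with z hz hz0
      exact h z hz (le_of_lt hz0)
    unfold pd
    rw [h1.fderiv_eq]
    simp
  rcases h0.lt_or_eq with h1 | h1
  · exact hpos x hx h1
  · have hc : Continuous (pd j f) := by
      have : Continuous (fderiv ℝ f) := hf.continuous_fderiv (by simp)
      exact this.clm_apply continuous_const
    -- approach along `x + t e_i`
    have hl : Tendsto (fun t : ℝ => x + t • (Pi.single i 1 : V n)) (𝓝[>] 0) (𝓝 x) := by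
      have h2 : Continuous fun t : ℝ => x + t • (Pi.single i 1 : V n) := by fun_prop
      have h3 := h2.tendsto 0
      rw [zero_smul, add_zero] at h3
      exact h3.mono_left nhdsWithin_le_nhds
    have h2 : Tendsto (fun t : ℝ => pd j f (x + t • (Pi.single i 1 : V n))) (𝓝[>] 0)
        (𝓝 (pd j f x)) := (hc.tendsto x).comp hl
    have h3 : ∀ᶠ t : ℝ in 𝓝[>] 0, pd j f (x + t • (Pi.single i 1 : V n)) = 0 := by
      filter_upwards [hl.eventually (hD.mem_nhds hx), self_mem_nhdsWithin] with t ht ht0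
      refine hpos _ ht ?_
      have : (x + t • (Pi.single i 1 : V n)) i = t := by simp [← h1]
      rw [this]
      exact ht0
    exact tendsto_nhds_unique (h2.congr' h3) tendsto_const_nhds |>.trans rfl

/-- The divergence of the columns. -/
def dvc (s : MF n) (j : Fin n) (x : V n) : ℝ := ∑ i, pd i (fun y => s y i j) x

theorem pd_smooth (j : Fin n) {f : V n → ℝ} (hf : ContDiff ℝ ∞ f) : ContDiff ℝ ∞ (pd j f) :=
  (hf.fderiv_right (m := ∞) (by simp)).clm_apply contDiff_const

theorem dvc_smooth {s : MF n} (hs : SmM s) (j : Fin n) : ContDiff ℝ ∞ (dvc s j) :=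
  ContDiff.sum fun i _ => pd_smooth i (hs i j)

/-- The corner entry: `e_0 - ∑_{a ≠ 0} ∂_a ∫ e_a`. -/
def cnr (i₀ : Fin n) (s : MF n) (x : V n) : ℝ :=
  dvc s i₀ x - ∑ a ∈ Finset.univ.erase i₀, pd a (prim i₀ (dvc s a)) x

/-- The correction. -/
def corr (i₀ : Fin n) (s : MF n) : MF n := fun x i j =>
  if i = i₀ then (if j = i₀ then -prim i₀ (cnr i₀ s) x else -prim i₀ (dvc s j) x)
  else (if j = i₀ then -prim i₀ (dvc s i) x else 0)

theorem cnr_smooth (i₀ : Fin n) {s : MF n} (hs : SmM s) : ContDiff ℝ ∞ (cnr i₀ s) :=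
  (dvc_smooth hs i₀).sub
    (ContDiff.sum fun a _ => pd_smooth a (prim_smooth i₀ (dvc_smooth hs a)))

theorem corr_smooth (i₀ : Fin n) {s : MF n} (hs : SmM s) : SmM (corr i₀ s) := by
  intro i j
  by_cases hi : i = i₀ <;> by_cases hj : j = i₀
  · simp only [corr, if_pos hi, if_pos hj]
    exact (prim_smooth i₀ (cnr_smooth i₀ hs)).neg
  · simp only [corr, if_pos hi, if_neg hj]
    exact (prim_smooth i₀ (dvc_smooth hs j)).neg
  · simp only [corr, if_neg hi, if_pos hj]
    exact (prim_smooth i₀ (dvc_smooth hs i)).neg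
  · simp only [corr, if_neg hi, if_neg hj]
    exact contDiff_const

theorem corr_symm (i₀ : Fin n) (s : MF n) (x : V n) : (corr i₀ s x).IsSymm := by
  ext i j
  show corr i₀ s x j i = corr i₀ s x i j
  by_cases hi : i = i₀ <;> by_cases hj : j = i₀ <;> simp [corr, hi, hj]

theorem pd_neg' (j : Fin n) (f : V n → ℝ) (x : V n) : pd j (fun y => -f y) x = -pd j f x := by
  unfold pd
  rw [fderiv_fun_neg]
  simp

theorem pd_zero' (j : Fin n) (x : V n) : pd j (fun _ : V n => (0 : ℝ)) x = 0 := by
  unfold pd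
  simp

theorem dvc_corr (i₀ : Fin n) {s : MF n} (hs : SmM s) (j : Fin n) (x : V n) :
    dvc (corr i₀ s) j x = -dvc s j x := by
  unfold dvc
  rw [← Finset.add_sum_erase _ _ (Finset.mem_univ i₀)]
  by_cases hj : j = i₀
  · subst hj
    have h1 : pd j (fun y => corr j s y j j) x = -cnr j s x := by
      simp only [corr, if_true]
      rw [pd_neg', pd_prim j (cnr_smooth j hs)]
    have h2 : ∑ i ∈ Finset.univ.erase j, pd i (fun y => corr j s y i j) x =
        -∑ a ∈ Finset.univ.erase j, pd a (prim j (dvc s a)) x := by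
      rw [← Finset.sum_neg_distrib]
      refine Finset.sum_congr rfl fun i hi => ?_
      have hi' := Finset.ne_of_mem_erase hi
      simp only [corr, if_neg hi', if_true]
      rw [pd_neg']
    rw [h1, h2]
    unfold cnr dvc
    ring
  · have h1 : pd i₀ (fun y => corr i₀ s y i₀ j) x = -dvc s j x := by
      simp only [corr, if_true, if_neg hj]
      rw [pd_neg', pd_prim i₀ (dvc_smooth hs j)]
    have h2 : ∑ i ∈ Finset.univ.erase i₀, pd i (fun y => corr i₀ s y i j) x = 0 := by
      refine Finset.sum_eq_zero fun i hi => ?_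
      have hi' := Finset.ne_of_mem_erase hi
      simp only [corr, if_neg hi', if_neg hj]
      exact pd_zero' i x
    rw [h1, h2, add_zero]
    rfl

theorem dvc_add {s t : MF n} (hs : SmM s) (ht : SmM t) (j : Fin n) (x : V n) :
    dvc (fun y => s y + t y) j x = dvc s j x + dvc t j x := by
  unfold dvc
  rw [← Finset.sum_add_distrib]
  refine Finset.sum_congr rfl fun i _ => ?_
  unfold pd
  have h1 : (fun y => (s y + t y) i j) = fun y => s y i j + t y i j := rfl
  rw [h1, fderiv_fun_add (((hs i j).differentiable (by simp)) x)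
    (((ht i j).differentiable (by simp)) x)]
  rfl

theorem corr_zero {i₀ : Fin n} {D : Set (V n)} (hO : IsOpen D) (hD : Seg i₀ D) {s : MF n}
    (hs : SmM s) (h : ∀ x ∈ D, 0 ≤ x i₀ → ∀ j, dvc s j x = 0) {x : V n} (hx : x ∈ D)
    (h0 : 0 ≤ x i₀) : corr i₀ s x = 0 := by
  have h1 : ∀ j, ∀ x ∈ D, 0 ≤ x i₀ → prim i₀ (dvc s j) x = 0 := fun j x hx h0 =>
    prim_zero hD (fun y hy hy0 => h y hy hy0 j) hx h0
  have h2 : ∀ x ∈ D, 0 ≤ x i₀ → cnr i₀ s x = 0 := by
    intro x hx h0
    unfold cnr
    rw [h x hx h0 i₀, Finset.sum_eq_zero, sub_zero]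
    intro a _
    exact pd_zero hO (prim_smooth i₀ (dvc_smooth hs a)) (h1 a) a hx h0
  have h3 := prim_zero hD h2 hx h0
  ext i j
  by_cases hi : i = i₀ <;> by_cases hj : j = i₀ <;>
    simp [corr, hi, hj, h3, h1 _ x hx h0]

/-- **Symmetric divergence free extension.** Let `s` be smooth and symmetric on `ℝ^n` with
`div s = 0` on `D ∩ {x_0 ≥ 0}`. There is a smooth symmetric `t` with `div t = 0` on all of `ℝ^n`
and `t = s` on `D ∩ {x_0 ≥ 0}`. -/
theorem ext_div (i₀ : Fin n) {D : Set (V n)} (hO : IsOpen D) (hD : Seg i₀ D) {s : MF n}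
    (hs : SmM s) (hy : ∀ x, (s x).IsSymm) (h : ∀ x ∈ D, 0 ≤ x i₀ → ∀ j, dvc s j x = 0) :
    ∃ t : MF n, SmM t ∧ (∀ x, (t x).IsSymm) ∧ (∀ x j, dvc t j x = 0) ∧
      ∀ x ∈ D, 0 ≤ x i₀ → t x = s x := by
  refine ⟨fun x => s x + corr i₀ s x, fun i j => (hs i j).add (corr_smooth i₀ hs i j),
    fun x => (hy x).add (corr_symm i₀ s x), fun x j => ?_, fun x hx h0 => ?_⟩
  · rw [dvc_add hs (corr_smooth i₀ hs), dvc_corr i₀ hs, add_neg_cancel]
  · show s x + corr i₀ s x = s x
    rw [corr_zero hO hD hs h hx h0, add_zero]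

end Vale.Agent.P088.HY.H437
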