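import Vale.Agent.P088.R2.H437.EXT
import Vale.Agent.P088.R2.H455.Seel2

/-!
# P088, stage 3, row EXT: two tensors on a half ball with equal jets are extended across the
boundary as smooth symmetric divergence free tensors which are equal outside
-/

open MeasureTheory Set Filter Topology Metric
open scoped ContDiff Matrix

set_option linter.all false

noncomputable section

namespace Vale.Agent.P088.HY.H437

open Vale.Agent.P088.EYM (Hs HB ev Van RelOpen)
open Vale.Agent.P088.R2.H455 (ext_real ez ez_pos ez_neg ez_smooth' posDef_nhds)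
open Vale.Agent.P088.LR (V MF SmM)

variable {n : ℕ} [NeZero n]

/-- `V n → E n`. -/
def toE (n : ℕ) : V n ≃L[ℝ] EYM.E n := (EuclideanSpace.equiv (Fin n) ℝ).symm

theorem toE_apply (v : V n) (i : Fin n) : toE n v i = v i := rfl

theorem toE_symm_apply (x : EYM.E n) (i : Fin n) : (toE n).symm x i = x i := rfl

theorem toE_single (i : Fin n) : toE n (Pi.single i 1) = ev i := by
  ext j
  rw [toE_apply]
  simp [ev, Pi.single_apply]

/-- The divergence of the columns on `E n`. -/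
def dvE (s : EYM.E n → Matrix (Fin n) (Fin n) ℝ) (j : Fin n) (x : EYM.E n) : ℝ :=
  ∑ i, fderiv ℝ (fun y => s y i j) x (ev i)

theorem pd_toE {f : EYM.E n → ℝ} (hf : Differentiable ℝ f) (i : Fin n) (v : V n) :
    LR.pd i (fun v => f (toE n v)) v = fderiv ℝ f (toE n v) (ev i) := by
  unfold LR.pd
  have h := (hf (toE n v)).hasFDerivAt.comp v (toE n).toContinuousLinearMap.hasFDerivAt
  have h2 : fderiv ℝ (fun v => f (toE n v)) v =
      (fderiv ℝ f (toE n v)).comp (toE n).toContinuousLinearMap := h.fderiv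
  rw [h2]
  show fderiv ℝ f (toE n v) (toE n (Pi.single i 1)) = _
  rw [toE_single]

theorem dvc_toE {s : EYM.E n → Matrix (Fin n) (Fin n) ℝ}
    (hs : ∀ i j, ContDiff ℝ ∞ fun x => s x i j) (j : Fin n) (v : V n) :
    dvc (fun v => s (toE n v)) j v = dvE s j (toE n v) := by
  unfold dvc dvE
  exact Finset.sum_congr rfl fun i _ => pd_toE ((hs i j).differentiable (by simp)) i v

theorem uniqHs : UniqueDiffOn ℝ (Hs n) := by
  have hc : Convex ℝ (Hs n) := by
    intro x hx y hy a b ha hb _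
    show 0 ≤ (a • x + b • y) 0
    have hx' : 0 ≤ x 0 := hx
    have hy' : 0 ≤ y 0 := hy
    simp only [PiLp.add_apply, PiLp.smul_apply, smul_eq_mul]
    positivity
  refine uniqueDiffOn_convex hc ⟨ev 0, ?_⟩
  have h1 : IsOpen {x : EYM.E n | 0 < x 0} :=
    isOpen_lt continuous_const (EuclideanSpace.proj (𝕜 := ℝ) (0 : Fin n)).continuous
  refine mem_interior.2 ⟨{x | 0 < x 0}, fun x hx => show (0 : ℝ) ≤ x 0 from le_of_lt hx, h1, ?_⟩
  show (0 : ℝ) < (ev 0 : EYM.E n) 0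
  simp [ev]

/-- On the closed half ball the one sided derivatives of a smooth extension are its derivatives. -/
theorem fderiv_eq_pd {f F : EYM.E n → ℝ} {z : EYM.E n} {r : ℝ} {x : EYM.E n}
    (hF : DifferentiableAt ℝ F x) (he : ∀ y ∈ HB z r, F y = f y) (hx : x ∈ HB z r) (i : Fin n) :
    fderiv ℝ F x (ev i) = EYM.pd i f x := by
  unfold EYM.pd
  have h1 : fderivWithin ℝ F (Hs n) x = fderiv ℝ F x := hF.fderivWithin (uniqHs x hx.2)
  have h2 : f =ᶠ[𝓝[Hs n] x] F := by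
    have h3 : ball z r ∈ 𝓝 x := isOpen_ball.mem_nhds hx.1
    filter_upwards [mem_nhdsWithin_of_mem_nhds h3, self_mem_nhdsWithin] with y hy hy'
    exact (he y ⟨hy, hy'⟩).symm
  rw [h2.fderivWithin_eq (he x hx).symm, h1]

theorem seg_ball {z : EYM.E n} (hz : z 0 = 0) (r : ℝ) :
    Seg (0 : Fin n) ((toE n) ⁻¹' ball z r) := by
  intro v hv θ hθ
  rw [mem_preimage, mem_ball, dist_eq_norm] at hv ⊢
  refine lt_of_le_of_lt ?_ hv
  rw [EuclideanSpace.norm_eq, EuclideanSpace.norm_eq]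
  refine Real.sqrt_le_sqrt (Finset.sum_le_sum fun i _ => ?_)
  rcases eq_or_ne i 0 with h | h
  · subst h
    have h1 : (toE n (Function.update v 0 (θ * v 0)) - z) 0 = θ * v 0 := by
      rw [PiLp.sub_apply, toE_apply, Function.update_self, hz, sub_zero]
    have h2 : (toE n v - z) 0 = v 0 := by rw [PiLp.sub_apply, toE_apply, hz, sub_zero]
    rw [h1, h2, norm_mul, Real.norm_eq_abs, abs_of_nonneg hθ.1]
    have h3 : θ * ‖v 0‖ ≤ ‖v 0‖ := mul_le_of_le_one_left (norm_nonneg _) hθ.2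
    exact pow_le_pow_left₀ (mul_nonneg hθ.1 (norm_nonneg _)) h3 2
  · have h1 : (toE n (Function.update v 0 (θ * v 0)) - z) i = (toE n v - z) i := by
      rw [PiLp.sub_apply, toE_apply, Function.update_of_ne h, PiLp.sub_apply, toE_apply]
    rw [h1]

/-- A smooth function which vanishes for `x_0 < 0` has vanishing derivatives for `x_0 = 0`. -/
theorem fderiv_face {u : EYM.E n → ℝ} {O : Set (EYM.E n)} (hO : IsOpen O)
    (hu : ContDiffOn ℝ ∞ u O) (h : ∀ x ∈ O, x 0 < 0 → u x = 0) {x : EYM.E n} (hx : x ∈ O)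
    (h0 : x 0 = 0) : fderiv ℝ u x = 0 := by
  have hl : Tendsto (fun t : ℝ => x + t • (ev 0 : EYM.E n)) (𝓝[<] 0) (𝓝 x) := by
    have h2 : Continuous fun t : ℝ => x + t • (ev 0 : EYM.E n) := by fun_prop
    have h3 := h2.tendsto 0
    rw [zero_smul, add_zero] at h3
    exact h3.mono_left nhdsWithin_le_nhds
  have hc : ContinuousAt (fderiv ℝ u) x :=
    (hu.continuousOn_fderiv_of_isOpen hO (by simp)).continuousAt (hO.mem_nhds hx)
  have h2 : Tendsto (fun t : ℝ => fderiv ℝ u (x + t • (ev 0 : EYM.E n))) (𝓝[<] 0)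
      (𝓝 (fderiv ℝ u x)) := hc.tendsto.comp hl
  have hneg : IsOpen {x : EYM.E n | x 0 < 0} :=
    isOpen_lt (EuclideanSpace.proj (𝕜 := ℝ) (0 : Fin n)).continuous continuous_const
  have h3 : ∀ᶠ t : ℝ in 𝓝[<] 0, fderiv ℝ u (x + t • (ev 0 : EYM.E n)) = 0 := by
    filter_upwards [hl.eventually (hO.mem_nhds hx), self_mem_nhdsWithin] with t ht ht0
    have h4 : (x + t • (ev 0 : EYM.E n)) 0 < 0 := by
      have : (x + t • (ev 0 : EYM.E n)) 0 = t := by simp [h0, ev]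
      rw [this]
      exact ht0
    have h5 : u =ᶠ[𝓝 (x + t • (ev 0 : EYM.E n))] fun _ => 0 := by
      filter_upwards [hO.mem_nhds ht, hneg.mem_nhds h4] with y hy hy0
      exact h y hy hy0
    rw [h5.fderiv_eq]
    simp
  exact tendsto_nhds_unique (h2.congr' h3) tendsto_const_nhds |>.trans rfl

/-- **EXT**: extension of both tensors across the boundary. -/
theorem ext_pair {z : EYM.E n} {R : ℝ} (hR : 0 < R) (hz : z 0 = 0)
    {s₁ s₂ : EYM.E n → Matrix (Fin n) (Fin n) ℝ}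
    (hs₁ : ∀ i j, ContDiffOn ℝ ∞ (fun x => s₁ x i j) (HB z R))
    (hs₂ : ∀ i j, ContDiffOn ℝ ∞ (fun x => s₂ x i j) (HB z R))
    (hy₁ : ∀ x ∈ HB z R, (s₁ x).IsSymm) (hy₂ : ∀ x ∈ HB z R, (s₂ x).IsSymm)
    (hp₁ : (s₁ z).PosDef) (hp₂ : (s₂ z).PosDef)
    (hd₁ : ∀ x ∈ HB z R, ∀ j, ∑ i, EYM.pd i (fun y => s₁ y i j) x = 0)
    (hd₂ : ∀ x ∈ HB z R, ∀ j, ∑ i, EYM.pd i (fun y => s₂ y i j) x = 0)
    (hj : ∀ k i j, Van (HB z R) k (fun x => s₁ x i j - s₂ x i j)) :
    ∃ (r : ℝ) (t₁ t₂ : EYM.E n → Matrix (Fin n) (Fin n) ℝ), 0 < r ∧ r ≤ R ∧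
      (∀ i j, ContDiff ℝ ∞ fun x => t₁ x i j) ∧ (∀ i j, ContDiff ℝ ∞ fun x => t₂ x i j) ∧
      (∀ x, (t₁ x).IsSymm) ∧ (∀ x, (t₂ x).IsSymm) ∧
      (∀ x ∈ ball z r, (t₁ x).PosDef) ∧ (∀ x ∈ ball z r, (t₂ x).PosDef) ∧
      (∀ x ∈ ball z r, ∀ j, dvE t₁ j x = 0) ∧ (∀ x ∈ ball z r, ∀ j, dvE t₂ j x = 0) ∧
      (∀ x ∈ HB z r, t₁ x = s₁ x) ∧ (∀ x ∈ HB z r, t₂ x = s₂ x) ∧
      ∀ x, x 0 < 0 → t₂ x = t₁ x := by
  have hF : ∀ i j, ∃ F : EYM.E n → ℝ, ContDiff ℝ ∞ F ∧ ∀ x ∈ HB z (R / 2), F x = s₁ x i j :=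
    fun i j => ext_real hR (hs₁ i j)
  choose F hF1 hF2 using hF
  have hsub : ∀ {a : ℝ}, a ≤ R → HB z a ⊆ HB z R := fun h =>
    inter_subset_inter_left _ (ball_subset_ball h)
  set s' : EYM.E n → Matrix (Fin n) (Fin n) ℝ := fun x => Matrix.of fun i j =>
    (1 / 2 : ℝ) * (F i j x + F j i x) with hs'
  have hs's : ∀ i j, ContDiff ℝ ∞ fun x => s' x i j := fun i j =>
    contDiff_const.mul ((hF1 i j).add (hF1 j i))
  have hs'y : ∀ x, (s' x).IsSymm := by
    intro x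
    ext i j
    simp only [hs', Matrix.transpose_apply, Matrix.of_apply]
    ring
  have hs'e : ∀ x ∈ HB z (R / 2), s' x = s₁ x := by
    intro x hx
    ext i j
    simp only [hs', Matrix.of_apply]
    rw [hF2 i j x hx, hF2 j i x hx]
    have := (hy₁ x (hsub (by linarith) hx)).apply i j
    linarith
  have hs'd : ∀ x ∈ HB z (R / 2), ∀ j, dvE s' j x = 0 := by
    intro x hx j
    have h1 : dvE s' j x = ∑ i, EYM.pd i (fun y => s₁ y i j) x := by
      unfold dvE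
      refine Finset.sum_congr rfl fun i _ => ?_
      exact fderiv_eq_pd ((hs's i j).differentiable (by simp) x)
        (fun y hy => congrFun (congrFun (hs'e y hy) i) j) hx i
    rw [h1]
    exact hd₁ x (hsub (by linarith) hx) j
  obtain ⟨τ, hτs, hτy, hτd, hτe⟩ := ext_div (0 : Fin n)
    (D := (toE n) ⁻¹' ball z (R / 2)) (isOpen_ball.preimage (toE n).continuous)
    (seg_ball hz _) (s := fun v => s' (toE n v))
    (fun i j => (hs's i j).comp (toE n).contDiff) (fun v => hs'y _)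
    (fun v hv h0 j => by
      rw [dvc_toE hs's]
      exact hs'd _ ⟨hv, h0⟩ j)
  set t₁ : EYM.E n → Matrix (Fin n) (Fin n) ℝ := fun x => τ ((toE n).symm x) with ht₁
  have ht₁s : ∀ i j, ContDiff ℝ ∞ fun x => t₁ x i j := fun i j =>
    (hτs i j).comp (toE n).symm.contDiff
  have ht₁y : ∀ x, (t₁ x).IsSymm := fun x => hτy _
  have ht₁d : ∀ x j, dvE t₁ j x = 0 := by
    intro x j
    have h1 := dvc_toE ht₁s j ((toE n).symm x)
    rw [ContinuousLinearEquiv.apply_symm_apply] at h1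
    rw [← h1]
    have h2 : (fun v => t₁ (toE n v)) = τ := by
      funext v
      rw [ht₁]
      simp
    rw [h2]
    exact hτd _ j
  have ht₁e : ∀ x ∈ HB z (R / 2), t₁ x = s₁ x := by
    intro x hx
    have h1 := hτe ((toE n).symm x) (by
      rw [mem_preimage, ContinuousLinearEquiv.apply_symm_apply]
      exact hx.1) hx.2
    rw [ContinuousLinearEquiv.apply_symm_apply] at h1
    exact h1.trans (hs'e x hx)
  let χ : ContDiffBump z := ⟨R / 4, R / 2, by positivity, by linarith only [hR]⟩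
  set u : Fin n → Fin n → EYM.E n → ℝ := fun i j => ez (fun x => s₁ x i j - s₂ x i j) with hu
  have hus : ∀ i j, ContDiffOn ℝ ∞ (u i j) (ball z R) := fun i j =>
    ez_smooth' isOpen_ball ((hs₁ i j).sub (hs₂ i j)) (fun k => hj k i j)
  set t₂ : EYM.E n → Matrix (Fin n) (Fin n) ℝ := fun x => Matrix.of fun i j =>
    t₁ x i j - χ x * u i j x with ht₂
  have ht₂s : ∀ i j, ContDiff ℝ ∞ fun x => t₂ x i j := by
    intro i j
    refine (ht₁s i j).sub ?_
    rw [contDiff_iff_contDiffAt]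
    intro x
    by_cases hx : x ∈ ball z R
    · exact χ.contDiff.contDiffAt.mul ((hus i j).contDiffAt (isOpen_ball.mem_nhds hx))
    · have h1 : (closedBall z (R / 2))ᶜ ∈ 𝓝 x := by
        refine isClosed_closedBall.isOpen_compl.mem_nhds fun h2 => hx ?_
        exact closedBall_subset_ball (by linarith) h2
      have h2 : (fun x => χ x * u i j x) =ᶠ[𝓝 x] fun _ => 0 := by
        filter_upwards [h1] with y hy
        have h3 : χ y = 0 := χ.zero_of_le_dist (by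
          rw [mem_compl_iff, mem_closedBall, not_le] at hy
          exact hy.le)
        rw [h3, zero_mul]
      exact contDiffAt_const.congr_of_eventuallyEq h2
  have ht₂y : ∀ x, (t₂ x).IsSymm := by
    intro x
    ext i j
    simp only [ht₂, Matrix.transpose_apply, Matrix.of_apply]
    have h1 := (ht₁y x).apply i j
    rw [h1]
    by_cases hx : x ∈ ball z R
    · rcases lt_or_ge (x 0) 0 with h0 | h0
      · simp only [hu]
        rw [ez_neg _ h0, ez_neg _ h0]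
      · simp only [hu]
        rw [ez_pos _ h0, ez_pos _ h0, (hy₁ x ⟨hx, h0⟩).apply i j, (hy₂ x ⟨hx, h0⟩).apply i j]
    · have h3 : χ x = 0 := χ.zero_of_le_dist (by
          rw [mem_ball, not_lt] at hx
          show R / 2 ≤ dist x z
          linarith)
      rw [h3, zero_mul, zero_mul]
  have hχ1 : ∀ x ∈ ball z (R / 4), χ x = 1 := fun x hx =>
    χ.one_of_mem_closedBall (ball_subset_closedBall hx)
  have ht₂e : ∀ x ∈ HB z (R / 4), t₂ x = s₂ x := by
    intro x hx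
    ext i j
    simp only [ht₂, Matrix.of_apply, hu]
    rw [hχ1 x hx.1, ez_pos _ hx.2, ht₁e x ⟨ball_subset_ball (by linarith) hx.1, hx.2⟩]
    ring
  have ht₂n : ∀ x, x 0 < 0 → t₂ x = t₁ x := by
    intro x hx
    ext i j
    simp only [ht₂, Matrix.of_apply, hu]
    rw [ez_neg _ hx]
    ring
  have ht₂d : ∀ x ∈ ball z (R / 4), ∀ j, dvE t₂ j x = 0 := by
    intro x hx j
    rcases lt_trichotomy (x 0) 0 with h0 | h0 | h0
    · have hneg : IsOpen {x : EYM.E n | x 0 < 0} :=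
        isOpen_lt (EuclideanSpace.proj (𝕜 := ℝ) (0 : Fin n)).continuous continuous_const
      rw [← ht₁d x j]
      unfold dvE
      refine Finset.sum_congr rfl fun i _ => ?_
      have h1 : (fun y => t₂ y i j) =ᶠ[𝓝 x] fun y => t₁ y i j := by
        filter_upwards [hneg.mem_nhds h0] with y hy
        rw [ht₂n y hy]
      rw [h1.fderiv_eq]
    · rw [← ht₁d x j]
      unfold dvE
      refine Finset.sum_congr rfl fun i _ => ?_
      have h2 : fderiv ℝ (fun y => t₂ y i j - t₁ y i j) x = 0 :=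
        fderiv_face isOpen_univ (((ht₂s i j).sub (ht₁s i j)).contDiffOn)
          (fun y _ hy => by rw [ht₂n y hy, sub_self]) (mem_univ x) h0
      have h3 := fderiv_fun_sub ((ht₂s i j).differentiable (by simp) x)
        ((ht₁s i j).differentiable (by simp) x)
      rw [h2] at h3
      rw [sub_eq_zero.1 h3.symm]
    · have hxH : x ∈ HB z (R / 4) := ⟨hx, h0.le⟩
      rw [← hd₂ x (hsub (by linarith) hxH) j]
      unfold dvE
      refine Finset.sum_congr rfl fun i _ => ?_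
      exact fderiv_eq_pd ((ht₂s i j).differentiable (by simp) x)
        (fun y hy => congrFun (congrFun (ht₂e y hy) i) j) hxH i
  have hzH : z ∈ HB z (R / 4) := ⟨mem_ball_self (by positivity), hz.ge⟩
  have hzH2 : z ∈ HB z (R / 2) := ⟨mem_ball_self (by positivity), hz.ge⟩
  have hP₁ := posDef_nhds (p := z) (g := t₁) (fun i j => (ht₁s i j).continuous)
    (fun x i j => (ht₁y x).apply j i) (by rw [ht₁e z hzH2]; exact hp₁)
  have hP₂ := posDef_nhds (p := z) (g := t₂) (fun i j => (ht₂s i j).continuous)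
    (fun x i j => (ht₂y x).apply j i) (by rw [ht₂e z hzH]; exact hp₂)
  obtain ⟨ε, hε, hεP⟩ := Metric.eventually_nhds_iff_ball.1 (hP₁.and hP₂)
  refine ⟨min ε (R / 4), t₁, t₂, lt_min hε (by positivity), (min_le_right _ _).trans (by linarith),
    ht₁s, ht₂s, ht₁y, ht₂y, fun x hx => (hεP x (ball_subset_ball (min_le_left _ _) hx)).1,
    fun x hx => (hεP x (ball_subset_ball (min_le_left _ _) hx)).2, fun x _ j => ht₁d x j,
    fun x hx j => ht₂d x (ball_subset_ball (min_le_right _ _) hx) j, fun x hx => ?_,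
    fun x hx => ?_, ht₂n⟩
  · exact ht₁e x ⟨ball_subset_ball ((min_le_right _ _).trans (by linarith)) hx.1, hx.2⟩
  · exact ht₂e x ⟨ball_subset_ball (min_le_right _ _) hx.1, hx.2⟩

/-- `toE v ∈ ball 0 r` iff `∑ v_i² < r²`. -/
theorem toE_mem_ball {r : ℝ} (hr : 0 < r) (z : EYM.E n) (v : V n) :
    z + toE n v ∈ ball z r ↔ ∑ i, v i ^ 2 < r ^ 2 := by
  rw [mem_ball, dist_eq_norm, add_sub_cancel_left, EuclideanSpace.norm_eq, Real.sqrt_lt' hr]
  have : ∑ i, ‖(toE n v) i‖ ^ 2 = ∑ i, v i ^ 2 :=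
    Finset.sum_congr rfl fun i _ => by rw [toE_apply, Real.norm_eq_abs, sq_abs]
  rw [this]

/-- **EXT**, in `V n`, centred at `0`. -/
theorem ext_pairV {z : EYM.E n} {R : ℝ} (hR : 0 < R) (hz : z 0 = 0)
    {s₁ s₂ : EYM.E n → Matrix (Fin n) (Fin n) ℝ}
    (hs₁ : ∀ i j, ContDiffOn ℝ ∞ (fun x => s₁ x i j) (HB z R))
    (hs₂ : ∀ i j, ContDiffOn ℝ ∞ (fun x => s₂ x i j) (HB z R))
    (hy₁ : ∀ x ∈ HB z R, (s₁ x).IsSymm) (hy₂ : ∀ x ∈ HB z R, (s₂ x).IsSymm)
    (hp₁ : (s₁ z).PosDef) (hp₂ : (s₂ z).PosDef)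
    (hd₁ : ∀ x ∈ HB z R, ∀ j, ∑ i, EYM.pd i (fun y => s₁ y i j) x = 0)
    (hd₂ : ∀ x ∈ HB z R, ∀ j, ∑ i, EYM.pd i (fun y => s₂ y i j) x = 0)
    (hj : ∀ k i j, Van (HB z R) k (fun x => s₁ x i j - s₂ x i j)) :
    ∃ (r : ℝ) (σ₁ σ₂ : MF n), 0 < r ∧ r ≤ R ∧ SmM σ₁ ∧ SmM σ₂ ∧
      (∀ v, (σ₁ v).IsSymm) ∧ (∀ v, (σ₂ v).IsSymm) ∧
      (∀ v : V n, ∑ i, v i ^ 2 < r ^ 2 → (σ₁ v).PosDef) ∧
      (∀ v : V n, ∑ i, v i ^ 2 < r ^ 2 → (σ₂ v).PosDef) ∧
      (∀ v : V n, ∑ i, v i ^ 2 < r ^ 2 → ∀ j, ∑ i, LR.pd i (fun y => σ₁ y i j) v = 0) ∧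
      (∀ v : V n, ∑ i, v i ^ 2 < r ^ 2 → ∀ j, ∑ i, LR.pd i (fun y => σ₂ y i j) v = 0) ∧
      (∀ v : V n, ∑ i, v i ^ 2 < r ^ 2 → 0 ≤ v 0 → σ₁ v = s₁ (z + toE n v)) ∧
      (∀ v : V n, ∑ i, v i ^ 2 < r ^ 2 → 0 ≤ v 0 → σ₂ v = s₂ (z + toE n v)) ∧
      ∀ v : V n, v 0 < 0 → σ₂ v = σ₁ v := by
  obtain ⟨r, t₁, t₂, hr, hrR, h1, h2, y1, y2, p1, p2, d1, d2, e1, e2, hn⟩ :=
    ext_pair hR hz hs₁ hs₂ hy₁ hy₂ hp₁ hp₂ hd₁ hd₂ hj
  have hz0 : ∀ v : V n, (z + toE n v) 0 = v 0 := by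
    intro v
    rw [PiLp.add_apply, toE_apply, hz, zero_add]
  have hsh : ContDiff ℝ ∞ fun v : V n => z + toE n v := contDiff_const.add (toE n).contDiff
  have hdv : ∀ {t : EYM.E n → Matrix (Fin n) (Fin n) ℝ}, (∀ i j, ContDiff ℝ ∞ fun x => t x i j) →
      ∀ (j : Fin n) (v : V n), ∑ i, LR.pd i (fun y => t (z + toE n y) i j) v =
        dvE t j (z + toE n v) := by
    intro t ht j v
    unfold dvE
    refine Finset.sum_congr rfl fun i _ => ?_
    have h3 : Differentiable ℝ fun x => t (z + x) i j :=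
      ((ht i j).differentiable (by simp)).comp (differentiable_id.const_add z)
    have h4 := pd_toE h3 i v
    rw [h4]
    have h5 : fderiv ℝ (fun x => t (z + x) i j) (toE n v) =
        fderiv ℝ (fun x => t x i j) (z + toE n v) :=
      fderiv_comp_add_left (f := fun x => t x i j) z
    rw [h5]
  refine ⟨r, fun v => t₁ (z + toE n v), fun v => t₂ (z + toE n v), hr, hrR,
    fun i j => (h1 i j).comp hsh, fun i j => (h2 i j).comp hsh, fun v => y1 _, fun v => y2 _,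
    fun v hv => p1 _ ((toE_mem_ball hr z v).2 hv), fun v hv => p2 _ ((toE_mem_ball hr z v).2 hv),
    fun v hv j => ?_, fun v hv j => ?_, fun v hv h0 => ?_, fun v hv h0 => ?_, fun v h0 => ?_⟩
  · rw [hdv h1]
    exact d1 _ ((toE_mem_ball hr z v).2 hv) j
  · rw [hdv h2]
    exact d2 _ ((toE_mem_ball hr z v).2 hv) j
  · exact e1 _ ⟨(toE_mem_ball hr z v).2 hv, by show 0 ≤ (z + toE n v) 0; rw [hz0]; exact h0⟩
  · exact e2 _ ⟨(toE_mem_ball hr z v).2 hv, by show 0 ≤ (z + toE n v) 0; rw [hz0]; exact h0⟩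
  · exact hn _ (by rw [hz0]; exact h0)

end Vale.Agent.P088.HY.H437
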