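import Vale.Agent.P088.R2.H354.Spec3n

/-!
# P088, stage 3, row KEL, first part: the Kelvin transform of a divergence form operator
-/

open MeasureTheory Set Filter Topology
open scoped ContDiff Matrix

noncomputable section

namespace Vale.Agent.P088.HY.H437.Kel

open Vale.Agent.P088.LR Vale.Agent.P088.HY Vale.Agent.P088.HY.T3

variable {n : ℕ}

/-! ## Partial derivatives -/

theorem pd_add {f g : V n → ℝ} {x : V n} (hf : DifferentiableAt ℝ f x)
    (hg : DifferentiableAt ℝ g x) (i : Fin n) :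
    pd i (fun y => f y + g y) x = pd i f x + pd i g x := by
  unfold pd
  rw [fderiv_fun_add hf hg]
  rfl

theorem pd_sub {f g : V n → ℝ} {x : V n} (hf : DifferentiableAt ℝ f x)
    (hg : DifferentiableAt ℝ g x) (i : Fin n) :
    pd i (fun y => f y - g y) x = pd i f x - pd i g x := by
  unfold pd
  rw [fderiv_fun_sub hf hg]
  rfl

theorem pd_mul {f g : V n → ℝ} {x : V n} (hf : DifferentiableAt ℝ f x)
    (hg : DifferentiableAt ℝ g x) (i : Fin n) :
    pd i (fun y => f y * g y) x = f x * pd i g x + g x * pd i f x := by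
  unfold pd
  rw [fderiv_fun_mul hf hg]
  simp

theorem pd_sum {ι : Type*} {t : Finset ι} {f : ι → V n → ℝ} {x : V n}
    (hf : ∀ k ∈ t, DifferentiableAt ℝ (f k) x) (i : Fin n) :
    pd i (fun y => ∑ k ∈ t, f k y) x = ∑ k ∈ t, pd i (f k) x := by
  unfold pd
  rw [fderiv_fun_sum hf]
  simp

theorem pd_const (c : ℝ) (i : Fin n) (x : V n) : pd i (fun _ : V n => c) x = 0 := by
  unfold pd
  simp

theorem pd_ev {f g : V n → ℝ} {x : V n} (h : f =ᶠ[𝓝 x] g) (i : Fin n) : pd i f x = pd i g x := by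
  unfold pd
  rw [h.fderiv_eq]

theorem pd_coord (i j : Fin n) (x : V n) : pd i (fun y : V n => y j) x = if i = j then 1 else 0 := by
  unfold pd
  rw [show (fun y : V n => y j) = fun y => (ContinuousLinearMap.proj (R := ℝ) j : V n →L[ℝ] ℝ) y
    from rfl, ContinuousLinearMap.fderiv]
  simp only [ContinuousLinearMap.proj_apply, Pi.single_apply]
  by_cases h : i = j
  · subst h; simp
  · rw [if_neg h, if_neg (fun h' => h h'.symm)]

/-- Outer function of one variable. -/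
theorem pd_comp1 {f : V n → ℝ} {φ : ℝ → ℝ} {x : V n} {φ' : ℝ} (hφ : HasDerivAt φ φ' (f x))
    (hf : DifferentiableAt ℝ f x) (i : Fin n) : pd i (fun y => φ (f y)) x = φ' * pd i f x := by
  unfold pd
  have h := hφ.hasFDerivAt.comp x hf.hasFDerivAt
  have h2 : fderiv ℝ (fun y => φ (f y)) x = _ := h.fderiv
  rw [h2]
  simp [mul_comm]

theorem da_coord (j : Fin n) (x : V n) : DifferentiableAt ℝ (fun y : V n => y j) x :=
  (ContinuousLinearMap.proj (R := ℝ) j : V n →L[ℝ] ℝ).differentiableAt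

theorem cd_coord (j : Fin n) : ContDiff ℝ ∞ (fun y : V n => y j) :=
  (ContinuousLinearMap.proj (R := ℝ) j : V n →L[ℝ] ℝ).contDiff

/-! ## The square of the length -/

theorem sq_def (x : V n) : HY.sq x = ∑ j, x j ^ 2 := rfl

theorem sq_pos {x : V n} (hx : x ≠ 0) : 0 < HY.sq x := by
  obtain ⟨i, hi⟩ := Function.ne_iff.1 hx
  refine lt_of_lt_of_le (pow_pos (abs_pos.2 hi) 2 : 0 < |x i| ^ 2) ?_
  rw [_root_.sq_abs]
  exact Finset.single_le_sum (f := fun j => x j ^ 2) (fun j _ => _root_.sq_nonneg _)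
    (Finset.mem_univ i)

theorem sq_nn (x : V n) : 0 ≤ HY.sq x := Finset.sum_nonneg fun _ _ => _root_.sq_nonneg _

theorem sq_cd : ContDiff ℝ ∞ (HY.sq : V n → ℝ) :=
  ContDiff.sum fun j _ => (cd_coord j).pow 2

theorem sq_da (x : V n) : DifferentiableAt ℝ (HY.sq : V n → ℝ) x :=
  (sq_cd.differentiable (by simp)) x

theorem pd_sq (i : Fin n) (x : V n) : pd i (HY.sq : V n → ℝ) x = 2 * x i := by
  have h1 : (HY.sq : V n → ℝ) = fun y => ∑ j, y j * y j := by
    funext y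
    rw [sq_def]
    exact Finset.sum_congr rfl fun j _ => by ring
  rw [h1, pd_sum (f := fun j y => y j * y j) (fun j _ => (da_coord j x).mul (da_coord j x))]
  have h2 : ∀ j, pd i (fun y : V n => y j * y j) x = if i = j then 2 * x j else 0 := by
    intro j
    rw [pd_mul (da_coord j x) (da_coord j x), pd_coord]
    split_ifs <;> ring
  rw [Finset.sum_congr rfl fun j _ => h2 j]
  simp

/-- `∂_i |x|^{-2m} = -2 m x_i |x|^{-2m-2}`. -/
theorem pd_invpow (m : ℕ) (i : Fin n) {x : V n} (hx : x ≠ 0) :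
    pd i (fun y => (HY.sq y ^ m)⁻¹) x = -(2 * m) * x i * (HY.sq x ^ (m + 1))⁻¹ := by
  have hq := sq_pos hx
  have h1 : HasDerivAt (fun t : ℝ => (t ^ m)⁻¹)
      (-(m * HY.sq x ^ (m - 1)) / (HY.sq x ^ m) ^ 2) (HY.sq x) :=
    (hasDerivAt_pow m (HY.sq x)).fun_inv (pow_pos hq m).ne'
  rw [pd_comp1 h1 (sq_da x), pd_sq]
  rcases Nat.eq_zero_or_pos m with h | h
  · subst h
    simp
  · obtain ⟨k, rfl⟩ : ∃ k, m = k + 1 := ⟨m - 1, by omega⟩
    rw [Nat.add_sub_cancel]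
    have h2 : HY.sq x ≠ 0 := hq.ne'
    field_simp
    ring

theorem da_invpow (m : ℕ) {x : V n} (hx : x ≠ 0) :
    DifferentiableAt ℝ (fun y : V n => (HY.sq y ^ m)⁻¹) x :=
  ((sq_da x).pow m).inv (pow_pos (sq_pos hx) m).ne'

theorem cd_invpow (m : ℕ) {x : V n} (hx : x ≠ 0) :
    ContDiffAt ℝ ∞ (fun y : V n => (HY.sq y ^ m)⁻¹) x :=
  (sq_cd.contDiffAt.pow m).inv (pow_pos (sq_pos hx) m).ne'

/-! ## The inversion -/

theorem iv_eq (x : V n) (k : Fin n) : iv x k = x k * (HY.sq x ^ 1)⁻¹ := by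
  show x k / HY.sq x = _
  rw [pow_one]
  rfl

theorem rf_eq (x : V n) (i j : Fin n) :
    rf x i j = (1 : Matrix (Fin n) (Fin n) ℝ) i j - 2 * x i * x j * (HY.sq x ^ 1)⁻¹ := by
  show _ - 2 * x i * x j / HY.sq x = _
  rw [pow_one]
  rfl

theorem rf_symm (x : V n) (i j : Fin n) : rf x i j = rf x j i := by
  rw [rf_eq, rf_eq, Matrix.one_apply, Matrix.one_apply]
  by_cases h : i = j
  · subst h; rfl
  · rw [if_neg h, if_neg (fun h' => h h'.symm)]
    ring

theorem sq_iv {x : V n} (hx : x ≠ 0) : HY.sq (iv x) = (HY.sq x)⁻¹ := by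
  have hq := (sq_pos hx).ne'
  rw [sq_def]
  have h1 : ∀ j, iv x j ^ 2 = x j ^ 2 * ((HY.sq x) ^ 2)⁻¹ := by
    intro j
    show (x j / HY.sq x) ^ 2 = _
    rw [div_pow, div_eq_mul_inv]
  rw [Finset.sum_congr rfl fun j _ => h1 j, ← Finset.sum_mul, ← sq_def]
  field_simp

theorem iv_ne {x : V n} (hx : x ≠ 0) : iv x ≠ 0 := by
  intro h
  have h1 := sq_iv hx
  rw [h] at h1
  have h2 : HY.sq (0 : V n) = 0 := by simp [sq_def]
  rw [h2] at h1
  exact (inv_pos.2 (sq_pos hx)).ne h1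

theorem iv_iv {x : V n} (hx : x ≠ 0) : iv (iv x) = x := by
  have hq := (sq_pos hx).ne'
  funext k
  show iv x k / HY.sq (iv x) = x k
  rw [sq_iv hx]
  show x k / HY.sq x / (HY.sq x)⁻¹ = x k
  field_simp

theorem rf_iv {x : V n} (hx : x ≠ 0) (i j : Fin n) : rf (iv x) i j = rf x i j := by
  have hq := (sq_pos hx).ne'
  show _ - 2 * iv x i * iv x j / HY.sq (iv x) = _ - 2 * x i * x j / HY.sq x
  rw [sq_iv hx]
  show _ - 2 * (x i / HY.sq x) * (x j / HY.sq x) / (HY.sq x)⁻¹ = _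
  field_simp

/-- `∑_k rf_ik rf_kj = δ_ij`. -/
theorem rf_rf {x : V n} (hx : x ≠ 0) (i j : Fin n) :
    ∑ k, rf x i k * rf x k j = (1 : Matrix (Fin n) (Fin n) ℝ) i j := by
  have hq := (sq_pos hx).ne'
  have h1 : ∀ k, rf x i k * rf x k j =
      (1 : Matrix (Fin n) (Fin n) ℝ) i k * (1 : Matrix (Fin n) (Fin n) ℝ) k j -
      2 * x i * (HY.sq x)⁻¹ * (x k * (1 : Matrix (Fin n) (Fin n) ℝ) k j) -
      2 * x j * (HY.sq x)⁻¹ * ((1 : Matrix (Fin n) (Fin n) ℝ) i k * x k) +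
      4 * x i * x j * ((HY.sq x)⁻¹) ^ 2 * x k ^ 2 := by
    intro k
    rw [rf_eq, rf_eq]
    ring
  rw [Finset.sum_congr rfl fun k _ => h1 k, Finset.sum_add_distrib, Finset.sum_sub_distrib,
    Finset.sum_sub_distrib, ← Finset.mul_sum, ← Finset.mul_sum, ← Finset.mul_sum, ← sq_def]
  have h2 : ∑ k, (1 : Matrix (Fin n) (Fin n) ℝ) i k * (1 : Matrix (Fin n) (Fin n) ℝ) k j =
      (1 : Matrix (Fin n) (Fin n) ℝ) i j := by
    rw [← Matrix.mul_apply, Matrix.one_mul]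
  have h3 : ∑ k, x k * (1 : Matrix (Fin n) (Fin n) ℝ) k j = x j := by
    simp [Matrix.one_apply]
  have h4 : ∑ k, (1 : Matrix (Fin n) (Fin n) ℝ) i k * x k = x i := by
    simp [Matrix.one_apply]
  rw [h2, h3, h4]
  field_simp
  ring

/-- `∑_k rf_jk x_k = - x_j`. -/
theorem rf_x {x : V n} (hx : x ≠ 0) (j : Fin n) : ∑ k, rf x j k * x k = -x j := by
  have hq := (sq_pos hx).ne'
  have h1 : ∀ k, rf x j k * x k = (1 : Matrix (Fin n) (Fin n) ℝ) j k * x k -
      2 * x j * (HY.sq x)⁻¹ * x k ^ 2 := by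
    intro k
    rw [rf_eq]
    ring
  rw [Finset.sum_congr rfl fun k _ => h1 k, Finset.sum_sub_distrib, ← Finset.mul_sum, ← sq_def]
  have h4 : ∑ k, (1 : Matrix (Fin n) (Fin n) ℝ) j k * x k = x j := by
    simp [Matrix.one_apply]
  rw [h4]
  field_simp
  ring

theorem da_rf (i j : Fin n) {x : V n} (hx : x ≠ 0) : DifferentiableAt ℝ (fun y => rf y i j) x := by
  have h1 : (fun y : V n => rf y i j) = fun y =>
      (1 : Matrix (Fin n) (Fin n) ℝ) i j - 2 * y i * y j * (HY.sq y ^ 1)⁻¹ :=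
    funext fun y => rf_eq y i j
  rw [h1]
  exact (differentiableAt_const _).sub ((((differentiableAt_const _).mul (da_coord i x)).mul
    (da_coord j x)).mul (da_invpow 1 hx))

theorem cd_rf (i j : Fin n) {x : V n} (hx : x ≠ 0) : ContDiffAt ℝ ∞ (fun y => rf y i j) x := by
  have h1 : (fun y : V n => rf y i j) = fun y =>
      (1 : Matrix (Fin n) (Fin n) ℝ) i j - 2 * y i * y j * (HY.sq y ^ 1)⁻¹ :=
    funext fun y => rf_eq y i j
  rw [h1]
  exact contDiffAt_const.sub (((contDiffAt_const.mul (cd_coord i).contDiffAt).mul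
    (cd_coord j).contDiffAt).mul (cd_invpow 1 hx))

theorem cd_iv {x : V n} (hx : x ≠ 0) : ContDiffAt ℝ ∞ (iv : V n → V n) x := by
  rw [contDiffAt_pi]
  intro k
  have h1 : (fun y : V n => iv y k) = fun y => y k * (HY.sq y ^ 1)⁻¹ := funext fun y => iv_eq y k
  rw [h1]
  exact (cd_coord k).contDiffAt.mul (cd_invpow 1 hx)

theorem da_iv {x : V n} (hx : x ≠ 0) : DifferentiableAt ℝ (iv : V n → V n) x :=
  (cd_iv hx).differentiableAt (by simp)

/-- The Jacobian of the inversion. -/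
theorem pd_iv (i k : Fin n) {x : V n} (hx : x ≠ 0) :
    pd i (fun y => iv y k) x = rf x k i * (HY.sq x)⁻¹ := by
  have hq := (sq_pos hx).ne'
  have h1 : (fun y : V n => iv y k) = fun y => y k * (HY.sq y ^ 1)⁻¹ := funext fun y => iv_eq y k
  rw [h1, pd_mul (da_coord k x) (da_invpow 1 hx), pd_invpow 1 i hx, pd_coord, rf_eq,
    Matrix.one_apply]
  by_cases h : i = k
  · subst h
    rw [if_pos rfl]
    field_simp
    ring
  · rw [if_neg h, if_neg (fun h' => h h'.symm)]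
    field_simp
    ring

/-- Chain rule for the inversion. -/
theorem pd_comp_iv {f : V n → ℝ} {x : V n} (hx : x ≠ 0) (hf : DifferentiableAt ℝ f (iv x))
    (i : Fin n) : pd i (fun y => f (iv y)) x = ∑ m, rf x m i * (HY.sq x)⁻¹ * pd m f (iv x) := by
  have h1 : pd i (fun y => f (iv y)) x = fderiv ℝ f (iv x) (fderiv ℝ iv x (Pi.single i 1)) := by
    unfold pd
    have h := hf.hasFDerivAt.comp x (da_iv hx).hasFDerivAt
    have h2 : fderiv ℝ (fun y => f (iv y)) x = _ := h.fderiv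
    rw [h2]
    rfl
  have h2 : fderiv ℝ iv x (Pi.single i 1) = ∑ m, (rf x m i * (HY.sq x)⁻¹) • Pi.single m (1 : ℝ) := by
    funext k
    have h3 : fderiv ℝ iv x (Pi.single i 1) k = pd i (fun y => iv y k) x := by
      unfold pd
      have h4 := (hasFDerivAt_pi'.1 (da_iv hx).hasFDerivAt k).fderiv
      rw [h4]
      rfl
    rw [h3, pd_iv i k hx, Finset.sum_apply]
    simp [Pi.single_apply]
  rw [h1, h2, map_sum]
  refine Finset.sum_congr rfl fun m _ => ?_
  rw [map_smul, smul_eq_mul]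
  rfl

/-! ## The weight `|x|^{2-n}` -/

theorem nw_pos {x : V n} (hx : x ≠ 0) : 0 < nw n x :=
  inv_pos.2 (pow_pos (Real.sqrt_pos.2 (sq_pos hx)) _)

theorem nw_iv {x : V n} (hx : x ≠ 0) : nw n (iv x) = (nw n x)⁻¹ := by
  unfold nw
  rw [sq_iv hx, Real.sqrt_inv, inv_pow]

theorem nw_sq {x : V n} (hx : x ≠ 0) : nw n x ^ 2 = (HY.sq x ^ (n - 2))⁻¹ := by
  unfold nw
  rw [inv_pow, ← pow_mul, mul_comm, pow_mul, Real.sq_sqrt (sq_pos hx).le]

theorem pd_nw (i : Fin n) {x : V n} (hx : x ≠ 0) :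
    pd i (nw n) x = -((n - 2 : ℕ) : ℝ) * x i * nw n x * (HY.sq x)⁻¹ := by
  have hq := sq_pos hx
  have hs := Real.sqrt_pos.2 hq
  have h0 : HasDerivAt (fun t : ℝ => √t) (1 / (2 * √(HY.sq x))) (HY.sq x) :=
    Real.hasDerivAt_sqrt hq.ne'
  have h1 : HasDerivAt (fun t : ℝ => (√t ^ (n - 2))⁻¹)
      (-(((n - 2 : ℕ) : ℝ) * √(HY.sq x) ^ (n - 2 - 1) * (1 / (2 * √(HY.sq x)))) /
        (√(HY.sq x) ^ (n - 2)) ^ 2) (HY.sq x) :=
    (h0.fun_pow (n - 2)).fun_inv (pow_pos hs _).ne'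
  have h2 : pd i (nw n) x = _ := pd_comp1 h1 (sq_da x) i
  rw [h2, pd_sq]
  unfold nw
  rcases Nat.eq_zero_or_pos (n - 2) with h | h
  · rw [h]
    simp
  · obtain ⟨k, hk⟩ : ∃ k, n - 2 = k + 1 := ⟨n - 2 - 1, by omega⟩
    rw [hk, Nat.add_sub_cancel]
    have h3 : √(HY.sq x) ≠ 0 := hs.ne'
    have h4 : (HY.sq x)⁻¹ = (√(HY.sq x) ^ 2)⁻¹ := by rw [Real.sq_sqrt hq.le]
    rw [h4]
    field_simp
    ring

theorem cd_nw {x : V n} (hx : x ≠ 0) : ContDiffAt ℝ ∞ (nw n) x := by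
  have h : ContDiffAt ℝ ∞ (fun y : V n => √(HY.sq y)) x :=
    (Real.contDiffAt_sqrt (sq_pos hx).ne').comp x sq_cd.contDiffAt
  exact (h.pow (n - 2)).inv (pow_pos (Real.sqrt_pos.2 (sq_pos hx)) _).ne'

theorem da_nw {x : V n} (hx : x ≠ 0) : DifferentiableAt ℝ (nw n) x :=
  (cd_nw hx).differentiableAt (by simp)

/-! ## The Piola identity -/

/-- `P_il = |x|^{2-2n} rf_il`. -/
def Pm (x : V n) (i l : Fin n) : ℝ := rf x i l * (HY.sq x ^ (n - 1))⁻¹

theorem Pm_eq (hn : 1 ≤ n) {x : V n} (hx : x ≠ 0) (i l : Fin n) :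
    Pm x i l = (1 : Matrix (Fin n) (Fin n) ℝ) i l * (HY.sq x ^ (n - 1))⁻¹ -
      2 * (x i * x l) * (HY.sq x ^ n)⁻¹ := by
  have hq := (sq_pos hx).ne'
  unfold Pm
  rw [rf_eq]
  obtain ⟨k, rfl⟩ : ∃ k, n = k + 1 := ⟨n - 1, by omega⟩
  rw [Nat.add_sub_cancel]
  field_simp
  ring

theorem da_Pm {x : V n} (hx : x ≠ 0) (i l : Fin n) : DifferentiableAt ℝ (fun y => Pm y i l) x :=
  (da_rf i l hx).mul (da_invpow (n - 1) hx)

theorem pd_Pm (hn : 1 ≤ n) {x : V n} (hx : x ≠ 0) (i l : Fin n) :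
    pd i (fun y => Pm y i l) x =
      (if i = l then -(2 * ((n : ℝ) - 1)) * x l * (HY.sq x ^ n)⁻¹ else 0) -
      2 * ((x l + if i = l then x l else 0) * (HY.sq x ^ n)⁻¹ -
        2 * n * x l * (HY.sq x ^ (n + 1))⁻¹ * x i ^ 2) := by
  have hev : (fun y : V n => Pm y i l) =ᶠ[𝓝 x] fun y =>
      (1 : Matrix (Fin n) (Fin n) ℝ) i l * (HY.sq y ^ (n - 1))⁻¹ -
      2 * (y i * y l) * (HY.sq y ^ n)⁻¹ := by
    filter_upwards [isOpen_ne.mem_nhds hx] with y hy
    exact Pm_eq hn hy i l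
  have hn1 : n - 1 + 1 = n := by omega
  have d1 := da_invpow (n - 1) hx
  have d2 := da_invpow n hx
  have d3 : DifferentiableAt ℝ (fun y : V n => 2 * (y i * y l)) x :=
    (differentiableAt_const _).mul ((da_coord i x).mul (da_coord l x))
  have d4 : DifferentiableAt ℝ (fun y : V n =>
      (1 : Matrix (Fin n) (Fin n) ℝ) i l * (HY.sq y ^ (n - 1))⁻¹) x :=
    (differentiableAt_const _).mul d1
  have d5 : DifferentiableAt ℝ (fun y : V n => 2 * (y i * y l) * (HY.sq y ^ n)⁻¹) x := d3.mul d2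
  have d6 : DifferentiableAt ℝ (fun y : V n => y i * y l) x := (da_coord i x).mul (da_coord l x)
  rw [pd_ev hev, pd_sub d4 d5,
    pd_mul (differentiableAt_const _) d1, pd_mul d3 d2, pd_const, pd_invpow _ i hx,
    pd_invpow _ i hx, pd_mul (differentiableAt_const _) d6,
    pd_const, pd_mul (da_coord i x) (da_coord l x), pd_coord, pd_coord, hn1, if_pos rfl,
    Matrix.one_apply]
  have hn2 : ((n - 1 : ℕ) : ℝ) = (n : ℝ) - 1 := by
    rw [Nat.cast_sub hn]
    simp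
  rw [hn2]
  by_cases h : i = l
  · subst h
    simp only [if_true]
    ring
  · simp only [if_neg h]
    ring

theorem piola (hn : 1 ≤ n) {x : V n} (hx : x ≠ 0) (l : Fin n) :
    ∑ i, pd i (fun y => Pm y i l) x = 0 := by
  have hq := (sq_pos hx).ne'
  rw [Finset.sum_congr rfl fun i _ => pd_Pm hn hx i l]
  have h1 : ∀ i, (if i = l then -(2 * ((n : ℝ) - 1)) * x l * (HY.sq x ^ n)⁻¹ else 0) -
      2 * ((x l + if i = l then x l else 0) * (HY.sq x ^ n)⁻¹ -
        2 * n * x l * (HY.sq x ^ (n + 1))⁻¹ * x i ^ 2) =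
      (if i = l then -(2 * ((n : ℝ) - 1)) * x l * (HY.sq x ^ n)⁻¹ -
        2 * (x l * (HY.sq x ^ n)⁻¹) else 0) - 2 * (x l * (HY.sq x ^ n)⁻¹) +
        4 * n * x l * (HY.sq x ^ (n + 1))⁻¹ * x i ^ 2 := by
    intro i
    split_ifs <;> ring
  rw [Finset.sum_congr rfl fun i _ => h1 i, Finset.sum_add_distrib, Finset.sum_sub_distrib,
    Finset.sum_ite_eq', if_pos (Finset.mem_univ l), Finset.sum_const, Finset.card_univ,
    Fintype.card_fin, nsmul_eq_mul, ← Finset.mul_sum, ← sq_def]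
  field_simp
  ring

/-! ## The identity -/

theorem ks_iv (s : MF n) {x : V n} (hx : x ≠ 0) (l k : Fin n) :
    ks s (iv x) l k = ∑ a, ∑ b, rf x l a * s x a b * rf x b k := by
  unfold ks
  rw [iv_iv hx, Matrix.mul_apply, Finset.sum_comm]
  refine Finset.sum_congr rfl fun b _ => ?_
  rw [Matrix.mul_apply, Finset.sum_mul]
  exact Finset.sum_congr rfl fun a _ => by rw [rf_iv hx, rf_iv hx]

theorem ks_ap (s : MF n) (y : V n) (l k : Fin n) :
    ks s y l k = ∑ a, ∑ b, rf y l a * s (iv y) a b * rf y b k := by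
  unfold ks
  rw [Matrix.mul_apply, Finset.sum_comm]
  refine Finset.sum_congr rfl fun b _ => ?_
  rw [Matrix.mul_apply, Finset.sum_mul]

theorem ks_symm {s : MF n} (hs : ∀ x, (s x).IsSymm) (y : V n) (l k : Fin n) :
    ks s y l k = ks s y k l := by
  rw [ks_ap, ks_ap, Finset.sum_comm]
  refine Finset.sum_congr rfl fun b _ => Finset.sum_congr rfl fun a _ => ?_
  rw [rf_symm y l a, rf_symm y b k, (hs (iv y)).apply b a]
  ring

theorem cd_ks {s : MF n} (hs : SmM s) {y : V n} (hy : y ≠ 0) (l k : Fin n) :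
    ContDiffAt ℝ ∞ (fun y => ks s y l k) y := by
  have h1 : (fun y => ks s y l k) = fun y => ∑ a, ∑ b, rf y l a * s (iv y) a b * rf y b k :=
    funext fun y => ks_ap s y l k
  rw [h1]
  refine ContDiffAt.sum fun a _ => ContDiffAt.sum fun b _ => ?_
  exact ((cd_rf l a hy).mul ((hs a b).contDiffAt.comp y (cd_iv hy))).mul (cd_rf b k hy)

/-- The flux of `nw · (u ∘ iv)`. -/
theorem flux_eq (hn : 3 ≤ n) (s : MF n) {x : V n} (hx : x ≠ 0) {u : V n → ℝ}
    (hu : DifferentiableAt ℝ u (iv x)) (i : Fin n) :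
    ∑ j, s x i j * pd j (fun x => nw n x * u (iv x)) x =
      ∑ l, Pm x i l * ∑ k, ks s (iv x) l k *
        (nw n (iv x) * pd k u (iv x) - u (iv x) * pd k (nw n) (iv x)) := by
  have hq := (sq_pos hx).ne'
  have hiv := iv_ne hx
  set Z : Fin n → ℝ := fun k => nw n (iv x) * pd k u (iv x) - u (iv x) * pd k (nw n) (iv x)
    with hZ
  -- the derivative
  have hd : DifferentiableAt ℝ (fun x => u (iv x)) x := hu.comp x (da_iv hx)
  have h1 : ∀ j, pd j (fun x => nw n x * u (iv x)) x =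
      (HY.sq x ^ (n - 1))⁻¹ * ∑ k, rf x j k * Z k := by
    intro j
    rw [pd_mul (da_nw hx) hd, pd_comp_iv hx hu, pd_nw j hx]
    have h2 : ∀ k, pd k (nw n) (iv x) = -((n - 2 : ℕ) : ℝ) * (nw n x)⁻¹ * x k := by
      intro k
      rw [pd_nw k hiv, nw_iv hx, sq_iv hx]
      show -((n - 2 : ℕ) : ℝ) * (x k / HY.sq x) * (nw n x)⁻¹ * (HY.sq x)⁻¹⁻¹ = _
      field_simp
    have h3 : ∑ k, rf x j k * Z k = (nw n x)⁻¹ * (∑ k, rf x j k * pd k u (iv x)) -
        u (iv x) * (((n - 2 : ℕ) : ℝ) * (nw n x)⁻¹ * x j) := by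
      have h4 : ∀ k, rf x j k * Z k = (nw n x)⁻¹ * (rf x j k * pd k u (iv x)) +
          u (iv x) * ((n - 2 : ℕ) : ℝ) * (nw n x)⁻¹ * (rf x j k * x k) := by
        intro k
        rw [hZ]
        show rf x j k * (nw n (iv x) * pd k u (iv x) - u (iv x) * pd k (nw n) (iv x)) = _
        rw [h2, nw_iv hx]
        ring
      rw [Finset.sum_congr rfl fun k _ => h4 k, Finset.sum_add_distrib, ← Finset.mul_sum,
        ← Finset.mul_sum, rf_x hx]
      ring
    have h5 : (HY.sq x ^ (n - 1))⁻¹ = nw n x ^ 2 * (HY.sq x)⁻¹ := by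
      rw [nw_sq hx, show n - 1 = n - 2 + 1 by omega, pow_succ, mul_inv]
    have h6 : ∑ m, rf x m j * (HY.sq x)⁻¹ * pd m u (iv x) =
        (HY.sq x)⁻¹ * ∑ k, rf x j k * pd k u (iv x) := by
      rw [Finset.mul_sum]
      refine Finset.sum_congr rfl fun k _ => ?_
      rw [rf_symm x k j]
      ring
    have h7 := (nw_pos hx).ne'
    rw [h3, h5, h6]
    field_simp
    ring
  have h8 : ∀ l, ∑ k, ks s (iv x) l k * Z k = ∑ a, rf x l a * ∑ b, s x a b * ∑ k, rf x b k * Z k := by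
    intro l
    simp only [ks_iv s hx, Finset.sum_mul, Finset.mul_sum]
    rw [Finset.sum_comm]
    refine Finset.sum_congr rfl fun a _ => ?_
    rw [Finset.sum_comm]
    exact Finset.sum_congr rfl fun b _ => Finset.sum_congr rfl fun k _ => by ring
  have h9 : ∑ l, Pm x i l * ∑ k, ks s (iv x) l k * Z k =
      (HY.sq x ^ (n - 1))⁻¹ * ∑ b, s x i b * ∑ k, rf x b k * Z k := by
    set T : Fin n → ℝ := fun a => ∑ b, s x a b * ∑ k, rf x b k * Z k with hT
    have h10 : ∑ l, Pm x i l * ∑ k, ks s (iv x) l k * Z k =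
        (HY.sq x ^ (n - 1))⁻¹ * ∑ a, (∑ l, rf x i l * rf x l a) * T a := by
      simp only [h8, Finset.mul_sum, Finset.sum_mul]
      rw [Finset.sum_comm]
      refine Finset.sum_congr rfl fun a _ => Finset.sum_congr rfl fun l _ => ?_
      unfold Pm
      rw [hT]
      simp only [Finset.mul_sum]
      refine Finset.sum_congr rfl fun b _ => Finset.sum_congr rfl fun k _ => ?_
      ring
    rw [h10]
    simp only [rf_rf hx]
    congr 1
    simp [Matrix.one_apply, hT]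
  rw [h9, Finset.mul_sum]
  refine Finset.sum_congr rfl fun j _ => ?_
  rw [h1]
  ring

theorem cd_pd {U : Set (V n)} (hU : IsOpen U) {u : V n → ℝ} (hu : ContDiffOn ℝ ∞ u U) (k : Fin n) :
    ContDiffOn ℝ ∞ (pd k u) U :=
  (hu.fderiv_of_isOpen (m := ∞) hU (by simp)).clm_apply contDiffOn_const

/-- The divergence in the new coordinates. -/
theorem div_F {S : MF n} {u φ : V n → ℝ} {U : Set (V n)} (hU : IsOpen U)
    (hS : ∀ l k, ∀ y ∈ U, DifferentiableAt ℝ (fun y => S y l k) y)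
    (hy : ∀ y l k, S y l k = S y k l) (hu : ContDiffOn ℝ ∞ u U) (hφ : ContDiffOn ℝ ∞ φ U)
    {y : V n} (hyU : y ∈ U) :
    ∑ l, pd l (fun y => ∑ k, S y l k * (φ y * pd k u y - u y * pd k φ y)) y =
      φ y * Ldv S u y - u y * Ldv S φ y := by
  have nu := hU.mem_nhds hyU
  have du : DifferentiableAt ℝ u y := (hu.contDiffAt nu).differentiableAt (by simp)
  have dφ : DifferentiableAt ℝ φ y := (hφ.contDiffAt nu).differentiableAt (by simp)
  have dpu : ∀ k, DifferentiableAt ℝ (pd k u) y := fun k =>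
    ((cd_pd hU hu k).contDiffAt nu).differentiableAt (by simp)
  have dpφ : ∀ k, DifferentiableAt ℝ (pd k φ) y := fun k =>
    ((cd_pd hU hφ k).contDiffAt nu).differentiableAt (by simp)
  have dA : ∀ l, DifferentiableAt ℝ (fun y => ∑ k, S y l k * pd k u y) y := fun l =>
    DifferentiableAt.fun_sum fun k _ => (hS l k y hyU).mul (dpu k)
  have dB : ∀ l, DifferentiableAt ℝ (fun y => ∑ k, S y l k * pd k φ y) y := fun l =>
    DifferentiableAt.fun_sum fun k _ => (hS l k y hyU).mul (dpφ k)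
  have h1 : ∀ l, pd l (fun y => ∑ k, S y l k * (φ y * pd k u y - u y * pd k φ y)) y =
      (φ y * pd l (fun y => ∑ k, S y l k * pd k u y) y +
        (∑ k, S y l k * pd k u y) * pd l φ y) -
      (u y * pd l (fun y => ∑ k, S y l k * pd k φ y) y +
        (∑ k, S y l k * pd k φ y) * pd l u y) := by
    intro l
    have h2 : (fun y => ∑ k, S y l k * (φ y * pd k u y - u y * pd k φ y)) = fun y =>
        φ y * (∑ k, S y l k * pd k u y) - u y * (∑ k, S y l k * pd k φ y) := by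
      funext z
      rw [Finset.mul_sum, Finset.mul_sum, ← Finset.sum_sub_distrib]
      exact Finset.sum_congr rfl fun k _ => by ring
    have d1 : DifferentiableAt ℝ (fun y => φ y * (∑ k, S y l k * pd k u y)) y := dφ.mul (dA l)
    have d2 : DifferentiableAt ℝ (fun y => u y * (∑ k, S y l k * pd k φ y)) y := du.mul (dB l)
    rw [h2, pd_sub d1 d2, pd_mul dφ (dA l), pd_mul du (dB l)]
  have h2 : ∑ l, (∑ k, S y l k * pd k u y) * pd l φ y =
      ∑ l, (∑ k, S y l k * pd k φ y) * pd l u y := by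
    simp only [Finset.sum_mul]
    rw [Finset.sum_comm]
    refine Finset.sum_congr rfl fun l _ => Finset.sum_congr rfl fun k _ => ?_
    rw [hy y k l]
    ring
  rw [Finset.sum_congr rfl fun l _ => h1 l, Finset.sum_sub_distrib, Finset.sum_add_distrib,
    Finset.sum_add_distrib, ← Finset.mul_sum, ← Finset.mul_sum, h2]
  unfold Ldv
  ring

/-- **The Kelvin transform.** -/
theorem kel_id (hn : 3 ≤ n) {s : MF n} (hs : SmM s) (hy : ∀ x, (s x).IsSymm) {U : Set (V n)}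
    {u : V n → ℝ} (hU : IsOpen U) (h0 : ∀ y ∈ U, y ≠ 0) (hu : ContDiffOn ℝ ∞ u U) {y : V n}
    (hyU : y ∈ U) :
    Ldv s (fun x => nw n x * u (iv x)) (iv y) =
      (nw n y)⁻¹ * HY.sq y ^ 2 * (Ldv (ks s) u y + kv s y * u y) := by
  have hy0 := h0 y hyU
  set x₀ := iv y with hx₀
  have hx0 : x₀ ≠ 0 := iv_ne hy0
  have hivx : iv x₀ = y := iv_iv hy0
  set F : Fin n → V n → ℝ := fun l y =>
    ∑ k, ks s y l k * (nw n y * pd k u y - u y * pd k (nw n) y) with hF
  -- near `x₀`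
  have hev : ∀ᶠ x in 𝓝 x₀, x ≠ 0 ∧ iv x ∈ U := by
    have e1 : ∀ᶠ x in 𝓝 x₀, x ≠ 0 := isOpen_ne.mem_nhds hx0
    have e2 : ∀ᶠ x in 𝓝 x₀, iv x ∈ U := by
      refine (da_iv hx0).continuousAt.preimage_mem_nhds ?_
      rw [hivx]
      exact hU.mem_nhds hyU
    exact e1.and e2
  have hflux : ∀ i, (fun x => ∑ j, s x i j * pd j (fun x => nw n x * u (iv x)) x) =ᶠ[𝓝 x₀]
      fun x => ∑ l, Pm x i l * F l (iv x) := by
    intro i
    filter_upwards [hev] with x hx
    exact flux_eq hn s hx.1 ((hu.contDiffAt (hU.mem_nhds hx.2)).differentiableAt (by simp)) i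
  have hnw : ContDiffOn ℝ ∞ (nw n) U := fun z hz => (cd_nw (h0 z hz)).contDiffWithinAt
  have hks : ∀ l k, ContDiffOn ℝ ∞ (fun y => ks s y l k) U := fun l k z hz =>
    (cd_ks hs (h0 z hz) l k).contDiffWithinAt
  have hFs : ∀ l, ContDiffOn ℝ ∞ (F l) U := fun l =>
    ContDiffOn.sum fun k _ => (hks l k).mul ((hnw.mul (cd_pd hU hu k)).sub
      (hu.mul (cd_pd hU hnw k)))
  have hFd : ∀ l, DifferentiableAt ℝ (F l) (iv x₀) := fun l => by
    rw [hivx]
    exact ((hFs l).contDiffAt (hU.mem_nhds hyU)).differentiableAt (by simp)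
  have hFc : ∀ l, DifferentiableAt ℝ (fun x => F l (iv x)) x₀ := fun l =>
    (hFd l).comp x₀ (da_iv hx0)
  have h1 : Ldv s (fun x => nw n x * u (iv x)) x₀ =
      ∑ i, ∑ l, (Pm x₀ i l * (∑ m, rf x₀ m i * (HY.sq x₀)⁻¹ * pd m (F l) (iv x₀)) +
        F l (iv x₀) * pd i (fun x => Pm x i l) x₀) := by
    unfold Ldv
    refine Finset.sum_congr rfl fun i _ => ?_
    rw [pd_ev (hflux i), pd_sum (f := fun l x => Pm x i l * F l (iv x))
      (fun l _ => (da_Pm hx0 i l).mul (hFc l))]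
    refine Finset.sum_congr rfl fun l _ => ?_
    rw [pd_mul (da_Pm hx0 i l) (hFc l), pd_comp_iv hx0 (hFd l)]
  have h2 : ∑ i, ∑ l, F l (iv x₀) * pd i (fun x => Pm x i l) x₀ = 0 := by
    rw [Finset.sum_comm]
    refine Finset.sum_eq_zero fun l _ => ?_
    rw [← Finset.mul_sum, piola (by omega) hx0, mul_zero]
  have h3 : ∑ i, ∑ l, Pm x₀ i l * (∑ m, rf x₀ m i * (HY.sq x₀)⁻¹ * pd m (F l) (iv x₀)) =
      (HY.sq x₀ ^ n)⁻¹ * ∑ l, pd l (F l) (iv x₀) := by
    rw [Finset.sum_comm, Finset.mul_sum]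
    refine Finset.sum_congr rfl fun l _ => ?_
    have h4 : ∑ i, Pm x₀ i l * (∑ m, rf x₀ m i * (HY.sq x₀)⁻¹ * pd m (F l) (iv x₀)) =
        ∑ m, (HY.sq x₀ ^ n)⁻¹ * (∑ i, rf x₀ m i * rf x₀ i l) * pd m (F l) (iv x₀) := by
      simp only [Finset.mul_sum, Finset.sum_mul]
      rw [Finset.sum_comm]
      refine Finset.sum_congr rfl fun m _ => Finset.sum_congr rfl fun i _ => ?_
      unfold Pm
      obtain ⟨k, hk⟩ : ∃ k, n = k + 1 := ⟨n - 1, by omega⟩
      have h5 : (HY.sq x₀ ^ n)⁻¹ = (HY.sq x₀ ^ (n - 1))⁻¹ * (HY.sq x₀)⁻¹ := by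
        rw [← mul_inv, ← pow_succ, show n - 1 + 1 = n by omega]
      rw [h5]
      ring
    rw [h4]
    simp only [rf_rf hx0]
    simp [Matrix.one_apply]
  simp only [Finset.sum_add_distrib] at h1
  rw [h1, h2, h3, add_zero, hivx]
  have h6 : ∑ l, pd l (F l) y = nw n y * Ldv (ks s) u y - u y * Ldv (ks s) (nw n) y :=
    div_F hU (fun l k z hz => ((hks l k).contDiffAt (hU.mem_nhds hz)).differentiableAt (by simp))
      (fun z l k => ks_symm hy z l k) hu hnw hyU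
  rw [h6]
  have h7 : (HY.sq x₀ ^ n)⁻¹ = HY.sq y ^ n := by
    rw [hx₀, sq_iv hy0, inv_pow, inv_inv]
  have h8 : HY.sq y ^ n = HY.sq y ^ 2 * (nw n y ^ 2)⁻¹ := by
    rw [nw_sq hy0, inv_inv, ← pow_add, show 2 + (n - 2) = n by omega]
  have h9 := (nw_pos hy0).ne'
  rw [h7, h8]
  unfold kv
  field_simp
  ring

end Vale.Agent.P088.HY.H437.Kel
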