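import Vale.Agent.P088.R2.H437.XKO

/-!
# P088, stage 4, row X-KO, second part: weight on an open set, tensors near `1`, cut-offs
-/

open MeasureTheory Set Filter Topology
open scoped ContDiff Matrix Manifold

noncomputable section

namespace Vale.Agent.P088.HY.H437.XK

open Vale.Agent.P088.LR

variable {n : ℕ}

theorem ex_cut' {K W : Set (V n)} (hK : IsClosed K) (hW : IsOpen W) (hKW : K ⊆ W) :
    ∃ (χ : V n → ℝ) (O : Set (V n)), ContDiff ℝ ∞ χ ∧ tsupport χ ⊆ W ∧ IsOpen O ∧ K ⊆ O ∧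
      (∀ x ∈ O, χ x = 1) ∧ ∀ x, 0 ≤ χ x ∧ χ x ≤ 1 := by
  obtain ⟨O, hO, hKO, hOc⟩ := normal_exists_closure_subset hK hW hKW
  obtain ⟨W₁, hW₁, hNW₁, hW₁c⟩ := normal_exists_closure_subset isClosed_closure hW hOc
  obtain ⟨f, hf0, hf1, hf⟩ := exists_contMDiffMap_zero_one_of_isClosed 𝓘(ℝ, V n) (n := (⊤ : ℕ∞))
    (s := W₁ᶜ) (t := closure O) hW₁.isClosed_compl isClosed_closure
    (disjoint_compl_left_iff_subset.2 hNW₁)
  refine ⟨f, O, f.contMDiff.contDiff, ?_, hO, hKO, fun x hx => hf1 (subset_closure hx), hf⟩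
  refine (closure_mono ?_).trans hW₁c
  intro x hx
  by_contra h
  exact hx (hf0 h)

theorem smx' {O : Set (V n)} (hO : IsOpen O) {χ f : V n → ℝ} (hχ : ContDiff ℝ ∞ χ)
    (hs : tsupport χ ⊆ O) (hf : ContDiffOn ℝ ∞ f O) : ContDiff ℝ ∞ fun x => χ x * f x := by
  rw [contDiff_iff_contDiffAt]
  intro x
  by_cases hx : x ∈ tsupport χ
  · exact hχ.contDiffAt.mul (hf.contDiffAt (hO.mem_nhds (hs hx)))
  · have h : χ =ᶠ[𝓝 x] fun _ => 0 := notMem_tsupport_iff_eventuallyEq.1 hx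
    have h1 : (fun y => χ y * f y) =ᶠ[𝓝 x] fun _ => 0 := by
      filter_upwards [h] with y hy
      rw [hy, zero_mul]
    exact contDiffAt_const.congr_of_eventuallyEq h1

theorem pd_loc' {U : Set (V n)} (hU : IsOpen U) {f g : V n → ℝ} (h : ∀ x ∈ U, f x = g x)
    {x : V n} (hx : x ∈ U) (i : Fin n) : pd i f x = pd i g x := by
  unfold pd
  have h1 : f =ᶠ[𝓝 x] g := by
    filter_upwards [hU.mem_nhds hx] with y hy
    exact h y hy
  rw [h1.fderiv_eq]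

/-- **Weighted conformal Korn inequality** on an open set. -/
theorem korn_O (hn : 3 ≤ n) {M c₀ ρ : ℝ} {O : Set (V n)} (hO : IsOpen O) {G : V n → ℝ}
    (hG : ContDiffOn ℝ ∞ G O) (hh : ∀ x ∈ O, ∀ i j, |pd i (pd j G) x| ≤ M)
    (hg : ∀ x ∈ O, c₀ ≤ ∑ i, pd i G x ^ 2)
    {φ : Fin n → V n → ℝ} (hφ : ∀ i, ContDiff ℝ ∞ (φ i)) (hc : ∀ i, HasCompactSupport (φ i))
    (hs : ∀ i, tsupport (φ i) ⊆ O) (hρ : 0 < ρ) (hρM : 26 * n * M ≤ ρ * c₀) :
    1 / 3 * (∫ x, Real.exp (2 * ρ * G x) * ∑ i, ∑ j, pd i (φ j) x ^ 2) +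
      c₀ / 6 * ρ ^ 2 * (∫ x, Real.exp (2 * ρ * G x) * ∑ i, φ i x ^ 2) ≤
      ∫ x, Real.exp (2 * ρ * G x) * dev (fun i j => pd i (φ j) x) := by
  set K : Set (V n) := ⋃ i, tsupport (φ i) with hK
  have hKc : IsCompact K := isCompact_iUnion fun i => hc i
  have hKO : K ⊆ O := iUnion_subset hs
  obtain ⟨χ, U, hχ, hχs, hU, hKU, hχ1, -⟩ := ex_cut' hKc.isClosed hO hKO
  have hG' : ContDiff ℝ ∞ fun x => χ x * G x := smx' hO hχ hχs hG
  have hmem : ∀ x, (∃ i, φ i x ≠ 0) → x ∈ K := by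
    rintro x ⟨i, hi⟩
    exact mem_iUnion.2 ⟨i, subset_tsupport _ hi⟩
  have he : ∀ x ∈ U, χ x * G x = G x := fun x hx => by rw [hχ1 x hx, one_mul]
  have hp1 : ∀ x ∈ U, ∀ i, pd i (fun x => χ x * G x) x = pd i G x := fun x hx i =>
    pd_loc' hU he hx i
  have hp2 : ∀ x ∈ U, ∀ i j, pd i (pd j (fun x => χ x * G x)) x = pd i (pd j G) x :=
    fun x hx i j => pd_loc' hU (fun y hy => hp1 y hy j) hx i
  have h := korn_core hn (M := M) (c₀ := c₀) (ρ := ρ) hG' hφ hc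
    (fun x hx i j => by
      rw [hp2 x (hKU (hmem x hx))]
      exact hh x (hKO (hmem x hx)) i j)
    (fun x hx => by
      have : ∑ i, pd i (fun x => χ x * G x) x ^ 2 = ∑ i, pd i G x ^ 2 :=
        Finset.sum_congr rfl fun i _ => by rw [hp1 x (hKU (hmem x hx))]
      rw [this]
      exact hg x (hKO (hmem x hx))) hρ hρM
  have z0 : ∀ x ∉ K, ∀ i, φ i x = 0 := fun x hx i =>
    image_eq_zero_of_notMem_tsupport fun h => hx (mem_iUnion.2 ⟨i, h⟩)
  have z1 : ∀ x ∉ K, ∀ i j, pd i (φ j) x = 0 := fun x hx i j =>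
    pd_off (fun h => hx (mem_iUnion.2 ⟨j, h⟩)) i
  have e : ∀ f : V n → ℝ, (∀ x ∉ K, f x = 0) →
      ∫ x, Real.exp (2 * ρ * (χ x * G x)) * f x = ∫ x, Real.exp (2 * ρ * G x) * f x := by
    intro f hf
    refine integral_congr_ae (Eventually.of_forall fun x => ?_)
    by_cases hx : x ∈ K
    · show Real.exp (2 * ρ * (χ x * G x)) * f x = Real.exp (2 * ρ * G x) * f x
      rw [he x (hKU hx)]
    · show Real.exp (2 * ρ * (χ x * G x)) * f x = Real.exp (2 * ρ * G x) * f x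
      rw [hf x hx, mul_zero, mul_zero]
  rw [e _ (fun x hx => by simp [z1 x hx]), e _ (fun x hx => by simp [z0 x hx]),
    e _ (fun x hx => by simp [dev, z1 x hx])] at h
  exact h

/-! ## Tensors near `1` -/

/-- `s` acting on the derivative: `K_jb = ∑_i (s_ij X_ib + s_ib X_ij)`. -/
def Km (s X : Fin n → Fin n → ℝ) (j b : Fin n) : ℝ := ∑ i, (s i j * X i b + s i b * X i j)

/-- `∑ s_ij h_ij`. -/
def ipa (s h : Fin n → Fin n → ℝ) : ℝ := ∑ i, ∑ j, s i j * h i j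

/-- The `s₁`-trace free part of `K`. -/
def tfm (s K : Fin n → Fin n → ℝ) (i j : Fin n) : ℝ := K i j - ipa s K / ipa s s * s i j

/-- `δ_ij`. -/
def dlt (i j : Fin n) : ℝ := if i = j then 1 else 0

theorem dlt_abs (i j : Fin n) : |dlt i j| ≤ 1 := by
  unfold dlt
  split_ifs <;> simp

theorem sum_abs_le {f : Fin n → ℝ} {B : ℝ} (h : ∀ i, |f i| ≤ B) : |∑ i, f i| ≤ n * B := by
  refine (Finset.abs_sum_le_sum_abs _ _).trans ?_
  refine (Finset.sum_le_sum fun i _ => h i).trans ?_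
  simp

theorem near (hn : 3 ≤ n) (X s₁ s₂ : Fin n → Fin n → ℝ) {ε N : ℝ} (hε : 0 ≤ ε)
    (hε' : 100 * n ^ 3 * ε ≤ 1) (h₁ : ∀ i j, |s₁ i j - dlt i j| ≤ ε)
    (h₂ : ∀ i j, |s₂ i j - dlt i j| ≤ ε) (hN : ∀ i j, |X i j| ≤ N) (i j : Fin n) :
    |tfm s₁ (Km s₂ X) i j - (X i j + X j i - 2 / n * dlt i j * ∑ k, X k k)| ≤
      28 * n ^ 2 * ε * N := by
  have hn' : (3 : ℝ) ≤ n := by exact_mod_cast hn
  have hN0 : 0 ≤ N := (abs_nonneg _).trans (hN i j)
  have hn2 : (9 : ℝ) ≤ n ^ 2 := by nlinarith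
  have hn3 : (n : ℝ) ^ 2 * 3 ≤ n ^ 3 := by nlinarith
  have e1 : n ^ 2 * ε ≤ 1 / 300 := by nlinarith
  have e0 : n * ε ≤ 1 / 900 := by nlinarith
  have e2 : ε ≤ 1 / 2700 := by nlinarith
  -- `K` against `K₀`
  have k0 : ∀ a b, |X a b + X b a| ≤ 2 * N := fun a b => by
    have := abs_add_le (X a b) (X b a)
    linarith [hN a b, hN b a]
  have hK : ∀ a b, |Km s₂ X a b - (X a b + X b a)| ≤ 2 * n * ε * N := by
    intro a b
    have h3 : Km s₂ X a b - (X a b + X b a) =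
        ∑ k, ((s₂ k a - dlt k a) * X k b + (s₂ k b - dlt k b) * X k a) := by
      have h4 : ∑ k, (dlt k a * X k b + dlt k b * X k a) = X a b + X b a := by
        rw [Finset.sum_add_distrib]
        simp [dlt]
      rw [← h4]
      unfold Km
      rw [← Finset.sum_sub_distrib]
      exact Finset.sum_congr rfl fun k _ => by ring
    rw [h3]
    refine (sum_abs_le (B := 2 * ε * N) fun k => ?_).trans (le_of_eq (by ring))
    have h5 : |(s₂ k a - dlt k a) * X k b| ≤ ε * N := by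
      rw [abs_mul]
      exact mul_le_mul (h₂ k a) (hN k b) (abs_nonneg _) hε
    have h6 : |(s₂ k b - dlt k b) * X k a| ≤ ε * N := by
      rw [abs_mul]
      exact mul_le_mul (h₂ k b) (hN k a) (abs_nonneg _) hε
    have h7 := abs_add_le ((s₂ k a - dlt k a) * X k b) ((s₂ k b - dlt k b) * X k a)
    linarith
  have hK' : ∀ a b, |Km s₂ X a b| ≤ 4 * N := by
    intro a b
    have h3 := abs_add_le (Km s₂ X a b - (X a b + X b a)) (X a b + X b a)
    rw [sub_add_cancel] at h3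
    have h4 := hK a b
    have h5 := k0 a b
    have h6 : 2 * n * ε * N ≤ 2 * N := by
      have : 2 * n * ε ≤ 2 := by linarith
      exact mul_le_mul_of_nonneg_right this hN0
    linarith
  -- `⟨s₁, s₁⟩`
  have hs1 : ∀ a b, |s₁ a b| ≤ 2 := by
    intro a b
    have h3 := abs_add_le (s₁ a b - dlt a b) (dlt a b)
    rw [sub_add_cancel] at h3
    linarith [h₁ a b, dlt_abs a b]
  have hdd : ∑ a : Fin n, ∑ b : Fin n, dlt a b * dlt a b = n := by
    simp [dlt]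
  have hss : |ipa s₁ s₁ - n| ≤ 3 * n ^ 2 * ε := by
    have hss' : |ipa s₁ s₁ - ∑ a : Fin n, ∑ b : Fin n, dlt a b * dlt a b| ≤ 3 * n ^ 2 * ε := ?_
    · rwa [hdd] at hss'
    unfold ipa
    rw [← Finset.sum_sub_distrib]
    refine (sum_abs_le (B := n * (3 * ε)) fun a => ?_).trans (le_of_eq (by ring))
    rw [← Finset.sum_sub_distrib]
    refine sum_abs_le fun b => ?_
    have h3 : s₁ a b * s₁ a b - dlt a b * dlt a b = (s₁ a b - dlt a b) * (s₁ a b + dlt a b) := by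
      ring
    rw [h3, abs_mul]
    have h4 : |s₁ a b + dlt a b| ≤ 3 := by
      have := abs_add_le (s₁ a b) (dlt a b)
      linarith [hs1 a b, dlt_abs a b]
    calc |s₁ a b - dlt a b| * |s₁ a b + dlt a b| ≤ ε * 3 :=
          mul_le_mul (h₁ a b) h4 (abs_nonneg _) hε
      _ = 3 * ε := by ring
  have hss1 : (n : ℝ) - 1 ≤ ipa s₁ s₁ := by
    have := (abs_le.1 hss).1
    linarith
  -- `⟨s₁, K⟩` against the trace
  set t := ∑ k, X k k with ht
  have htN : |t| ≤ n * N := sum_abs_le fun k => hN k k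
  have hsK : |ipa s₁ (Km s₂ X) - 2 * t| ≤ 6 * n ^ 2 * ε * N := by
    have h3 : ipa s₁ (Km s₂ X) - 2 * t =
        (∑ a, ∑ b, (s₁ a b - dlt a b) * Km s₂ X a b) +
          ∑ a, (Km s₂ X a a - (X a a + X a a)) := by
      have h4 : ∑ a, ∑ b, dlt a b * Km s₂ X a b = ∑ a, Km s₂ X a a := by simp [dlt]
      have h5 : ∑ a, (Km s₂ X a a - (X a a + X a a)) = (∑ a, Km s₂ X a a) - 2 * t := by
        rw [Finset.sum_sub_distrib, Finset.sum_add_distrib, ht]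
        ring
      rw [h5, ← h4]
      unfold ipa
      simp only [sub_mul, Finset.sum_sub_distrib]
      ring
    rw [h3]
    have h4 : |∑ a, ∑ b, (s₁ a b - dlt a b) * Km s₂ X a b| ≤ n * (n * (ε * (4 * N))) := by
      refine sum_abs_le fun a => sum_abs_le fun b => ?_
      rw [abs_mul]
      exact mul_le_mul (h₁ a b) (hK' a b) (abs_nonneg _) hε
    have h5 : |∑ a, (Km s₂ X a a - (X a a + X a a))| ≤ n * (2 * n * ε * N) :=
      sum_abs_le fun a => hK a a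
    have h6 := abs_add_le (∑ a, ∑ b, (s₁ a b - dlt a b) * Km s₂ X a b)
      (∑ a, (Km s₂ X a a - (X a a + X a a)))
    have h7 : n * (n * (ε * (4 * N))) + n * (2 * n * ε * N) = 6 * n ^ 2 * ε * N := by ring
    linarith
  -- the coefficients
  have hpos : 0 < ipa s₁ s₁ := by linarith
  have hcoef : |ipa s₁ (Km s₂ X) / ipa s₁ s₁ - 2 / n * t| ≤ 12 * n ^ 2 * ε * N := by
    have hn0 : (0 : ℝ) < n := by linarith
    have h3 : ipa s₁ (Km s₂ X) / ipa s₁ s₁ - 2 / n * t =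
        (n * (ipa s₁ (Km s₂ X) - 2 * t) + 2 * t * (n - ipa s₁ s₁)) / (n * ipa s₁ s₁) := by
      field_simp
      ring
    rw [h3, abs_div, abs_of_pos (mul_pos hn0 hpos), div_le_iff₀ (mul_pos hn0 hpos)]
    have h4 : |(n : ℝ) * (ipa s₁ (Km s₂ X) - 2 * t)| ≤ n * (6 * n ^ 2 * ε * N) := by
      rw [abs_mul, abs_of_pos hn0]
      exact mul_le_mul_of_nonneg_left hsK hn0.le
    have h5 : |2 * t * (n - ipa s₁ s₁)| ≤ 2 * (n * N) * (3 * n ^ 2 * ε) := by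
      rw [abs_mul, abs_mul, abs_two, abs_sub_comm]
      exact mul_le_mul (mul_le_mul_of_nonneg_left htN (by norm_num)) hss (abs_nonneg _)
        (by positivity)
    have h6 := abs_add_le ((n : ℝ) * (ipa s₁ (Km s₂ X) - 2 * t)) (2 * t * (n - ipa s₁ s₁))
    have h7 : n * (6 * n ^ 2 * ε * N) + 2 * (n * N) * (3 * n ^ 2 * ε) =
        12 * n ^ 2 * ε * N * (n * 1) := by ring
    have h8 : 12 * n ^ 2 * ε * N * (n * 1) ≤ 12 * n ^ 2 * ε * N * (n * ipa s₁ s₁) := by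
      refine mul_le_mul_of_nonneg_left ?_ (by positivity)
      exact mul_le_mul_of_nonneg_left (by linarith) hn0.le
    linarith
  have h0 : |2 / (n : ℝ) * t| ≤ 2 * N := by
    have hn0 : (0 : ℝ) < n := by linarith
    rw [abs_mul, abs_of_pos (by positivity : (0 : ℝ) < 2 / n)]
    calc 2 / (n : ℝ) * |t| ≤ 2 / n * (n * N) := mul_le_mul_of_nonneg_left htN (by positivity)
      _ = 2 * N := by field_simp
  have h3 : tfm s₁ (Km s₂ X) i j - (X i j + X j i - 2 / n * dlt i j * t) =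
      (Km s₂ X i j - (X i j + X j i)) -
        (ipa s₁ (Km s₂ X) / ipa s₁ s₁ - 2 / n * t) * s₁ i j -
        2 / n * t * (s₁ i j - dlt i j) := by
    unfold tfm
    ring
  rw [h3]
  have h4 : |(ipa s₁ (Km s₂ X) / ipa s₁ s₁ - 2 / n * t) * s₁ i j| ≤ 12 * n ^ 2 * ε * N * 2 := by
    rw [abs_mul]
    exact mul_le_mul hcoef (hs1 i j) (abs_nonneg _) (by positivity)
  have h5 : |2 / (n : ℝ) * t * (s₁ i j - dlt i j)| ≤ 2 * N * ε := by
    rw [abs_mul]
    exact mul_le_mul h0 (h₁ i j) (abs_nonneg _) (by positivity)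
  have h6 := hK i j
  have h7 := abs_sub (Km s₂ X i j - (X i j + X j i) -
    (ipa s₁ (Km s₂ X) / ipa s₁ s₁ - 2 / n * t) * s₁ i j) (2 / n * t * (s₁ i j - dlt i j))
  have h8 := abs_sub (Km s₂ X i j - (X i j + X j i))
    ((ipa s₁ (Km s₂ X) / ipa s₁ s₁ - 2 / n * t) * s₁ i j)
  have h9 : 2 * n * ε * N ≤ n ^ 2 * ε * N := by
    have : 2 * n ≤ (n : ℝ) ^ 2 := by nlinarith
    have h10 : 0 ≤ ε * N := by positivity
    nlinarith
  have h10 : 2 * N * ε ≤ n ^ 2 * ε * N := by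
    have h10 : 0 ≤ ε * N := by positivity
    nlinarith
  have h11 : 0 ≤ n ^ 2 * ε * N := by positivity
  linarith

/-- Comparison of the two trace free parts. -/
theorem dev_near (hn : 3 ≤ n) (X s₁ s₂ : Fin n → Fin n → ℝ) {ε : ℝ} (hε : 0 ≤ ε)
    (hε' : 100 * n ^ 3 * ε ≤ 1) (h₁ : ∀ i j, |s₁ i j - dlt i j| ≤ ε)
    (h₂ : ∀ i j, |s₂ i j - dlt i j| ≤ ε) :
    dev X ≤ 2 * (∑ i, ∑ j, tfm s₁ (Km s₂ X) i j ^ 2) + 1 / 6 * (∑ i, ∑ j, X i j ^ 2) := by
  set N := Real.sqrt (∑ i, ∑ j, X i j ^ 2) with hNd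
  have hS : 0 ≤ ∑ i, ∑ j, X i j ^ 2 :=
    Finset.sum_nonneg fun i _ => Finset.sum_nonneg fun j _ => sq_nonneg _
  have hN2 : N ^ 2 = ∑ i, ∑ j, X i j ^ 2 := Real.sq_sqrt hS
  have hN : ∀ i j, |X i j| ≤ N := by
    intro i j
    refine Real.abs_le_sqrt ?_
    refine le_trans ?_ (Finset.single_le_sum (f := fun i => ∑ j, X i j ^ 2)
      (fun i _ => Finset.sum_nonneg fun j _ => sq_nonneg _) (Finset.mem_univ i))
    exact Finset.single_le_sum (f := fun j => X i j ^ 2) (fun j _ => sq_nonneg _)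
      (Finset.mem_univ j)
  have hn' : (3 : ℝ) ≤ n := by exact_mod_cast hn
  have hnear := near hn X s₁ s₂ hε hε' h₁ h₂ hN
  have hpt : ∀ i j, (X i j + X j i - 2 / n * dlt i j * ∑ k, X k k) ^ 2 ≤
      2 * tfm s₁ (Km s₂ X) i j ^ 2 + 2 * (28 * n ^ 2 * ε * N) ^ 2 := by
    intro i j
    set A := tfm s₁ (Km s₂ X) i j
    set B := X i j + X j i - 2 / n * dlt i j * ∑ k, X k k
    have h3 : (A - B) ^ 2 ≤ (28 * n ^ 2 * ε * N) ^ 2 := by
      rw [← sq_abs (A - B)]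
      exact pow_le_pow_left₀ (abs_nonneg _) (hnear i j) 2
    nlinarith [sq_nonneg (2 * A - B)]
  have h3 : dev X ≤ ∑ i : Fin n, ∑ j : Fin n,
      (2 * tfm s₁ (Km s₂ X) i j ^ 2 + 2 * (28 * n ^ 2 * ε * N) ^ 2) :=
    Finset.sum_le_sum fun i _ => Finset.sum_le_sum fun j _ => hpt i j
  have h4 : ∑ i : Fin n, ∑ j : Fin n,
      (2 * tfm s₁ (Km s₂ X) i j ^ 2 + 2 * (28 * n ^ 2 * ε * N) ^ 2) =
      2 * (∑ i, ∑ j, tfm s₁ (Km s₂ X) i j ^ 2) + n ^ 2 * (2 * (28 * n ^ 2 * ε * N) ^ 2) := by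
    simp only [Finset.sum_add_distrib, Finset.sum_const, Finset.card_univ, Fintype.card_fin,
      nsmul_eq_mul, ← Finset.mul_sum]
    ring
  rw [h4] at h3
  have h5 : n ^ 2 * (2 * (28 * n ^ 2 * ε * N) ^ 2) ≤ 1 / 6 * (∑ i, ∑ j, X i j ^ 2) := by
    rw [← hN2]
    have h6 : n ^ 2 * (2 * (28 * n ^ 2 * ε * N) ^ 2) = 1568 * (n ^ 3 * ε) ^ 2 * N ^ 2 := by ring
    rw [h6]
    have h7 : (n ^ 3 * ε) ^ 2 ≤ (1 / 100) ^ 2 :=
      pow_le_pow_left₀ (by positivity) (by linarith) 2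
    nlinarith [sq_nonneg N]
  linarith

/-- `T(X) = tf_{s₁} K_{s₂}(X)`, squared. -/
def Tq (s₁ s₂ X : Fin n → Fin n → ℝ) : ℝ := ∑ i, ∑ j, tfm s₁ (Km s₂ X) i j ^ 2

theorem Km_add (s X Y : Fin n → Fin n → ℝ) (i j : Fin n) :
    Km s (fun a b => X a b + Y a b) i j = Km s X i j + Km s Y i j := by
  unfold Km
  rw [← Finset.sum_add_distrib]
  exact Finset.sum_congr rfl fun k _ => by ring

theorem Km_smul (c : ℝ) (s X : Fin n → Fin n → ℝ) (i j : Fin n) :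
    Km s (fun a b => c * X a b) i j = c * Km s X i j := by
  unfold Km
  rw [Finset.mul_sum]
  exact Finset.sum_congr rfl fun k _ => by ring

theorem tfm_add (s K L : Fin n → Fin n → ℝ) (i j : Fin n) :
    tfm s (fun a b => K a b + L a b) i j = tfm s K i j + tfm s L i j := by
  have : ipa s (fun a b => K a b + L a b) = ipa s K + ipa s L := by
    unfold ipa
    rw [← Finset.sum_add_distrib]
    refine Finset.sum_congr rfl fun a _ => ?_
    rw [← Finset.sum_add_distrib]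
    exact Finset.sum_congr rfl fun b _ => by ring
  unfold tfm
  rw [this]
  ring

theorem tfm_smul (c : ℝ) (s K : Fin n → Fin n → ℝ) (i j : Fin n) :
    tfm s (fun a b => c * K a b) i j = c * tfm s K i j := by
  have : ipa s (fun a b => c * K a b) = c * ipa s K := by
    unfold ipa
    rw [Finset.mul_sum]
    refine Finset.sum_congr rfl fun a _ => ?_
    rw [Finset.mul_sum]
    exact Finset.sum_congr rfl fun b _ => by ring
  unfold tfm
  rw [this]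
  ring

theorem Tq_smul (c : ℝ) (s₁ s₂ X : Fin n → Fin n → ℝ) :
    Tq s₁ s₂ (fun a b => c * X a b) = c ^ 2 * Tq s₁ s₂ X := by
  unfold Tq
  rw [Finset.mul_sum]
  refine Finset.sum_congr rfl fun i _ => ?_
  rw [Finset.mul_sum]
  refine Finset.sum_congr rfl fun j _ => ?_
  have h1 : Km s₂ (fun a b => c * X a b) = fun a b => c * Km s₂ X a b := by
    funext a b
    exact Km_smul c s₂ X a b
  rw [h1, tfm_smul]
  ring

theorem Tq_add_le (s₁ s₂ X Y : Fin n → Fin n → ℝ) :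
    Tq s₁ s₂ (fun a b => X a b + Y a b) ≤ 2 * Tq s₁ s₂ X + 2 * Tq s₁ s₂ Y := by
  unfold Tq
  rw [Finset.mul_sum, Finset.mul_sum, ← Finset.sum_add_distrib]
  refine Finset.sum_le_sum fun i _ => ?_
  rw [Finset.mul_sum, Finset.mul_sum, ← Finset.sum_add_distrib]
  refine Finset.sum_le_sum fun j _ => ?_
  have h1 : Km s₂ (fun a b => X a b + Y a b) = fun a b => Km s₂ X a b + Km s₂ Y a b := by
    funext a b
    exact Km_add s₂ X Y a b
  rw [h1, tfm_add]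
  nlinarith [sq_nonneg (tfm s₁ (Km s₂ X) i j - tfm s₁ (Km s₂ Y) i j)]

theorem Tq_le (hn : 3 ≤ n) (X s₁ s₂ : Fin n → Fin n → ℝ) {ε : ℝ} (hε : 0 ≤ ε)
    (hε' : 100 * n ^ 3 * ε ≤ 1) (h₁ : ∀ i j, |s₁ i j - dlt i j| ≤ ε)
    (h₂ : ∀ i j, |s₂ i j - dlt i j| ≤ ε) :
    Tq s₁ s₂ X ≤ 9 * (∑ i, ∑ j, X i j ^ 2) := by
  set N := Real.sqrt (∑ i, ∑ j, X i j ^ 2) with hNd
  have hS : 0 ≤ ∑ i, ∑ j, X i j ^ 2 :=
    Finset.sum_nonneg fun i _ => Finset.sum_nonneg fun j _ => sq_nonneg _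
  have hN2 : N ^ 2 = ∑ i, ∑ j, X i j ^ 2 := Real.sq_sqrt hS
  have hN : ∀ i j, |X i j| ≤ N := by
    intro i j
    refine Real.abs_le_sqrt ?_
    refine le_trans ?_ (Finset.single_le_sum (f := fun i => ∑ j, X i j ^ 2)
      (fun i _ => Finset.sum_nonneg fun j _ => sq_nonneg _) (Finset.mem_univ i))
    exact Finset.single_le_sum (f := fun j => X i j ^ 2) (fun j _ => sq_nonneg _)
      (Finset.mem_univ j)
  have hn' : (3 : ℝ) ≤ n := by exact_mod_cast hn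
  have hnear := near hn X s₁ s₂ hε hε' h₁ h₂ hN
  have hpt : ∀ i j, tfm s₁ (Km s₂ X) i j ^ 2 ≤
      2 * (X i j + X j i - 2 / n * dlt i j * ∑ k, X k k) ^ 2 + 2 * (28 * n ^ 2 * ε * N) ^ 2 := by
    intro i j
    set A := tfm s₁ (Km s₂ X) i j
    set B := X i j + X j i - 2 / n * dlt i j * ∑ k, X k k
    have h3 : (A - B) ^ 2 ≤ (28 * n ^ 2 * ε * N) ^ 2 := by
      rw [← sq_abs (A - B)]
      exact pow_le_pow_left₀ (abs_nonneg _) (hnear i j) 2
    nlinarith [sq_nonneg (2 * B - A)]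
  have h3 : Tq s₁ s₂ X ≤ ∑ i : Fin n, ∑ j : Fin n,
      (2 * (X i j + X j i - 2 / n * dlt i j * ∑ k, X k k) ^ 2 + 2 * (28 * n ^ 2 * ε * N) ^ 2) :=
    Finset.sum_le_sum fun i _ => Finset.sum_le_sum fun j _ => hpt i j
  have h4 : ∑ i : Fin n, ∑ j : Fin n,
      (2 * (X i j + X j i - 2 / n * dlt i j * ∑ k, X k k) ^ 2 + 2 * (28 * n ^ 2 * ε * N) ^ 2) =
      2 * dev X + n ^ 2 * (2 * (28 * n ^ 2 * ε * N) ^ 2) := by
    have h5 : dev X = ∑ i, ∑ j, (X i j + X j i - 2 / n * dlt i j * ∑ k, X k k) ^ 2 := rfl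
    rw [h5]
    simp only [Finset.sum_add_distrib, Finset.sum_const, Finset.card_univ, Fintype.card_fin,
      nsmul_eq_mul, ← Finset.mul_sum]
    ring
  rw [h4] at h3
  have h5 : n ^ 2 * (2 * (28 * n ^ 2 * ε * N) ^ 2) ≤ 1 / 6 * (∑ i, ∑ j, X i j ^ 2) := by
    rw [← hN2]
    have h6 : n ^ 2 * (2 * (28 * n ^ 2 * ε * N) ^ 2) = 1568 * (n ^ 3 * ε) ^ 2 * N ^ 2 := by ring
    rw [h6]
    have h7 : (n ^ 3 * ε) ^ 2 ≤ (1 / 100) ^ 2 :=
      pow_le_pow_left₀ (by positivity) (by linarith) 2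
    nlinarith [sq_nonneg N]
  have h6 : dev X ≤ 4 * (∑ i, ∑ j, X i j ^ 2) := by
    rw [dev_eq (by omega)]
    have h7 : ∑ i, ∑ j, X i j * X j i ≤ ∑ i, ∑ j, X i j ^ 2 := by
      have h8 : ∑ i, ∑ j, X i j * X j i ≤ ∑ i, ∑ j, (1 / 2 * X i j ^ 2 + 1 / 2 * X j i ^ 2) :=
        Finset.sum_le_sum fun i _ => Finset.sum_le_sum fun j _ => by
          nlinarith [sq_nonneg (X i j - X j i)]
      have h9 : ∑ i, ∑ j, X j i ^ 2 = ∑ i, ∑ j, X i j ^ 2 := Finset.sum_comm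
      simp only [Finset.sum_add_distrib, ← Finset.mul_sum] at h8
      rw [h9] at h8
      linarith
    have h8 : 0 ≤ 4 / (n : ℝ) * (∑ k, X k k) ^ 2 := by positivity
    linarith
  linarith

end Vale.Agent.P088.HY.H437.XK
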