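import Vale.Agent.P088.R2.H437.KEL
import Vale.Agent.P088.R2.H437.XKO2

/-!
# P088, stage 3, row KEL, second part: the coefficients of the transformed operator
-/

open MeasureTheory Set Filter Topology
open scoped ContDiff Matrix

noncomputable section

namespace Vale.Agent.P088.HY.H437.Kel

open Vale.Agent.P088.LR Vale.Agent.P088.HY Vale.Agent.P088.HY.T3

variable {n : ℕ}

/-! ## Bounds of derivatives -/

theorem cl_le' {k : ℕ} {A B : ℝ} {f : V n → ℝ} (h : Cl k A f) (hAB : A ≤ B) : Cl k B f :=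
  fun l hl x => (h l hl x).trans hAB

theorem cl_add' {k : ℕ} {A B : ℝ} {f g : V n → ℝ} (hf : ContDiff ℝ ∞ f) (hg : ContDiff ℝ ∞ g)
    (h1 : Cl k A f) (h2 : Cl k B g) : Cl k (A + B) (fun x => f x + g x) := by
  intro l hl x
  have h3 : iteratedFDeriv ℝ l (fun x => f x + g x) x =
      iteratedFDeriv ℝ l f x + iteratedFDeriv ℝ l g x :=
    iteratedFDeriv_add_apply (hf.of_le (by exact_mod_cast le_top)).contDiffAt
      (hg.of_le (by exact_mod_cast le_top)).contDiffAt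
  rw [h3]
  exact (norm_add_le _ _).trans (add_le_add (h1 l hl x) (h2 l hl x))

theorem cl_pd' {k : ℕ} {A : ℝ} {f : V n → ℝ} (hf : ContDiff ℝ ∞ f) (h : Cl (k + 1) A f)
    (i : Fin n) : Cl k A (pd i f) := by
  intro l hl x
  have hA : 0 ≤ A := (norm_nonneg _).trans (h 0 (by omega) x)
  have h1 : pd i f = fun y => (ContinuousLinearMap.apply ℝ ℝ (Pi.single i 1 : V n)) (fderiv ℝ f y) :=
    rfl
  have h2 := (ContinuousLinearMap.apply ℝ ℝ (Pi.single i 1 : V n)).norm_iteratedFDeriv_comp_left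
    (f := fderiv ℝ f) (x := x) (n := l) (N := ∞)
    (hf.fderiv_right (m := ∞) (by simp)).contDiffAt (by exact_mod_cast le_top)
  rw [norm_iteratedFDeriv_fderiv] at h2
  have h3 : ‖ContinuousLinearMap.apply ℝ ℝ (Pi.single i 1 : V n)‖ ≤ 1 := by
    refine ContinuousLinearMap.opNorm_le_bound _ zero_le_one fun L => ?_
    rw [ContinuousLinearMap.apply_apply, one_mul]
    refine (L.le_opNorm _).trans ?_
    rw [Pi.norm_single, norm_one, mul_one]
  calc ‖iteratedFDeriv ℝ l (pd i f) x‖ ≤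
        ‖ContinuousLinearMap.apply ℝ ℝ (Pi.single i 1 : V n)‖ * ‖iteratedFDeriv ℝ (l + 1) f x‖ := h2
    _ ≤ 1 * A := mul_le_mul h3 (h (l + 1) (by omega) x) (norm_nonneg _) zero_le_one
    _ = A := one_mul A

/-- All derivatives of a function with compact support are bounded. -/
theorem exists_bd {F : Type*} [NormedAddCommGroup F] [NormedSpace ℝ F] (k : ℕ) {f : V n → F}
    (hf : ContDiff ℝ ∞ f) (hc : HasCompactSupport f) : ∃ B : ℝ, 1 ≤ B ∧
    ∀ l ≤ k, ∀ x, ‖iteratedFDeriv ℝ l f x‖ ≤ B := by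
  have h : ∀ l : ℕ, ∃ C, ∀ x, ‖iteratedFDeriv ℝ l f x‖ ≤ C := fun l =>
    (hf.continuous_iteratedFDeriv (by exact_mod_cast le_top)).bounded_above_of_compact_support
      (hc.iteratedFDeriv l)
  choose C hC using h
  refine ⟨1 + ∑ l ∈ Finset.range (k + 1), |C l|, ?_, fun l hl x => ?_⟩
  · have : 0 ≤ ∑ l ∈ Finset.range (k + 1), |C l| := Finset.sum_nonneg fun _ _ => abs_nonneg _
    linarith
  · have h1 : |C l| ≤ ∑ l ∈ Finset.range (k + 1), |C l| :=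
      Finset.single_le_sum (f := fun l => |C l|) (fun _ _ => abs_nonneg _)
        (Finset.mem_range.2 (by omega))
    linarith [hC l x, le_abs_self (C l)]

/-- Multiplication by a fixed function. -/
theorem cl_mulA (k : ℕ) {a : V n → ℝ} (ha : ContDiff ℝ ∞ a) (hc : HasCompactSupport a) :
    ∃ C : ℝ, 0 ≤ C ∧ ∀ (f : V n → ℝ) (A : ℝ), ContDiff ℝ ∞ f → Cl k A f →
      Cl k (C * A) (fun x => a x * f x) := by
  obtain ⟨B, hB, hb⟩ := exists_bd k ha hc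
  refine ⟨2 ^ k * B, by positivity, fun f A hf h l hl x => ?_⟩
  have hA : 0 ≤ A := (norm_nonneg _).trans (h 0 (Nat.zero_le _) x)
  refine (norm_iteratedFDeriv_mul_le ha hf x (n := l) (by exact_mod_cast le_top)).trans ?_
  have h1 : ∑ i ∈ Finset.range (l + 1), (l.choose i : ℝ) * ‖iteratedFDeriv ℝ i a x‖ *
      ‖iteratedFDeriv ℝ (l - i) f x‖ ≤ ∑ i ∈ Finset.range (l + 1), (l.choose i : ℝ) * (B * A) := by
    refine Finset.sum_le_sum fun i hi => ?_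
    rw [mul_assoc]
    refine mul_le_mul_of_nonneg_left ?_ (Nat.cast_nonneg _)
    have hi' := Finset.mem_range.1 hi
    exact mul_le_mul (hb i (by omega) x) (h (l - i) (by omega) x) (norm_nonneg _) (by linarith)
  refine h1.trans ?_
  rw [← Finset.sum_mul]
  have h2 : ∑ i ∈ Finset.range (l + 1), (l.choose i : ℝ) = 2 ^ l := by
    have := Nat.sum_range_choose l
    exact_mod_cast this
  rw [h2]
  have h3 : (2 : ℝ) ^ l ≤ 2 ^ k := pow_le_pow_right₀ (by norm_num) hl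
  have h4 : 0 ≤ B * A := by positivity
  nlinarith

/-- Composition with a fixed map. -/
theorem cl_comp' (k : ℕ) {T : V n → V n} (hT : ContDiff ℝ ∞ T) (hc : HasCompactSupport T) :
    ∃ C : ℝ, 0 ≤ C ∧ ∀ (f : V n → ℝ) (A : ℝ), ContDiff ℝ ∞ f → Cl k A f →
      Cl k (C * A) (fun x => f (T x)) := by
  obtain ⟨B, hB, hb⟩ := exists_bd k hT hc
  refine ⟨(k.factorial : ℝ) * B ^ k, by positivity, fun f A hf h l hl x => ?_⟩
  have hA : 0 ≤ A := (norm_nonneg _).trans (h 0 (Nat.zero_le _) x)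
  have h1 := norm_iteratedFDeriv_comp_le (n := l) (N := ∞) hf hT (by exact_mod_cast le_top) x
    (C := A) (D := B) (fun i hi => h i (hi.trans hl) _)
    (fun i h1 hi => (hb i (hi.trans hl) x).trans (le_self_pow₀ hB (by omega)))
  refine h1.trans ?_
  have h2 : (l.factorial : ℝ) ≤ k.factorial := by exact_mod_cast Nat.factorial_le hl
  have h3 : B ^ l ≤ B ^ k := pow_le_pow_right₀ hB hl
  calc (l.factorial : ℝ) * A * B ^ l ≤ (k.factorial : ℝ) * A * B ^ k := by gcongr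
    _ = (k.factorial : ℝ) * B ^ k * A := by ring

/-! ## Bounded operators on the coefficients -/

/-- The input: `s` with `s - 1` small. -/
def Inp (m : ℕ) (ε : ℝ) (s : MF n) : Prop :=
  SmM s ∧ 0 ≤ ε ∧ ∀ i j, Cl m ε (fun x => s x i j - (1 : Matrix (Fin n) (Fin n) ℝ) i j)

/-- `L` is bounded from `C^m` to `C^k`. -/
def BO (k m : ℕ) (L : MF n → V n → ℝ) : Prop :=
  ∃ C : ℝ, 0 ≤ C ∧ ∀ (s : MF n) (ε : ℝ), Inp m ε s → ContDiff ℝ ∞ (L s) ∧ Cl k (C * ε) (L s)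

theorem BO.zero (k m : ℕ) : BO k m (fun (_ : MF n) _ => (0 : ℝ)) := by
  refine ⟨0, le_rfl, fun s ε h => ⟨contDiff_const, fun l hl x => ?_⟩⟩
  have : iteratedFDeriv ℝ l (fun _ : V n => (0 : ℝ)) x = 0 := by
    rw [show (fun _ : V n => (0 : ℝ)) = 0 from rfl, iteratedFDeriv_zero]
    rfl
  rw [this, norm_zero]
  simp

theorem BO.add {k m : ℕ} {L M : MF n → V n → ℝ} (hL : BO k m L) (hM : BO k m M) :
    BO k m (fun s x => L s x + M s x) := by
  obtain ⟨C, hC, h⟩ := hL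
  obtain ⟨D, hD, h'⟩ := hM
  refine ⟨C + D, by positivity, fun s ε hs => ⟨(h s ε hs).1.add (h' s ε hs).1, ?_⟩⟩
  have := cl_add' (h s ε hs).1 (h' s ε hs).1 (h s ε hs).2 (h' s ε hs).2
  refine cl_le' this (le_of_eq ?_)
  ring

theorem BO.sum {ι : Type*} (t : Finset ι) {k m : ℕ} {L : ι → MF n → V n → ℝ}
    (hL : ∀ i, BO k m (L i)) : BO k m (fun s x => ∑ i ∈ t, L i s x) := by
  classical
  induction t using Finset.induction_on with
  | empty =>
    simp only [Finset.sum_empty]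
    exact BO.zero k m
  | insert a t ha ih =>
    simp only [Finset.sum_insert ha]
    exact (hL a).add ih

theorem BO.mulA {k m : ℕ} {L : MF n → V n → ℝ} (hL : BO k m L) {a : V n → ℝ}
    (ha : ContDiff ℝ ∞ a) (hc : HasCompactSupport a) : BO k m (fun s x => a x * L s x) := by
  obtain ⟨C, hC, h⟩ := hL
  obtain ⟨D, hD, h'⟩ := cl_mulA k ha hc
  refine ⟨D * C, by positivity, fun s ε hs => ⟨ha.mul (h s ε hs).1, ?_⟩⟩
  have := h' _ _ (h s ε hs).1 (h s ε hs).2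
  refine cl_le' this (le_of_eq ?_)
  ring

theorem BO.pd {k m : ℕ} {L : MF n → V n → ℝ} (hL : BO (k + 1) m L) (i : Fin n) :
    BO k m (fun s => pd i (L s)) := by
  obtain ⟨C, hC, h⟩ := hL
  exact ⟨C, hC, fun s ε hs => ⟨XK.cd_pd (h s ε hs).1 i, cl_pd' (h s ε hs).1 (h s ε hs).2 i⟩⟩

theorem BO.ord {k k' m : ℕ} {L : MF n → V n → ℝ} (hL : BO k m L) (hk : k' ≤ k) : BO k' m L := by
  obtain ⟨C, hC, h⟩ := hL
  exact ⟨C, hC, fun s ε hs => ⟨(h s ε hs).1, fun l hl x => (h s ε hs).2 l (hl.trans hk) x⟩⟩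

theorem BO.base {k m : ℕ} (hk : k ≤ m) {T : V n → V n} (hT : ContDiff ℝ ∞ T)
    (hc : HasCompactSupport T) (a b : Fin n) :
    BO k m (fun s x => s (T x) a b - (1 : Matrix (Fin n) (Fin n) ℝ) a b) := by
  obtain ⟨C, hC, h⟩ := cl_comp' k hT hc
  refine ⟨C, hC, fun s ε hs => ?_⟩
  obtain ⟨f, hf⟩ : ∃ f : V n → ℝ, f = fun x => s x a b - (1 : Matrix (Fin n) (Fin n) ℝ) a b :=
    ⟨_, rfl⟩
  have h1 : ContDiff ℝ ∞ f := by
    rw [hf]
    exact (hs.1 a b).sub contDiff_const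
  have h2 : Cl k ε f := by
    rw [hf]
    exact fun l hl x => hs.2.2 a b l (hl.trans hk) x
  have h3 : (fun x => s (T x) a b - (1 : Matrix (Fin n) (Fin n) ℝ) a b) = fun x => f (T x) := by
    rw [hf]
  show ContDiff ℝ ∞ (fun x => s (T x) a b - (1 : Matrix (Fin n) (Fin n) ℝ) a b) ∧
    Cl k (C * ε) (fun x => s (T x) a b - (1 : Matrix (Fin n) (Fin n) ℝ) a b)
  rw [h3]
  exact ⟨h1.comp hT, h f ε h1 h2⟩

/-! ## Cut-offs -/

/-- The cut-offs. -/
structure Cuts (χ χa ψ χ2 : V n → ℝ) : Prop where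
  s : ContDiff ℝ ∞ χ
  sa : ContDiff ℝ ∞ χa
  sψ : ContDiff ℝ ∞ ψ
  s2 : ContDiff ℝ ∞ χ2
  c : HasCompactSupport χ
  ca : HasCompactSupport χa
  c2 : HasCompactSupport χ2
  t2 : tsupport χ2 ⊆ {y | y ≠ 0}
  one : ∀ y, HY.sq y ≤ (5 / 4) ^ 2 → χ y = 1
  zero : ∀ y, 2 ^ 2 ≤ HY.sq y → χ y = 0
  onea : ∀ y, HY.sq y ≤ 2 ^ 2 → χa y = 1
  zeroa : ∀ y, 3 ^ 2 ≤ HY.sq y → χa y = 0
  oneψ : ∀ y, HY.sq y ≤ (1 / 40) ^ 2 → ψ y = 1
  zeroψ : ∀ y, (1 / 32) ^ 2 ≤ HY.sq y → ψ y = 0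
  one2 : ∀ y, (1 / 40) ^ 2 ≤ HY.sq y → HY.sq y ≤ 3 ^ 2 → χ2 y = 1

theorem sq_cont : Continuous (HY.sq : V n → ℝ) := sq_cd.continuous

theorem isCompact_sq (r : ℝ) : IsCompact {y : V n | HY.sq y ≤ r} := by
  refine Metric.isCompact_of_isClosed_isBounded (isClosed_le sq_cont continuous_const) ?_
  refine (Metric.isBounded_iff_subset_closedBall 0).2 ⟨√r, fun y hy => ?_⟩
  rw [mem_closedBall_zero_iff, pi_norm_le_iff_of_nonneg (Real.sqrt_nonneg _)]
  intro i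
  rw [Real.norm_eq_abs]
  refine Real.abs_le_sqrt (le_trans ?_ hy)
  exact Finset.single_le_sum (f := fun j => y j ^ 2) (fun j _ => _root_.sq_nonneg _)
    (Finset.mem_univ i)

theorem exists_cuts : ∃ χ χa ψ χ2 : V n → ℝ, Cuts χ χa ψ χ2 := by
  have cl : ∀ r : ℝ, IsClosed {y : V n | HY.sq y ≤ r} := fun r =>
    isClosed_le sq_cont continuous_const
  have op : ∀ r : ℝ, IsOpen {y : V n | HY.sq y < r} := fun r => isOpen_lt sq_cont continuous_const
  have z : ∀ {χ : V n → ℝ} {r : ℝ}, tsupport χ ⊆ {y | HY.sq y < r} → ∀ y, r ≤ HY.sq y → χ y = 0 := by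
    intro χ r h y hy
    exact image_eq_zero_of_notMem_tsupport fun h' => not_lt.2 hy (h h')
  have cp : ∀ {χ : V n → ℝ} {r : ℝ}, tsupport χ ⊆ {y | HY.sq y < r} → HasCompactSupport χ := by
    intro χ r h
    exact (isCompact_sq r).of_isClosed_subset (isClosed_tsupport _)
      (h.trans fun y (hy : HY.sq y < r) => (show HY.sq y ≤ r from hy.le))
  have sb : ∀ a b : ℝ, a < b → {y : V n | HY.sq y ≤ a} ⊆ {y | HY.sq y < b} :=
    fun a b hab y (hy : HY.sq y ≤ a) => (show HY.sq y < b from lt_of_le_of_lt hy hab)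
  obtain ⟨χ, O₁, s1, t1, -, k1, e1, -⟩ := XK.ex_cut' (cl ((5 / 4) ^ 2)) (op (2 ^ 2))
    (sb _ _ (by norm_num))
  obtain ⟨χa, O₂, s2, t2, -, k2, e2, -⟩ := XK.ex_cut' (cl (2 ^ 2)) (op (3 ^ 2))
    (sb _ _ (by norm_num))
  obtain ⟨ψ, O₃, s3, t3, -, k3, e3, -⟩ := XK.ex_cut' (cl ((1 / 40) ^ 2)) (op ((1 / 32) ^ 2))
    (sb _ _ (by norm_num))
  obtain ⟨χ2, O₄, s4, t4, -, k4, e4, -⟩ := XK.ex_cut'
    (K := {y : V n | (1 / 40) ^ 2 ≤ HY.sq y} ∩ {y | HY.sq y ≤ 3 ^ 2})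
    (W := {y : V n | 0 < HY.sq y} ∩ {y | HY.sq y < 4 ^ 2})
    ((isClosed_le continuous_const sq_cont).inter (cl _))
    ((isOpen_lt continuous_const sq_cont).inter (op _))
    (fun y hy => ⟨lt_of_lt_of_le (by norm_num : (0 : ℝ) < (1 / 40) ^ 2) hy.1,
      sb _ _ (by norm_num) hy.2⟩)
  refine ⟨χ, χa, ψ, χ2, ⟨s1, s2, s3, s4, cp t1, cp t2, cp (t4.trans inter_subset_right), ?_,
    fun y hy => e1 y (k1 hy), z t1, fun y hy => e2 y (k2 hy), z t2, fun y hy => e3 y (k3 hy), z t3,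
    fun y h1 h2 => e4 y (k4 ⟨h1, h2⟩)⟩⟩
  intro y hy h0
  have h1 := (t4 hy).1
  rw [h0] at h1
  have h2 : HY.sq (0 : V n) = 0 := by simp [sq_def]
  exact (lt_irrefl _ (h2 ▸ h1 : (0 : ℝ) < 0))

section build

variable {χ χa ψ χ2 : V n → ℝ}

/-- The modified inversion. -/
def Tt (χ2 : V n → ℝ) (y : V n) : V n := fun k => χ2 y * iv y k

/-- The modified reflection. -/
def rt (χ2 : V n → ℝ) (i k : Fin n) (y : V n) : ℝ := χ2 y * rf y i k

theorem Tt_cd (h : Cuts χ χa ψ χ2) : ContDiff ℝ ∞ (Tt χ2) := by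
  rw [contDiff_pi]
  intro k
  refine XK.smx' isOpen_ne h.s2 h.t2 fun y hy => ?_
  exact ((contDiffAt_pi.1 (cd_iv hy)) k).contDiffWithinAt

theorem Tt_c (h : Cuts χ χa ψ χ2) : HasCompactSupport (Tt χ2) := by
  refine h.c2.mono' fun y hy => ?_
  refine subset_tsupport _ fun h0 => hy ?_
  funext k
  show χ2 y * iv y k = 0
  rw [h0, zero_mul]

theorem rt_cd (h : Cuts χ χa ψ χ2) (i k : Fin n) : ContDiff ℝ ∞ (rt χ2 i k) :=
  XK.smx' isOpen_ne h.s2 h.t2 fun _ hy => (cd_rf i k hy).contDiffWithinAt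

theorem Tt_eq (h : Cuts χ χa ψ χ2) {y : V n} (h1 : (1 / 40) ^ 2 ≤ HY.sq y)
    (h2 : HY.sq y ≤ 3 ^ 2) : Tt χ2 y = iv y := by
  funext k
  show χ2 y * iv y k = iv y k
  rw [h.one2 y h1 h2, one_mul]

/-- The coefficients. -/
def Ac (χa ψ χ2 : V n → ℝ) (i j k l : Fin n) (y : V n) : ℝ :=
  χa y * ((1 - ψ y) * (rt χ2 i k y * rt χ2 l j y))

theorem Ac_cd (h : Cuts χ χa ψ χ2) (i j k l : Fin n) : ContDiff ℝ ∞ (Ac χa ψ χ2 i j k l) :=
  h.sa.mul ((contDiff_const.sub h.sψ).mul ((rt_cd h i k).mul (rt_cd h l j)))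

theorem Ac_c (h : Cuts χ χa ψ χ2) (i j k l : Fin n) : HasCompactSupport (Ac χa ψ χ2 i j k l) :=
  h.ca.mul_right

theorem Ac_ne (h : Cuts χ χa ψ χ2) {i j k l : Fin n} {y : V n} (hA : Ac χa ψ χ2 i j k l y ≠ 0) :
    (1 / 40) ^ 2 ≤ HY.sq y ∧ HY.sq y ≤ 3 ^ 2 := by
  constructor
  · by_contra hlt
    refine hA ?_
    unfold Ac
    rw [h.oneψ y (not_le.1 hlt).le]
    ring
  · by_contra hlt
    refine hA ?_
    unfold Ac
    rw [h.zeroa y (not_le.1 hlt).le, zero_mul]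

/-- `s* - 1`, near `0` and in the ball of radius `2`. -/
def Ht (χa ψ χ2 : V n → ℝ) (i j : Fin n) (s : MF n) (y : V n) : ℝ :=
  ∑ k, ∑ l, Ac χa ψ χ2 i j k l y *
    (s (Tt χ2 y) k l - (1 : Matrix (Fin n) (Fin n) ℝ) k l)

theorem Ht_bo (h : Cuts χ χa ψ χ2) {k m : ℕ} (hk : k ≤ m) (i j : Fin n) :
    BO k m (Ht χa ψ χ2 i j) :=
  BO.sum _ fun a => BO.sum _ fun b =>
    (BO.base hk (Tt_cd h) (Tt_c h) a b).mulA (Ac_cd h i j a b) (Ac_c h i j a b)

theorem ks_one {s : MF n} (hs : ∀ x ∉ Eb (0 : V n) 32, s x = 1) {y : V n} (hy : y ≠ 0)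
    (h : HY.sq y < (1 / 32) ^ 2) : s (iv y) = 1 := by
  refine hs _ fun hmem => ?_
  have h1 : HY.sq (iv y - 0) < 32 ^ 2 := hmem
  rw [sub_zero, sq_iv hy] at h1
  have h2 := sq_pos hy
  have h3 : (1 : ℝ) < 32 ^ 2 * HY.sq y := by
    rwa [inv_lt_iff_one_lt_mul₀ h2] at h1
  norm_num at h h3
  linarith

theorem Ht_eq (h : Cuts χ χa ψ χ2) {s : MF n} (hs : ∀ x ∉ Eb (0 : V n) 32, s x = 1) {y : V n}
    (hy : y ≠ 0) (h2 : HY.sq y ≤ 2 ^ 2) (i j : Fin n) :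
    Ht χa ψ χ2 i j s y = ks s y i j - (1 : Matrix (Fin n) (Fin n) ℝ) i j := by
  have h9 : HY.sq y ≤ 3 ^ 2 := h2.trans (by norm_num)
  have hR : ∑ a, ∑ b, rf y i a * (1 : Matrix (Fin n) (Fin n) ℝ) a b * rf y b j =
      (1 : Matrix (Fin n) (Fin n) ℝ) i j := by
    rw [← rf_rf hy i j]
    refine Finset.sum_congr rfl fun a _ => ?_
    simp [Matrix.one_apply]
  rcases lt_or_ge (HY.sq y) ((1 / 32) ^ 2) with hlt | hge
  · have h1 : Ht χa ψ χ2 i j s y = 0 := by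
      refine Finset.sum_eq_zero fun k _ => Finset.sum_eq_zero fun l _ => ?_
      by_cases hA : Ac χa ψ χ2 i j k l y = 0
      · rw [hA, zero_mul]
      · have h3 := Ac_ne h hA
        rw [Tt_eq h h3.1 h3.2, ks_one hs hy hlt, sub_self, mul_zero]
    rw [h1, ks_ap, ks_one hs hy hlt, hR, sub_self]
  · have h40 : (1 / 40) ^ 2 ≤ HY.sq y := le_trans (by norm_num) hge
    have h1 : ∀ k l, Ac χa ψ χ2 i j k l y = rf y i k * rf y l j := by
      intro k l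
      unfold Ac rt
      rw [h.onea y h2, h.zeroψ y hge, h.one2 y h40 h9]
      ring
    unfold Ht
    rw [Tt_eq h h40 h9, ks_ap, ← hR, ← Finset.sum_sub_distrib]
    refine Finset.sum_congr rfl fun k _ => ?_
    rw [← Finset.sum_sub_distrib]
    refine Finset.sum_congr rfl fun l _ => ?_
    rw [h1]
    ring

theorem Ht_symm {s : MF n} (hs : ∀ x, (s x).IsSymm) (i j : Fin n) (y : V n) :
    Ht χa ψ χ2 i j s y = Ht χa ψ χ2 j i s y := by
  unfold Ht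
  rw [Finset.sum_comm]
  refine Finset.sum_congr rfl fun l _ => Finset.sum_congr rfl fun k _ => ?_
  have h1 : s (Tt χ2 y) k l - (1 : Matrix (Fin n) (Fin n) ℝ) k l =
      s (Tt χ2 y) l k - (1 : Matrix (Fin n) (Fin n) ℝ) l k := by
    rw [(hs (Tt χ2 y)).apply l k, Matrix.one_apply, Matrix.one_apply]
    by_cases hkl : k = l
    · subst hkl; rfl
    · rw [if_neg hkl, if_neg (fun h' => hkl h'.symm)]
  rw [h1]
  unfold Ac rt
  rw [rf_symm y i k, rf_symm y l j]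
  ring

/-- `χ₂ |x|^{n-2} ∂_j |x|^{2-n}`. -/
def b1 (χ2 : V n → ℝ) (j : Fin n) (y : V n) : ℝ := χ2 y * ((nw n y)⁻¹ * pd j (nw n) y)

/-- `χ₂ |x|^{n-2} ∂_i ∂_j |x|^{2-n}`. -/
def b2 (χ2 : V n → ℝ) (i j : Fin n) (y : V n) : ℝ := χ2 y * ((nw n y)⁻¹ * pd i (pd j (nw n)) y)

theorem nw_on : ContDiffOn ℝ ∞ (nw n) {y : V n | y ≠ 0} := fun _ hy =>
  (cd_nw hy).contDiffWithinAt

theorem nwi_on : ContDiffOn ℝ ∞ (fun y => (nw n y)⁻¹) {y : V n | y ≠ 0} := fun _ hy =>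
  ((cd_nw hy).inv (nw_pos hy).ne').contDiffWithinAt

theorem b1_cd (h : Cuts χ χa ψ χ2) (j : Fin n) : ContDiff ℝ ∞ (b1 χ2 j) :=
  XK.smx' isOpen_ne h.s2 h.t2 (nwi_on.mul (cd_pd isOpen_ne nw_on j))

theorem b2_cd (h : Cuts χ χa ψ χ2) (i j : Fin n) : ContDiff ℝ ∞ (b2 χ2 i j) :=
  XK.smx' isOpen_ne h.s2 h.t2 (nwi_on.mul (cd_pd isOpen_ne (cd_pd isOpen_ne nw_on j) i))

theorem b1_c (h : Cuts χ χa ψ χ2) (j : Fin n) : HasCompactSupport (b1 χ2 j) := h.c2.mul_right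

theorem b2_c (h : Cuts χ χa ψ χ2) (i j : Fin n) : HasCompactSupport (b2 χ2 i j) :=
  h.c2.mul_right

/-- The potential. -/
def vt (χ χa ψ χ2 : V n → ℝ) (s : MF n) (y : V n) : ℝ :=
  -χ y * ∑ i, ∑ j, (b1 χ2 j y * pd i (Ht χa ψ χ2 i j s) y + b2 χ2 i j y * Ht χa ψ χ2 i j s y)

theorem vt_bo (h : Cuts χ χa ψ χ2) {k m : ℕ} (hk : k + 1 ≤ m) : BO k m (vt χ χa ψ χ2) :=
  BO.mulA (BO.sum _ fun i => BO.sum _ fun j =>
    (((Ht_bo h hk i j).pd i).mulA (b1_cd h j) (b1_c h j)).add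
      ((Ht_bo h (by omega : k ≤ m) i j).mulA (b2_cd h i j) (b2_c h i j))) h.s.neg
    (h.c.comp_left (g := fun t : ℝ => -t) neg_zero)

theorem harm (hn : 3 ≤ n) {y : V n} (hy : y ≠ 0) : ∑ i, pd i (pd i (nw n)) y = 0 := by
  have hq := (sq_pos hy).ne'
  have h1 : ∀ i, pd i (pd i (nw n)) y = -((n - 2 : ℕ) : ℝ) * nw n y * (HY.sq y)⁻¹ +
      ((n - 2 : ℕ) : ℝ) * (n : ℝ) * nw n y * ((HY.sq y)⁻¹) ^ 2 * y i ^ 2 := by
    intro i
    have hev : pd i (nw n) =ᶠ[𝓝 y] fun x =>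
        -((n - 2 : ℕ) : ℝ) * (x i * (nw n x * (HY.sq x ^ 1)⁻¹)) := by
      filter_upwards [isOpen_ne.mem_nhds hy] with x hx
      rw [pd_nw i hx, pow_one]
      ring
    have d1 : DifferentiableAt ℝ (fun x : V n => nw n x * (HY.sq x ^ 1)⁻¹) y :=
      (da_nw hy).mul (da_invpow 1 hy)
    have d2 : DifferentiableAt ℝ (fun x : V n => x i * (nw n x * (HY.sq x ^ 1)⁻¹)) y :=
      (da_coord i y).mul d1
    rw [pd_ev hev, pd_mul (differentiableAt_const _) d2, pd_const, pd_mul (da_coord i y) d1,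
      pd_coord, if_pos rfl, pd_mul (da_nw hy) (da_invpow 1 hy), pd_invpow 1 i hy, pd_nw i hy]
    have hn2 : ((n - 2 : ℕ) : ℝ) = (n : ℝ) - 2 := by
      rw [Nat.cast_sub (by omega)]
      simp
    rw [hn2]
    field_simp
    ring
  rw [Finset.sum_congr rfl fun i _ => h1 i, Finset.sum_add_distrib, Finset.sum_const,
    Finset.card_univ, Fintype.card_fin, nsmul_eq_mul, ← Finset.mul_sum, ← sq_def]
  field_simp
  ring

theorem kv_eq (hn : 3 ≤ n) (h : Cuts χ χa ψ χ2) {s : MF n} (hs : SmM s)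
    (hs1 : ∀ x ∉ Eb (0 : V n) 32, s x = 1) {y : V n} (hy : y ≠ 0) (h2 : HY.sq y < 2 ^ 2) :
    kv s y = -∑ i, ∑ j, ((nw n y)⁻¹ * pd j (nw n) y * pd i (Ht χa ψ χ2 i j s) y +
      (nw n y)⁻¹ * pd i (pd j (nw n)) y * Ht χa ψ χ2 i j s y) := by
  have hHs : ∀ i j, ContDiff ℝ ∞ (Ht χa ψ χ2 i j s) := fun i j => by
    refine ContDiff.sum fun a _ => ContDiff.sum fun b _ => (Ac_cd h i j a b).mul ?_
    exact ((hs a b).comp (Tt_cd h)).sub contDiff_const
  have hev : ∀ᶠ x in 𝓝 y, x ≠ 0 ∧ HY.sq x < 2 ^ 2 := by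
    have e1 : ∀ᶠ x in 𝓝 y, x ≠ 0 := isOpen_ne.mem_nhds hy
    have e2 : ∀ᶠ x in 𝓝 y, HY.sq x < 2 ^ 2 := (isOpen_lt sq_cont continuous_const).mem_nhds h2
    exact e1.and e2
  have dp : ∀ j, DifferentiableAt ℝ (pd j (nw n)) y := fun j =>
    ((cd_pd isOpen_ne nw_on j).contDiffAt (isOpen_ne.mem_nhds hy)).differentiableAt (by simp)
  have dH : ∀ i j, DifferentiableAt ℝ (Ht χa ψ χ2 i j s) y := fun i j =>
    (hHs i j).differentiable (by simp) y
  have h1 : ∀ i, pd i (fun y => ∑ j, ks s y i j * pd j (nw n) y) y =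
      pd i (pd i (nw n)) y + ∑ j, (pd j (nw n) y * pd i (Ht χa ψ χ2 i j s) y +
        pd i (pd j (nw n)) y * Ht χa ψ χ2 i j s y) := by
    intro i
    have hev2 : (fun y => ∑ j, ks s y i j * pd j (nw n) y) =ᶠ[𝓝 y] fun y =>
        pd i (nw n) y + ∑ j, Ht χa ψ χ2 i j s y * pd j (nw n) y := by
      filter_upwards [hev] with x hx
      have h3 : ∀ j, ks s x i j * pd j (nw n) x =
          (1 : Matrix (Fin n) (Fin n) ℝ) i j * pd j (nw n) x +
            Ht χa ψ χ2 i j s x * pd j (nw n) x := by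
        intro j
        rw [Ht_eq h hs1 hx.1 hx.2.le i j]
        ring
      rw [Finset.sum_congr rfl fun j _ => h3 j, Finset.sum_add_distrib]
      congr 1
      simp [Matrix.one_apply]
    have d1 : ∀ j, DifferentiableAt ℝ (fun y => Ht χa ψ χ2 i j s y * pd j (nw n) y) y := fun j =>
      (dH i j).mul (dp j)
    have d2 : DifferentiableAt ℝ (fun y => ∑ j, Ht χa ψ χ2 i j s y * pd j (nw n) y) y :=
      DifferentiableAt.fun_sum fun j _ => d1 j
    rw [pd_ev hev2, pd_add (dp i) d2,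
      pd_sum (f := fun j y => Ht χa ψ χ2 i j s y * pd j (nw n) y) (fun j _ => d1 j)]
    congr 1
    refine Finset.sum_congr rfl fun j _ => ?_
    rw [pd_mul (dH i j) (dp j)]
    ring
  unfold kv Ldv
  rw [Finset.sum_congr rfl fun i _ => h1 i, Finset.sum_add_distrib, harm hn hy, zero_add,
    Finset.mul_sum]
  congr 1
  refine Finset.sum_congr rfl fun i _ => ?_
  rw [Finset.mul_sum]
  exact Finset.sum_congr rfl fun j _ => by ring

theorem vt_eq (hn : 3 ≤ n) (h : Cuts χ χa ψ χ2) {s : MF n} (hs : SmM s)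
    (hs1 : ∀ x ∉ Eb (0 : V n) 32, s x = 1) {y : V n} (hy : y ≠ 0)
    (h2 : HY.sq y < (5 / 4) ^ 2) : vt χ χa ψ χ2 s y = kv s y := by
  have h4 : HY.sq y < 2 ^ 2 := h2.trans (by norm_num)
  rw [kv_eq hn h hs hs1 hy h4]
  unfold vt
  rw [h.one y h2.le, neg_one_mul]
  congr 1
  refine Finset.sum_congr rfl fun i _ => Finset.sum_congr rfl fun j _ => ?_
  rcases lt_or_ge (HY.sq y) ((1 / 40) ^ 2) with hlt | hge
  · -- everything vanishes near `y`
    have h32 : HY.sq y < (1 / 32) ^ 2 := hlt.trans (by norm_num)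
    have hev : Ht χa ψ χ2 i j s =ᶠ[𝓝 y] fun _ => 0 := by
      have e1 : ∀ᶠ x in 𝓝 y, x ≠ 0 := isOpen_ne.mem_nhds hy
      have e2 : ∀ᶠ x in 𝓝 y, HY.sq x < (1 / 32) ^ 2 :=
        (isOpen_lt sq_cont continuous_const).mem_nhds h32
      filter_upwards [e1, e2] with x hx hx2
      rw [Ht_eq h hs1 hx (hx2.le.trans (by norm_num)), ks_ap, ks_one hs1 hx hx2]
      have hR : ∑ a, ∑ b, rf x i a * (1 : Matrix (Fin n) (Fin n) ℝ) a b * rf x b j =
          (1 : Matrix (Fin n) (Fin n) ℝ) i j := by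
        rw [← rf_rf hx i j]
        refine Finset.sum_congr rfl fun a _ => ?_
        simp [Matrix.one_apply]
      rw [hR, sub_self]
    rw [pd_ev hev, pd_const, hev.self_of_nhds]
    simp
  · unfold b1 b2
    rw [h.one2 y hge (h4.le.trans (by norm_num))]
    ring

/-- The tensor. -/
def st (χ χa ψ χ2 : V n → ℝ) (s : MF n) : MF n := fun y => Matrix.of fun i j =>
  (1 : Matrix (Fin n) (Fin n) ℝ) i j + χ y * Ht χa ψ χ2 i j s y

end build

theorem rowKEL : RowKEL := by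
  intro n hn K
  obtain ⟨χ, χa, ψ, χ2, h⟩ := exists_cuts (n := n)
  have hb : ∀ i j, BO K (K + 2) (fun s y => χ y * Ht χa ψ χ2 i j s y) := fun i j =>
    (Ht_bo h (by omega : K ≤ K + 2) i j).mulA h.s h.c
  have hv : BO K (K + 2) (vt χ χa ψ χ2) := vt_bo h (by omega)
  choose C hC0 hC using hb
  obtain ⟨D, hD0, hD⟩ := hv
  refine ⟨1 + (∑ i, ∑ j, C i j) + D, by
    have : 0 ≤ ∑ i, ∑ j, C i j := Finset.sum_nonneg fun i _ => Finset.sum_nonneg fun j _ => hC0 i j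
    linarith, fun s ε hs hy hε hε1 hcl hs1 => ⟨?_, ?_⟩⟩
  · have hin : Inp (K + 2) ε s := ⟨hs, hε, hcl⟩
    have hle : ∀ i j, C i j * ε ≤ (1 + (∑ i, ∑ j, C i j) + D) * ε := by
      intro i j
      refine mul_le_mul_of_nonneg_right ?_ hε
      have h1 : C i j ≤ ∑ j, C i j :=
        Finset.single_le_sum (f := fun j => C i j) (fun j _ => hC0 i j) (Finset.mem_univ j)
      have h2 : ∑ j, C i j ≤ ∑ i, ∑ j, C i j :=
        Finset.single_le_sum (f := fun i => ∑ j, C i j)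
          (fun i _ => Finset.sum_nonneg fun j _ => hC0 i j) (Finset.mem_univ i)
      linarith
    have hDle : D * ε ≤ (1 + (∑ i, ∑ j, C i j) + D) * ε := by
      refine mul_le_mul_of_nonneg_right ?_ hε
      have : 0 ≤ ∑ i, ∑ j, C i j :=
        Finset.sum_nonneg fun i _ => Finset.sum_nonneg fun j _ => hC0 i j
      linarith
    refine ⟨st χ χa ψ χ2 s, vt χ χa ψ χ2 s, fun i j => ?_, (hD s ε hin).1, fun y => ?_,
      fun y hy1 hy0 => ?_, fun i j => ?_, cl_le' (hD s ε hin).2 hDle, fun y hy2 => ?_⟩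
    · show ContDiff ℝ ∞ fun y => (1 : Matrix (Fin n) (Fin n) ℝ) i j + χ y * Ht χa ψ χ2 i j s y
      exact contDiff_const.add (hC i j s ε hin).1
    · ext i j
      show (1 : Matrix (Fin n) (Fin n) ℝ) j i + χ y * Ht χa ψ χ2 j i s y =
        (1 : Matrix (Fin n) (Fin n) ℝ) i j + χ y * Ht χa ψ χ2 i j s y
      rw [Ht_symm hy j i y, Matrix.one_apply, Matrix.one_apply]
      by_cases hij : i = j
      · subst hij; rfl
      · rw [if_neg hij, if_neg (fun h' => hij h'.symm)]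
    · have h3 : HY.sq y < (5 / 4) ^ 2 := by
        have h4 : HY.sq (y - 0) < (5 / 4) ^ 2 := hy1
        rwa [sub_zero] at h4
      refine ⟨?_, vt_eq hn h hs hs1 hy0 h3⟩
      ext i j
      show (1 : Matrix (Fin n) (Fin n) ℝ) i j + χ y * Ht χa ψ χ2 i j s y = _
      rw [h.one y h3.le, Ht_eq h hs1 hy0 (h3.le.trans (by norm_num))]
      ring
    · have h3 : (fun y => st χ χa ψ χ2 s y i j - (1 : Matrix (Fin n) (Fin n) ℝ) i j) =
          fun y => χ y * Ht χa ψ χ2 i j s y := by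
        funext y
        show (1 : Matrix (Fin n) (Fin n) ℝ) i j + χ y * Ht χa ψ χ2 i j s y -
          (1 : Matrix (Fin n) (Fin n) ℝ) i j = _
        ring
      rw [h3]
      exact cl_le' (hC i j s ε hin).2 (hle i j)
    · have h3 : 2 ^ 2 ≤ HY.sq y := by
        by_contra hlt
        refine hy2 ?_
        show HY.sq (y - 0) < 2 ^ 2
        rw [sub_zero]
        exact not_le.1 hlt
      constructor
      · ext i j
        show (1 : Matrix (Fin n) (Fin n) ℝ) i j + χ y * Ht χa ψ χ2 i j s y = _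
        rw [h.zero y h3, zero_mul, add_zero]
      · unfold vt
        rw [h.zero y h3, neg_zero, zero_mul]
  · intro U u hU h0 hu y hyU
    exact kel_id hn hs hy hU h0 hu hyU

end Vale.Agent.P088.HY.H437.Kel
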