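import Vale.Agent.P088.R2.H551.V.Spec

/-!
# P088, row V-KO: the conformal Korn inequality for compact supports
-/

open MeasureTheory Set
open scoped ContDiff Matrix

noncomputable section

namespace Vale.Agent.P088.PJ.H437

open Vale.Agent.P088.LR Vale.Agent.P088.PJ

variable {n : ℕ}

lemma cd_pd {F : Type*} [NormedAddCommGroup F] [NormedSpace ℝ F] {f : V n → F}
    (hf : ContDiff ℝ ∞ f) (i : Fin n) : ContDiff ℝ ∞ (pd i f) :=
  (hf.fderiv_right (m := ∞) (by simp)).clm_apply contDiff_const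

lemma hc_pd {F : Type*} [NormedAddCommGroup F] [NormedSpace ℝ F] {f : V n → F}
    (hf : HasCompactSupport f) (i : Fin n) : HasCompactSupport (pd i f) :=
  (hf.fderiv (𝕜 := ℝ)).comp_left (g := fun L : V n →L[ℝ] F => L (Pi.single i 1)) rfl

lemma pd_comm {F : Type*} [NormedAddCommGroup F] [NormedSpace ℝ F] {f : V n → F}
    (hf : ContDiff ℝ ∞ f) (i j : Fin n) (x : V n) : pd i (pd j f) x = pd j (pd i f) x := by
  have h1 : DifferentiableAt ℝ (fderiv ℝ f) x :=
    (hf.fderiv_right (m := ∞) (by simp)).differentiable (by simp) x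
  have h2 : ∀ a b : Fin n, pd a (pd b f) x =
      fderiv ℝ (fderiv ℝ f) x (Pi.single a 1) (Pi.single b 1) := by
    intro a b
    unfold pd
    rw [fderiv_clm_apply h1 (differentiableAt_const _)]
    simp
  rw [h2, h2]
  have h3 : minSmoothness ℝ 2 ≤ (∞ : WithTop ℕ∞) := by
    rw [minSmoothness_of_isRCLikeNormedField]
    exact WithTop.coe_le_coe.2 le_top
  exact (hf.contDiffAt.isSymmSndFDerivAt h3) _ _

/-- The integral of a derivative. -/
lemma int_pd {f : V n → ℂ} (hf : ContDiff ℝ ∞ f) (hc : HasCompactSupport f) (i : Fin n) :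
    ∫ x, pd i f x = 0 := by
  have hi : Integrable f := hf.continuous.integrable_of_hasCompactSupport hc
  have hi' : Integrable (pd i f) :=
    (cd_pd hf i).continuous.integrable_of_hasCompactSupport (hc_pd hc i)
  have h := integral_mul_fderiv_eq_neg_fderiv_mul_of_integrable (μ := (volume : Measure (V n)))
    (f := fun _ => (1 : ℂ)) (g := f) (v := Pi.single i 1) (by simp)
    (by simp only [one_mul]; exact hi') (by simpa using hi) (fun x _ => differentiableAt_const _)
    (fun x _ => hf.differentiable (by simp) x)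
  simp only [one_mul, fderiv_fun_const, Pi.zero_apply, zero_apply, zero_mul, integral_zero,
    neg_zero] at h
  exact h

lemma pd_mul {f g : V n → ℂ} (hf : ContDiff ℝ ∞ f) (hg : ContDiff ℝ ∞ g) (i : Fin n) (x : V n) :
    pd i (fun x => f x * g x) x = f x * pd i g x + g x * pd i f x := by
  unfold pd
  rw [fderiv_fun_mul (hf.differentiable (by simp) x) (hg.differentiable (by simp) x)]
  simp

lemma pd_sub' {f g : V n → ℂ} (hf : ContDiff ℝ ∞ f) (hg : ContDiff ℝ ∞ g) (i : Fin n) (x : V n) :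
    pd i (fun x => f x - g x) x = pd i f x - pd i g x := by
  unfold pd
  rw [fderiv_fun_sub (hf.differentiable (by simp) x) (hg.differentiable (by simp) x)]
  simp

/-- Complex conjugate of a function. -/
abbrev cj (f : V n → ℂ) : V n → ℂ := fun x => (starRingEnd ℂ) (f x)

lemma cd_cj {f : V n → ℂ} (hf : ContDiff ℝ ∞ f) : ContDiff ℝ ∞ (cj f) :=
  Complex.conjCLE.contDiff.comp hf

lemma pd_cj {f : V n → ℂ} (hf : ContDiff ℝ ∞ f) (i : Fin n) (x : V n) :
    pd i (cj f) x = (starRingEnd ℂ) (pd i f x) := by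
  have h : HasFDerivAt (cj f) ((Complex.conjCLE : ℂ →L[ℝ] ℂ).comp (fderiv ℝ f x)) x :=
    (Complex.conjCLE : ℂ →L[ℝ] ℂ).hasFDerivAt.comp x ((hf.differentiable (by simp)) x).hasFDerivAt
  unfold pd
  rw [h.fderiv]
  rfl

lemma hc_cj {f : V n → ℂ} (hf : HasCompactSupport f) : HasCompactSupport (cj f) :=
  hf.comp_left (g := fun z : ℂ => (starRingEnd ℂ) z) (map_zero _)

/-- `∫ ∂_i f · conj (∂_j g) = ∫ ∂_j f · conj (∂_i g)`. -/
lemma swap {f g : V n → ℂ} (hf : ContDiff ℝ ∞ f) (hg : ContDiff ℝ ∞ g) (hc : HasCompactSupport f)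
    (i j : Fin n) : ∫ x, pd i f x * (starRingEnd ℂ) (pd j g x) =
      ∫ x, pd j f x * (starRingEnd ℂ) (pd i g x) := by
  have hgj := cd_cj (cd_pd hg j)
  have hgi := cd_cj (cd_pd hg i)
  have e1 := int_pd (hf.mul hgj) (hc.mul_right) i
  have e2 := int_pd (hf.mul hgi) (hc.mul_right) j
  have i1 : ∀ {u w : V n → ℂ}, ContDiff ℝ ∞ u → ContDiff ℝ ∞ w → HasCompactSupport u →
      Integrable (fun x => u x * w x) := fun hu hw h =>
    (hu.mul hw).continuous.integrable_of_hasCompactSupport h.mul_right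
  have g1 : ∀ x, pd i (fun x => f x * cj (pd j g) x) x =
      f x * (starRingEnd ℂ) (pd i (pd j g) x) + cj (pd j g) x * pd i f x := fun x => by
    rw [pd_mul hf hgj, pd_cj (cd_pd hg j)]
  have g2 : ∀ x, pd j (fun x => f x * cj (pd i g) x) x =
      f x * (starRingEnd ℂ) (pd i (pd j g) x) + cj (pd i g) x * pd j f x := fun x => by
    rw [pd_mul hf hgi, pd_cj (cd_pd hg i), pd_comm hg j i]
  have k1 : ∫ x, (f x * (starRingEnd ℂ) (pd i (pd j g) x) + cj (pd j g) x * pd i f x) = 0 := by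
    rw [← e1]
    exact integral_congr_ae (Filter.Eventually.of_forall fun x => (g1 x).symm)
  have k2 : ∫ x, (f x * (starRingEnd ℂ) (pd i (pd j g) x) + cj (pd i g) x * pd j f x) = 0 := by
    rw [← e2]
    exact integral_congr_ae (Filter.Eventually.of_forall fun x => (g2 x).symm)
  have j0 := i1 hf (cd_cj (cd_pd (cd_pd hg j) i)) hc
  have j1 : Integrable (fun x => cj (pd j g) x * pd i f x) := by
    have := i1 (cd_pd hf i) hgj (hc_pd hc i)
    exact this.congr (Filter.Eventually.of_forall fun x => mul_comm _ _)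
  have j2 : Integrable (fun x => cj (pd i g) x * pd j f x) := by
    have := i1 (cd_pd hf j) hgi (hc_pd hc j)
    exact this.congr (Filter.Eventually.of_forall fun x => mul_comm _ _)
  rw [integral_add j0 j1] at k1
  rw [integral_add j0 j2] at k2
  have k3 : ∫ x, cj (pd j g) x * pd i f x = ∫ x, cj (pd i g) x * pd j f x := by
    linear_combination k1 - k2
  simp only [mul_comm (pd i f _), mul_comm (pd j f _)]
  exact k3

/-- The pointwise identity. -/
lemma alg (hn : n ≠ 0) (A : Fin n → Fin n → ℂ) :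
    ∑ i, ∑ j, ‖A i j + A j i - (if i = j then (2 / n : ℂ) * ∑ l, A l l else 0)‖ ^ 2 =
      2 * ∑ i, ∑ j, ‖A i j‖ ^ 2 + 2 * ∑ i, ∑ j, (A i j * (starRingEnd ℂ) (A j i)).re
        - 4 / n * ‖∑ l, A l l‖ ^ 2 := by
  have hn' : (n : ℝ) ≠ 0 := by exact_mod_cast hn
  obtain ⟨d, hd⟩ : ∃ d : ℂ, d = ∑ l, A l l := ⟨_, rfl⟩
  rw [← hd]
  have e1 : ∀ i j, ‖A i j + A j i - (if i = j then (2 / n : ℂ) * d else 0)‖ ^ 2 =
      (‖A i j‖ ^ 2 + ‖A j i‖ ^ 2 + 2 * (A i j * (starRingEnd ℂ) (A j i)).re) +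
      (if i = j then (-(8 / n) * (A i i * (starRingEnd ℂ) d).re + 4 / n ^ 2 * ‖d‖ ^ 2) else 0) := by
    intro i j
    by_cases h : i = j
    · subst h
      simp only [if_true]
      have e : A i i + A i i - (2 / n : ℂ) * d = (2 : ℝ) • A i i - (2 / n : ℝ) • d := by
        simp only [Complex.real_smul]
        push_cast
        ring
      rw [e]
      simp only [← Complex.normSq_eq_norm_sq, Complex.normSq_apply, Complex.sub_re, Complex.sub_im,
        Complex.real_smul, Complex.mul_re, Complex.mul_im, Complex.ofReal_re, Complex.ofReal_im,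
        Complex.conj_re, Complex.conj_im]
      field_simp
      ring
    · simp only [if_neg h, sub_zero, add_zero]
      simp only [← Complex.normSq_eq_norm_sq, Complex.normSq_apply, Complex.add_re, Complex.add_im,
        Complex.mul_re, Complex.conj_re, Complex.conj_im]
      ring
  have e2 : ∑ i, ∑ j, ‖A j i‖ ^ 2 = ∑ i, ∑ j, ‖A i j‖ ^ 2 := Finset.sum_comm
  have e3 : ∑ i : Fin n, (-(8 / n) * (A i i * (starRingEnd ℂ) d).re + 4 / n ^ 2 * ‖d‖ ^ 2) =
      -(4 / n) * ‖d‖ ^ 2 := by
    rw [Finset.sum_add_distrib, ← Finset.mul_sum, ← Complex.re_sum, ← Finset.sum_mul, ← hd]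
    have : (d * (starRingEnd ℂ) d).re = ‖d‖ ^ 2 := by
      rw [Complex.mul_conj, Complex.ofReal_re, Complex.normSq_eq_norm_sq]
    rw [this, Finset.sum_const, Finset.card_univ, Fintype.card_fin, nsmul_eq_mul]
    field_simp
    ring
  simp only [e1, Finset.sum_add_distrib, e2, Finset.sum_ite_eq, Finset.mem_univ, if_true,
    ← Finset.mul_sum]
  rw [Finset.sum_add_distrib, ← Finset.mul_sum, ← Finset.mul_sum] at e3
  linarith

/-- **Row V-KO.** -/
theorem rowKO : RowKO := by
  intro n hn v hv hc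
  have hn0 : n ≠ 0 := by omega
  have hnr : (2 : ℝ) ≤ n := by exact_mod_cast hn
  have hcont : ∀ i a, Continuous (pd i (v a)) := fun i a => (cd_pd (hv a) i).continuous
  -- integrability
  have I1 : ∀ i a, Integrable (fun x => ‖pd i (v a) x‖ ^ 2) := fun i a => by
    refine Continuous.integrable_of_hasCompactSupport ((hcont i a).norm.pow 2) ?_
    exact (hc_pd (hc a) i).comp_left (g := fun z : ℂ => ‖z‖ ^ 2) (by simp)
  have I2 : ∀ i j a b, Integrable (fun x => pd i (v a) x * (starRingEnd ℂ) (pd j (v b) x)) :=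
    fun i j a b => by
    refine Continuous.integrable_of_hasCompactSupport
      ((hcont i a).mul (Complex.continuous_conj.comp (hcont j b))) ?_
    exact (hc_pd (hc a) i).mul_right
  have I2' : ∀ i j a b, Integrable (fun x => (pd i (v a) x * (starRingEnd ℂ) (pd j (v b) x)).re) :=
    fun i j a b => (I2 i j a b).re
  have I3 : Integrable (fun x => ‖∑ l, pd l (v l) x‖ ^ 2) := by
    have hcs : HasCompactSupport (fun x => ∑ l, pd l (v l) x) := by
      refine HasCompactSupport.intro (K := ⋃ l, tsupport (pd l (v l)))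
        (isCompact_iUnion fun l => hc_pd (hc l) l) fun x hx => ?_
      refine Finset.sum_eq_zero fun l _ => ?_
      by_contra h
      exact hx (mem_iUnion.2 ⟨l, subset_tsupport _ h⟩)
    refine Continuous.integrable_of_hasCompactSupport
      ((continuous_finsetSum _ fun l _ => hcont l l).norm.pow 2) ?_
    exact hcs.comp_left (g := fun z : ℂ => ‖z‖ ^ 2) (by simp)
  -- the mixed term
  have hmix : ∫ x, ∑ i, ∑ j, (pd i (v j) x * (starRingEnd ℂ) (pd j (v i) x)).re =
      ∫ x, ‖∑ l, pd l (v l) x‖ ^ 2 := by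
    have e1 : ∀ x, ‖∑ l, pd l (v l) x‖ ^ 2 =
        ∑ i, ∑ j, (pd j (v j) x * (starRingEnd ℂ) (pd i (v i) x)).re := by
      intro x
      have : ((∑ l, pd l (v l) x) * (starRingEnd ℂ) (∑ l, pd l (v l) x)).re =
          ‖∑ l, pd l (v l) x‖ ^ 2 := by
        rw [Complex.mul_conj, Complex.ofReal_re, Complex.normSq_eq_norm_sq]
      rw [← this, map_sum, Finset.sum_mul_sum, Complex.re_sum, Finset.sum_comm]
      refine Finset.sum_congr rfl fun i _ => ?_
      rw [Complex.re_sum]
    simp_rw [e1]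
    rw [integral_finsetSum _ fun i _ => integrable_finsetSum _ fun j _ => I2' i j j i,
      integral_finsetSum _ fun i _ => integrable_finsetSum _ fun j _ => I2' j i j i]
    refine Finset.sum_congr rfl fun i _ => ?_
    rw [integral_finsetSum _ fun j _ => I2' i j j i, integral_finsetSum _ fun j _ => I2' j i j i]
    refine Finset.sum_congr rfl fun j _ => ?_
    have h1 := swap (hv j) (hv i) (hc j) i j
    have h2 := congrArg Complex.re h1
    rw [← RCLike.re_eq_complex_re, ← integral_re (I2 i j j i), ← integral_re (I2 j i j i)] at h2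
    exact h2
  have halg : ∀ x, ∑ i, ∑ j, ‖pd i (v j) x + pd j (v i) x
      - (if i = j then (2 / n : ℂ) * ∑ l, pd l (v l) x else 0)‖ ^ 2 =
      2 * ∑ i, ∑ j, ‖pd i (v j) x‖ ^ 2 + 2 * ∑ i, ∑ j,
        (pd i (v j) x * (starRingEnd ℂ) (pd j (v i) x)).re - 4 / n * ‖∑ l, pd l (v l) x‖ ^ 2 :=
    fun x => alg hn0 fun i j => pd i (v j) x
  have J1 : Integrable (fun x => ∑ i, ∑ j, ‖pd i (v j) x‖ ^ 2) :=
    integrable_finsetSum _ fun i _ => integrable_finsetSum _ fun j _ => I1 i j
  have J2 : Integrable (fun x => ∑ i, ∑ j, (pd i (v j) x * (starRingEnd ℂ) (pd j (v i) x)).re) :=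
    integrable_finsetSum _ fun i _ => integrable_finsetSum _ fun j _ => I2' i j j i
  have htot : ∫ x, ∑ i, ∑ j, ‖pd i (v j) x + pd j (v i) x
      - (if i = j then (2 / n : ℂ) * ∑ l, pd l (v l) x else 0)‖ ^ 2 =
      2 * (∫ x, ∑ i, ∑ j, ‖pd i (v j) x‖ ^ 2) + (2 - 4 / n) * ∫ x, ‖∑ l, pd l (v l) x‖ ^ 2 := by
    simp_rw [halg]
    have J12 : Integrable (fun x => 2 * ∑ i, ∑ j, ‖pd i (v j) x‖ ^ 2 + 2 * ∑ i, ∑ j,
        (pd i (v j) x * (starRingEnd ℂ) (pd j (v i) x)).re) :=
      (J1.const_mul 2).add (J2.const_mul 2)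
    rw [integral_sub J12 (I3.const_mul _),
      integral_add (J1.const_mul 2) (J2.const_mul 2), integral_const_mul, integral_const_mul,
      integral_const_mul, hmix]
    ring
  rw [htot]
  have h0 : 0 ≤ (2 - 4 / n : ℝ) * ∫ x, ‖∑ l, pd l (v l) x‖ ^ 2 := by
    refine mul_nonneg ?_ (integral_nonneg fun x => by positivity)
    rw [sub_nonneg, div_le_iff₀ (by positivity)]
    linarith
  linarith

end Vale.Agent.P088.PJ.H437
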