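import Vale.Agent.P088.R2.H794.Mat
import Vale.Agent.P088.H72.B.Sc

/-!
# P088: energies, domains, closeness and Jacobians under the affine change `x = M (y - 1/2)`
-/

open MeasureTheory Set
open scoped ContDiff Matrix Pointwise

noncomputable section

namespace Vale.Agent.P088.HY.H437

open Vale.Agent.P088.LR Vale.Agent.P088.LR.B Vale.Agent.P088.LR.CF Vale.Agent.P088.H639
open Vale.Agent.P088.HY.H794

variable {n : ℕ} {M : Matrix (Fin n) (Fin n) ℝ}

/-! ## Energies -/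

theorem rb_tsr (hM : M.det ≠ 0) (Ω : Set (V n)) (hΩ : MeasurableSet Ω) (s : MF n) {u v : V n → ℝ}
    (hu : ContDiff ℝ ∞ u) (hv : ContDiff ℝ ∞ v) :
    rb (ap M ⁻¹' Ω) (tsr M s) (fun y => u (ap M y)) (fun y => v (ap M y)) =
      |M.det⁻¹| * rb Ω s u v := by
  have h := bl_tsr hM hΩ s (U := oc u) (W := oc v) ((oc_contDiff hu).differentiable (by simp))
    ((oc_contDiff hv).differentiable (by simp))
  have h2 : bl (ap M ⁻¹' Ω) (tsr M s) (oc (fun y => u (ap M y))) (oc (fun y => v (ap M y))) =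
      ((rb (ap M ⁻¹' Ω) (tsr M s) (fun y => u (ap M y)) (fun y => v (ap M y)) : ℝ) : ℂ) :=
    bl_oc (hu.comp (contDiff_ap M)) (hv.comp (contDiff_ap M))
  have h3 := h2.symm.trans h
  rw [bl_oc hu hv, Complex.real_smul] at h3
  exact_mod_cast h3

theorem En_tsr (hM : M.det ≠ 0) (Ω : Set (V n)) (hΩ : MeasurableSet Ω) (s : MF n) (f : V n → ℝ) :
    En (ap M ⁻¹' Ω) (tsr M s) f = |M.det⁻¹| * En Ω s (fun x => f (ai M x)) := by
  have hc : 0 ≤ |M.det⁻¹| := abs_nonneg _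
  unfold En
  rw [← smul_eq_mul, ← Real.sInf_smul_of_nonneg hc]
  congr 1
  have hfr : ∀ y, y ∈ frontier (ap M ⁻¹' Ω) ↔ ap M y ∈ frontier Ω := by
    intro y
    have := (hmA M hM).preimage_frontier Ω
    exact (Set.ext_iff.mp this y).symm
  ext e
  rw [Set.mem_smul_set]
  constructor
  · rintro ⟨u, hu, huf, rfl⟩
    refine ⟨_, ⟨fun x => u (ai M x), hu.comp (contDiff_ai M), fun x hx => ?_, rfl⟩, ?_⟩
    · exact huf _ ((hfr _).mpr (by rwa [ap_ai hM]))
    · have h := rb_tsr hM Ω hΩ s (u := fun x => u (ai M x)) (v := fun x => u (ai M x))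
        (hu.comp (contDiff_ai M)) (hu.comp (contDiff_ai M))
      simp only [ai_ap hM] at h
      rw [smul_eq_mul, ← h]
  · rintro ⟨_, ⟨u, hu, huf, rfl⟩, rfl⟩
    refine ⟨fun y => u (ap M y), hu.comp (contDiff_ap M), fun y hy => ?_, ?_⟩
    · show u (ap M y) = f y
      rw [huf _ ((hfr y).mp hy)]
      show f (ai M (ap M y)) = f y
      rw [ai_ap hM]
    · rw [smul_eq_mul, rb_tsr hM Ω hΩ s hu hu]

theorem rb_smul (Ω : Set (V n)) (s : MF n) (c : ℝ) (u v : V n → ℝ) :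
    rb Ω (fun x => c • s x) u v = c * rb Ω s u v := by
  unfold rb
  rw [← integral_const_mul]
  refine integral_congr_ae (Filter.Eventually.of_forall fun x => ?_)
  simp only [Finset.mul_sum, Matrix.smul_apply, smul_eq_mul, mul_assoc]

theorem En_smul (Ω : Set (V n)) (s : MF n) {c : ℝ} (hc : 0 ≤ c) (f : V n → ℝ) :
    En Ω (fun x => c • s x) f = c * En Ω s f := by
  unfold En
  rw [← smul_eq_mul, ← Real.sInf_smul_of_nonneg hc]
  congr 1
  ext e
  rw [Set.mem_smul_set]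
  constructor
  · rintro ⟨u, hu, huf, rfl⟩
    exact ⟨_, ⟨u, hu, huf, rfl⟩, by rw [smul_eq_mul, rb_smul]⟩
  · rintro ⟨_, ⟨u, hu, huf, rfl⟩, rfl⟩
    exact ⟨u, hu, huf, by rw [smul_eq_mul, rb_smul]⟩

/-- Equality of the energies of two metrics is invariant under an affine change of variables. -/
theorem SE_gsr {κ : ℝ} (hκ : 0 < κ) (hM : M.det ≠ 0) {Ω : Set (V n)} (hΩ : MeasurableSet Ω)
    {g₁ g₂ : MF n} (h1 : ∀ x, (g₁ x).PosDef) (h2 : ∀ x, (g₂ x).PosDef)
    (h : SE Ω (sg g₁) (sg g₂)) : SE (ap M ⁻¹' Ω) (sg (gsr κ M g₁)) (sg (gsr κ M g₂)) := by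
  intro f hf
  have hc : 0 ≤ √(κ ^ n) * |M.det| * κ⁻¹ := by positivity
  rw [sg_gsr hκ hM h1, sg_gsr hκ hM h2, En_smul _ _ hc, En_smul _ _ hc, En_tsr hM Ω hΩ,
    En_tsr hM Ω hΩ, h (fun x => f (ai M x)) (hf.comp (contDiff_ai M))]

/-! ## Domains -/

theorem sdom_ap (hM : M.det ≠ 0) {ρ : V n → ℝ} (h : SDom ρ) : SDom (fun y => ρ (ap M y)) where
  sm := h.sm.comp (contDiff_ap M)
  bd := by
    have e : {y | 0 ≤ ρ (ap M y)} ⊆ ai M '' closure {x | 0 ≤ ρ x} := fun y hy =>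
      ⟨ap M y, subset_closure hy, ai_ap hM y⟩
    exact (h.bd.isCompact_closure.image (contDiff_ai M).continuous).isBounded.subset e
  nz := by
    intro y hy hd
    have h1 : HasFDerivAt (fun y => ρ (ap M y)) ((fderiv ℝ ρ (ap M y)).comp (ml M)) y :=
      ((h.sm.differentiable (by simp)) (ap M y)).hasFDerivAt.comp y (fd_ap M y)
    rw [h1.fderiv] at hd
    apply h.nz _ hy
    ext v
    have h2 := congrArg (fun T : V n →L[ℝ] ℝ => T (M⁻¹ *ᵥ v)) hd
    simp only [ContinuousLinearMap.comp_apply, ml_apply, Matrix.mulVec_mulVec,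
      Matrix.mul_nonsing_inv M hM.isUnit, Matrix.one_mulVec] at h2
    exact h2

theorem Om_ap (ρ : V n → ℝ) : Om (fun y => ρ (ap M y)) = ap M ⁻¹' Om ρ := rfl

/-! ## Closeness -/

lemma ifd_sum_le' {ι : Type*} [Fintype ι] {f : ι → V n → ℝ} (hf : ∀ p, ContDiff ℝ ∞ (f p))
    (c : ι → ℝ) {l : ℕ} {y : V n} {C A : ℝ} (hC : 0 ≤ C) (hc : ∀ p, |c p| ≤ C)
    (h : ∀ p, ‖iteratedFDeriv ℝ l (f p) y‖ ≤ A) :
    ‖iteratedFDeriv ℝ l (fun y => ∑ p, c p * f p y) y‖ ≤ Fintype.card ι * (C * A) := by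
  have h1 : iteratedFDeriv ℝ l (fun y => ∑ p, c p * f p y) y =
      ∑ p, iteratedFDeriv ℝ l (fun y => c p • f p y) y := by
    refine iteratedFDeriv_fun_sum_apply fun p _ => ?_
    exact (((hf p).of_le (by exact_mod_cast le_top)).const_smul (c p)).contDiffAt
  rw [h1]
  refine (norm_sum_le _ _).trans ?_
  calc ∑ p, ‖iteratedFDeriv ℝ l (fun y => c p • f p y) y‖ ≤ ∑ _p : ι, C * A := by
        refine Finset.sum_le_sum fun p _ => ?_
        have h2 : iteratedFDeriv ℝ l (fun y => c p • f p y) y = c p • iteratedFDeriv ℝ l (f p) y :=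
          iteratedFDeriv_const_smul_apply' ((hf p).of_le (by exact_mod_cast le_top)).contDiffAt
        rw [h2, norm_smul]
        exact mul_le_mul (hc p) (h p) (norm_nonneg _) hC
    _ = _ := by simp

/-- The entries of the transformed metric. -/
lemma gsr_one_sub {G : Matrix (Fin n) (Fin n) ℝ} (hG : Mᵀ * G * M = 1) (g : MF n) (y : V n)
    (i j : Fin n) : gsr 1 M g y i j - dl i j =
      ∑ p : Fin n × Fin n, (M p.1 i * M p.2 j) * (g (ap M y) p.1 p.2 - G p.1 p.2) := by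
  have e3 : gsr 1 M g y - 1 = Mᵀ * (g (ap M y) - G) * M := by
    unfold gsr
    rw [one_smul, Matrix.mul_sub, Matrix.sub_mul, hG]
  have e4 := congrFun (congrFun e3 i) j
  rw [Matrix.sub_apply] at e4
  rw [e4, Matrix.mul_apply, Fintype.sum_prod_type, Finset.sum_comm]
  refine Finset.sum_congr rfl fun b _ => ?_
  rw [Matrix.mul_apply, Finset.sum_mul]
  refine Finset.sum_congr rfl fun c _ => ?_
  rw [Matrix.transpose_apply, Matrix.sub_apply]
  ring

/-- Closeness to a constant metric becomes closeness to `1`. -/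
theorem cl_gsr {G : Matrix (Fin n) (Fin n) ℝ} (hG : Mᵀ * G * M = 1) (hn : 0 < n) (k : ℕ) {ε : ℝ}
    (hε : 0 < ε) : ∃ δ : ℝ, 0 < δ ∧ ∀ g : MF n, SmM g →
      (∀ i j, Cl k δ (fun x => g x i j - G i j)) → ∀ i j, Cl k ε (fun y => gsr 1 M g y i j - dl i j) := by
  have hn0 : (0 : ℝ) < n := by exact_mod_cast hn
  obtain ⟨C, hC⟩ : ∃ C : ℝ, C = 1 + ∑ i, ∑ j, |M i j| := ⟨_, rfl⟩
  have hC0 : 0 < C := by rw [hC]; positivity
  have hMC : ∀ i j, |M i j| ≤ C := by
    intro i j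
    have h1 : |M i j| ≤ ∑ j, |M i j| :=
      Finset.single_le_sum (f := fun j => |M i j|) (fun _ _ => abs_nonneg _) (Finset.mem_univ j)
    have h2 : ∑ j, |M i j| ≤ ∑ i, ∑ j, |M i j| :=
      Finset.single_le_sum (f := fun i => ∑ j, |M i j|)
        (fun _ _ => Finset.sum_nonneg fun _ _ => abs_nonneg _) (Finset.mem_univ i)
    rw [hC]; linarith
  obtain ⟨D, hD⟩ : ∃ D : ℝ, D = max 1 ‖ml M‖ ^ k := ⟨_, rfl⟩
  have hD0 : 0 < D := by rw [hD]; positivity
  refine ⟨ε / (n * n * (C * C) * D), by positivity, fun g hg hcg i j l hl y => ?_⟩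
  simp only [gsr_one_sub hG g]
  have h1 := ifd_sum_le' (f := fun (p : Fin n × Fin n) (y : V n) =>
    g (ap M y) p.1 p.2 - G p.1 p.2)
    (fun p => ((hg p.1 p.2).comp (contDiff_ap M)).sub contDiff_const)
    (fun p => M p.1 i * M p.2 j) (l := l) (y := y) (C := C * C)
    (A := D * (ε / (n * n * (C * C) * D))) (by positivity)
    (fun p => by
      rw [abs_mul]
      exact mul_le_mul (hMC _ _) (hMC _ _) (abs_nonneg _) hC0.le)
    (fun p => by
      refine (ifd_ap (f := fun x => g x p.1 p.2 - G p.1 p.2) ((hg p.1 p.2).sub contDiff_const)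
        l y).trans ?_
      have h2 := hcg p.1 p.2 l hl (ap M y)
      have h4 : ‖ml M‖ ^ l ≤ D := by
        rw [hD]
        calc ‖ml M‖ ^ l ≤ max 1 ‖ml M‖ ^ l :=
              pow_le_pow_left₀ (norm_nonneg _) (le_max_right _ _) l
          _ ≤ _ := pow_le_pow_right₀ (le_max_left _ _) hl
      exact mul_le_mul h4 h2 (norm_nonneg _) hD0.le)
  refine h1.trans (le_of_eq ?_)
  rw [Fintype.card_prod, Fintype.card_fin]
  push_cast
  field_simp

/-! ## Jacobians -/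

theorem Jm_conj {Φ : V n → V n} (hΦ : ContDiff ℝ ∞ Φ) (x : V n) :
    Jm (fun x => ap M (Φ (ai M x))) x = M * Jm Φ (ai M x) * M⁻¹ := by
  have h : HasFDerivAt (fun x => ap M (Φ (ai M x)))
      ((ml M).comp ((fderiv ℝ Φ (ai M x)).comp (ml M⁻¹))) x :=
    HasFDerivAt.comp x (f := fun x => Φ (ai M x)) (fd_ap M _)
      (HasFDerivAt.comp x (f := ai M) (hΦ.differentiable (by simp) _).hasFDerivAt (fd_ai M x))
  ext i j
  show fderiv ℝ (fun x => ap M (Φ (ai M x))) x (Pi.single j 1) i = _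
  rw [h.fderiv]
  simp only [ContinuousLinearMap.comp_apply, ml_apply]
  rw [mulVec_single, fd_vec]
  simp only [Matrix.mulVec, dotProduct, Matrix.mul_apply, Finset.sum_apply, Pi.smul_apply,
    smul_eq_mul, Finset.mul_sum, Finset.sum_mul]
  rw [Finset.sum_comm]
  refine Finset.sum_congr rfl fun a _ => Finset.sum_congr rfl fun b _ => ?_
  show _ = M i b * pd a Φ (ai M x) b * M⁻¹ a j
  ring

theorem det_Jm_conj (hM : M.det ≠ 0) {Φ : V n → V n} (hΦ : ContDiff ℝ ∞ Φ) (x : V n) :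
    (Jm (fun x => ap M (Φ (ai M x))) x).det = (Jm Φ (ai M x)).det := by
  rw [Jm_conj hΦ, Matrix.det_mul, Matrix.det_mul, Matrix.det_nonsing_inv, Ring.inverse_eq_inv']
  field_simp

/-- The transformation rule for the metrics. -/
theorem metric_conj {κ : ℝ} (hκ : 0 < κ) (hM : M.det ≠ 0) {g₁ g₂ : MF n} {Φ : V n → V n}
    (hΦ : ContDiff ℝ ∞ Φ) {x : V n}
    (h : gsr κ M g₂ (ai M x) =
      (Jm Φ (ai M x))ᵀ * gsr κ M g₁ (Φ (ai M x)) * Jm Φ (ai M x)) :
    g₂ x = (Jm (fun x => ap M (Φ (ai M x))) x)ᵀ * g₁ (ap M (Φ (ai M x))) *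
      Jm (fun x => ap M (Φ (ai M x))) x := by
  have hMu : IsUnit M.det := hM.isUnit
  unfold gsr at h
  rw [ap_ai hM] at h
  rw [Jm_conj hΦ]
  have h2 : Mᵀ * g₂ x * M = (Jm Φ (ai M x))ᵀ * (Mᵀ * g₁ (ap M (Φ (ai M x))) * M) *
      Jm Φ (ai M x) := by
    rw [Matrix.mul_smul, Matrix.smul_mul] at h
    exact smul_right_injective _ hκ.ne' h
  have h3 : (M⁻¹)ᵀ * (Mᵀ * g₂ x * M) * M⁻¹ = g₂ x := by
    calc (M⁻¹)ᵀ * (Mᵀ * g₂ x * M) * M⁻¹ = ((M⁻¹)ᵀ * Mᵀ) * g₂ x * (M * M⁻¹) := by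
          simp only [Matrix.mul_assoc]
      _ = g₂ x := by
          rw [← Matrix.transpose_mul, Matrix.mul_nonsing_inv M hMu, Matrix.transpose_one,
            Matrix.one_mul, Matrix.mul_one]
  rw [← h3, h2, Matrix.transpose_mul, Matrix.transpose_mul]
  simp only [Matrix.mul_assoc]

end Vale.Agent.P088.HY.H437
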