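import Vale.Agent.P088.R2.H437.Ko

/-!
# P088, row V-NE: a vector field with given divergence, from the Dirichlet problem
-/

open MeasureTheory Set
open scoped ContDiff Matrix

noncomputable section

namespace Vale.Agent.P088.PJ.H437

open Vale.Agent.P088.LR Vale.Agent.P088.PJ
open Vale.Agent.P088.HY (rr Bn Bs TS Lv)

variable {n : ℕ}

/-! ## Real integration by parts -/

lemma int_pdR {f : V n → ℝ} (hf : ContDiff ℝ ∞ f) (hc : HasCompactSupport f) (i : Fin n) :
    ∫ x, pd i f x = 0 := by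
  have hi : Integrable f := hf.continuous.integrable_of_hasCompactSupport hc
  have hi' : Integrable (pd i f) :=
    (cd_pd hf i).continuous.integrable_of_hasCompactSupport (hc_pd hc i)
  have h := integral_mul_fderiv_eq_neg_fderiv_mul_of_integrable (μ := (volume : Measure (V n)))
    (f := fun _ => (1 : ℝ)) (g := f) (v := Pi.single i 1) (by simp)
    (by simp only [one_mul]; exact hi') (by simpa using hi) (fun x _ => differentiableAt_const _)
    (fun x _ => hf.differentiable (by simp) x)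
  simp only [one_mul, fderiv_fun_const, Pi.zero_apply, zero_apply, zero_mul, integral_zero,
    neg_zero] at h
  exact h

lemma pd_mulR {f g : V n → ℝ} {x : V n} (hf : DifferentiableAt ℝ f x) (hg : DifferentiableAt ℝ g x)
    (i : Fin n) : pd i (fun x => f x * g x) x = f x * pd i g x + g x * pd i f x := by
  unfold pd
  rw [fderiv_fun_mul hf hg]
  simp

lemma pd_addR {f g : V n → ℝ} {x : V n} (hf : DifferentiableAt ℝ f x) (hg : DifferentiableAt ℝ g x)
    (i : Fin n) : pd i (fun x => f x + g x) x = pd i f x + pd i g x := by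
  unfold pd
  rw [fderiv_fun_add hf hg]
  simp

lemma swapR {f g : V n → ℝ} (hf : ContDiff ℝ ∞ f) (hg : ContDiff ℝ ∞ g) (hc : HasCompactSupport f)
    (i j : Fin n) : ∫ x, pd i f x * pd j g x = ∫ x, pd j f x * pd i g x := by
  have hgj := cd_pd hg j
  have hgi := cd_pd hg i
  have e1 := int_pdR (hf.mul hgj) (hc.mul_right) i
  have e2 := int_pdR (hf.mul hgi) (hc.mul_right) j
  have i1 : ∀ {u w : V n → ℝ}, ContDiff ℝ ∞ u → ContDiff ℝ ∞ w → HasCompactSupport u →
      Integrable (fun x => u x * w x) := fun hu hw h =>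
    (hu.mul hw).continuous.integrable_of_hasCompactSupport h.mul_right
  have g1 : ∀ x, pd i (fun x => f x * pd j g x) x =
      f x * pd i (pd j g) x + pd j g x * pd i f x := fun x =>
    pd_mulR (hf.differentiable (by simp) x) (hgj.differentiable (by simp) x) i
  have g2 : ∀ x, pd j (fun x => f x * pd i g x) x =
      f x * pd i (pd j g) x + pd i g x * pd j f x := fun x => by
    rw [pd_mulR (hf.differentiable (by simp) x) (hgi.differentiable (by simp) x) j,
      pd_comm hg j i]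
  have k1 : ∫ x, (f x * pd i (pd j g) x + pd j g x * pd i f x) = 0 := by
    rw [← e1]
    exact integral_congr_ae (Filter.Eventually.of_forall fun x => (g1 x).symm)
  have k2 : ∫ x, (f x * pd i (pd j g) x + pd i g x * pd j f x) = 0 := by
    rw [← e2]
    exact integral_congr_ae (Filter.Eventually.of_forall fun x => (g2 x).symm)
  have j0 := i1 hf (cd_pd hgj i) hc
  have j1 : Integrable (fun x => pd j g x * pd i f x) :=
    (i1 (cd_pd hf i) hgj (hc_pd hc i)).congr (Filter.Eventually.of_forall fun x => mul_comm _ _)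
  have j2 : Integrable (fun x => pd i g x * pd j f x) :=
    (i1 (cd_pd hf j) hgi (hc_pd hc j)).congr (Filter.Eventually.of_forall fun x => mul_comm _ _)
  rw [integral_add j0 j1] at k1
  rw [integral_add j0 j2] at k2
  have k3 : ∫ x, pd j g x * pd i f x = ∫ x, pd i g x * pd j f x := by
    linear_combination k1 - k2
  simp only [mul_comm (pd i f _), mul_comm (pd j f _)]
  exact k3

/-- `∫ |∇² ψ|² = ∫ (Δ ψ)²`. -/
lemma hess_lap {ψ : V n → ℝ} (hψ : ContDiff ℝ ∞ ψ) (hc : HasCompactSupport ψ) :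
    ∫ x, ∑ i, ∑ j, pd j (pd i ψ) x ^ 2 = ∫ x, (∑ i, pd i (pd i ψ) x) ^ 2 := by
  have h1 : ∀ i, ContDiff ℝ ∞ (pd i ψ) := fun i => cd_pd hψ i
  have c1 : ∀ i, HasCompactSupport (pd i ψ) := fun i => hc_pd hc i
  have h2 : ∀ i j, ContDiff ℝ ∞ (pd j (pd i ψ)) := fun i j => cd_pd (h1 i) j
  have c2 : ∀ i j, HasCompactSupport (pd j (pd i ψ)) := fun i j => hc_pd (c1 i) j
  have I : ∀ i j a b, Integrable (fun x => pd j (pd i ψ) x * pd b (pd a ψ) x) := fun i j a b =>
    ((h2 i j).mul (h2 a b)).continuous.integrable_of_hasCompactSupport (c2 i j).mul_right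
  have e : ∀ x, (∑ i, pd i (pd i ψ) x) ^ 2 = ∑ i, ∑ j, pd i (pd i ψ) x * pd j (pd j ψ) x := by
    intro x
    rw [pow_two, Finset.sum_mul_sum]
  simp_rw [e, pow_two]
  rw [integral_finsetSum _ fun i _ => integrable_finsetSum _ fun j _ => I i j i j,
    integral_finsetSum _ fun i _ => integrable_finsetSum _ fun j _ => I i i j j]
  refine Finset.sum_congr rfl fun i _ => ?_
  rw [integral_finsetSum _ fun j _ => I i j i j, integral_finsetSum _ fun j _ => I i i j j]
  refine Finset.sum_congr rfl fun j _ => ?_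
  have h3 := swapR (h1 i) (h1 j) (c1 i) j i
  rw [← h3]
  refine integral_congr_ae (Filter.Eventually.of_forall fun x => ?_)
  show pd j (pd i ψ) x * pd j (pd i ψ) x = pd j (pd i ψ) x * pd i (pd j ψ) x
  rw [pd_comm hψ i j]

/-! ## The cut-off -/

lemma sq_sm : ContDiff ℝ ∞ (HY.sq : V n → ℝ) :=
  ContDiff.sum fun j _ => (contDiff_apply ℝ ℝ j).pow 2

/-- The cut-off. -/
def chi (x : V n) : ℝ := Real.smoothTransition (3 - 4 * HY.sq x)

lemma chi_sm : ContDiff ℝ ∞ (chi : V n → ℝ) :=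
  (Real.smoothTransition.contDiff (n := ⊤)).comp (contDiff_const.sub (contDiff_const.mul sq_sm))

lemma chi_one {x : V n} (h : HY.sq x ≤ 1 / 2) : chi x = 1 :=
  Real.smoothTransition.one_of_one_le (by linarith)

lemma chi_zero {x : V n} (h : 3 / 4 ≤ HY.sq x) : chi x = 0 :=
  Real.smoothTransition.zero_of_nonpos (by linarith)

lemma chi_le (x : V n) : chi x ≤ 1 := Real.smoothTransition.le_one _

lemma chi_nonneg (x : V n) : 0 ≤ chi x := Real.smoothTransition.nonneg _

lemma cpt_sq (r : ℝ) : IsCompact {x : V n | HY.sq x ≤ r} := by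
  refine Metric.isCompact_of_isClosed_isBounded
    (isClosed_le (sq_sm (n := n)).continuous continuous_const) ?_
  refine (Metric.isBounded_closedBall (x := (0 : V n)) (r := √r)).subset fun x hx => ?_
  rw [mem_closedBall_zero_iff]
  refine (pi_norm_le_iff_of_nonneg (Real.sqrt_nonneg _)).2 fun i => ?_
  rw [Real.norm_eq_abs]
  refine Real.abs_le_sqrt ?_
  have h1 : x i ^ 2 ≤ HY.sq x :=
    Finset.single_le_sum (f := fun j => x j ^ 2) (fun j _ => sq_nonneg _) (Finset.mem_univ i)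
  exact h1.trans hx

lemma chi_cs : HasCompactSupport (chi : V n → ℝ) :=
  HasCompactSupport.intro (cpt_sq (3 / 4)) fun x hx => chi_zero (le_of_lt (not_le.1 hx))

/-- Functions supported in `{sq ≤ 3/4}` and smooth on the unit ball are smooth. -/
lemma glue {f : V n → ℝ} (h : ContDiffOn ℝ ∞ f (Bn n)) (h0 : ∀ x, 3 / 4 ≤ HY.sq x → f x = 0) :
    ContDiff ℝ ∞ f := by
  rw [contDiff_iff_contDiffAt]
  intro x
  have hO : IsOpen (Bn n) := isOpen_lt sq_sm.continuous continuous_const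
  by_cases hx : HY.sq x < 1
  · exact h.contDiffAt (hO.mem_nhds hx)
  · have h1 : {y : V n | 3 / 4 < HY.sq y} ∈ nhds x :=
      (isOpen_lt continuous_const sq_sm.continuous).mem_nhds (by
        show 3 / 4 < HY.sq x
        linarith [not_lt.1 hx])
    have h2 : f =ᶠ[nhds x] fun _ => 0 := by
      filter_upwards [h1] with y hy
      exact h0 y (le_of_lt hy)
    exact contDiffAt_const.congr_of_eventuallyEq h2

lemma pd_congr {f g : V n → ℝ} {O : Set (V n)} (hO : IsOpen O) (h : ∀ x ∈ O, f x = g x)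
    (i : Fin n) {x : V n} (hx : x ∈ O) : pd i f x = pd i g x := by
  unfold pd
  have : f =ᶠ[nhds x] g := by
    filter_upwards [hO.mem_nhds hx] with y hy
    exact h y hy
  rw [this.fderiv_eq]

/-- **Row V-NE.** -/
theorem rowNE : HY.RowDIR → RowNE := by
  intro hD n hn
  obtain ⟨C, ε, hC, hε, hD⟩ := hD n hn
  have hTS : TS n 1 ε (fun _ => (1 : Matrix (Fin n) (Fin n) ℝ)) := by
    refine ⟨fun i j => contDiff_const, fun x => ?_, fun i j l hl x => ?_, fun x hx j => ?_⟩
    · exact Matrix.isSymm_one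
    · have : (fun _ : V n => (1 : Matrix (Fin n) (Fin n) ℝ) i j -
          (1 : Matrix (Fin n) (Fin n) ℝ) i j) = fun _ => (0 : ℝ) := by
        funext x; simp
      rw [this, iteratedFDeriv_fun_zero]
      simpa using hε.le
    · refine Finset.sum_eq_zero fun i _ => ?_
      unfold pd
      rw [fderiv_fun_const]
      rfl
  -- bounds of the cut-off
  have b1 : ∀ i : Fin n, ∃ M : ℝ, ∀ x, ‖pd i (chi : V n → ℝ) x‖ ≤ M := fun i =>
    (cd_pd chi_sm i).continuous.bounded_above_of_compact_support (hc_pd chi_cs i)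
  choose M₁ hM₁ using b1
  have hLc : Continuous fun x : V n => ∑ i, pd i (pd i (chi : V n → ℝ)) x :=
    continuous_finsetSum _ fun i _ => (cd_pd (cd_pd chi_sm i) i).continuous
  have hLs : HasCompactSupport fun x : V n => ∑ i, pd i (pd i (chi : V n → ℝ)) x := by
    refine HasCompactSupport.intro (K := ⋃ i, tsupport (pd i (pd i (chi : V n → ℝ))))
      (isCompact_iUnion fun i => hc_pd (hc_pd chi_cs i) i) fun x hx => ?_
    refine Finset.sum_eq_zero fun i _ => ?_
    by_contra h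
    exact hx (mem_iUnion.2 ⟨i, subset_tsupport _ h⟩)
  obtain ⟨M₂, hM₂⟩ := hLc.bounded_above_of_compact_support hLs
  obtain ⟨M, hM0, hMa, hMb⟩ : ∃ M : ℝ, 0 ≤ M ∧ (∀ x, ∑ i, pd i (chi : V n → ℝ) x ^ 2 ≤ M) ∧
      ∀ x, (∑ i, pd i (pd i (chi : V n → ℝ)) x) ^ 2 ≤ M := by
    refine ⟨∑ i, M₁ i ^ 2 + M₂ ^ 2, by positivity, fun x => ?_, fun x => ?_⟩
    · have : ∑ i, pd i (chi : V n → ℝ) x ^ 2 ≤ ∑ i, M₁ i ^ 2 := by
        refine Finset.sum_le_sum fun i _ => ?_
        rw [← sq_abs]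
        exact pow_le_pow_left₀ (abs_nonneg _) (hM₁ i x) 2
      have h2 := sq_nonneg M₂
      linarith
    · have h1 : (∑ i, pd i (pd i (chi : V n → ℝ)) x) ^ 2 ≤ M₂ ^ 2 := by
        rw [← sq_abs]
        exact pow_le_pow_left₀ (abs_nonneg _) (hM₂ x) 2
      have h2 : 0 ≤ ∑ i, M₁ i ^ 2 := Finset.sum_nonneg fun i _ => sq_nonneg _
      linarith
  have hO : IsOpen (Bn n) := isOpen_lt sq_sm.continuous continuous_const
  refine ⟨(2 + 2 * M + 12 * M + 3 * M) * C + 3, by positivity, fun φ hφ hφ0 => ?_⟩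
  have hφc : HasCompactSupport φ := HasCompactSupport.intro (cpt_sq (1 / 4)) fun x hx =>
    hφ0 x hx
  have hφi : Integrable (fun x => φ x ^ 2) := by
    refine Continuous.integrable_of_hasCompactSupport (hφ.continuous.pow 2) ?_
    exact hφc.comp_left (g := fun t : ℝ => t ^ 2) (by simp)
  obtain ⟨w, hw, hwe, hwi, hwb⟩ := hD _ hTS φ hφ.contDiffOn hφi.integrableOn
  have hwΔ : ∀ x ∈ Bn n, ∑ i, pd i (pd i w) x = φ x := by
    intro x hx
    rw [← hwe x hx]
    unfold HY.Lv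
    refine Finset.sum_congr rfl fun i _ => ?_
    simp [Matrix.one_apply]
  have hwd : ∀ x ∈ Bn n, ContDiffAt ℝ ∞ w x := fun x hx => hw.contDiffAt (hO.mem_nhds hx)
  have hpw : ∀ i, ContDiffOn ℝ ∞ (pd i w) (Bn n) := fun i x hx =>
    (((hwd x hx).fderiv_right (m := ∞) (by simp)).clm_apply contDiffAt_const).contDiffWithinAt
  -- the function
  obtain ⟨ψ, hψe⟩ : ∃ ψ : V n → ℝ, ψ = fun x => chi x * w x := ⟨_, rfl⟩
  have hψ : ContDiff ℝ ∞ ψ := by
    rw [hψe]
    exact glue (chi_sm.contDiffOn.mul hw) fun x hx => by rw [chi_zero hx, zero_mul]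
  have hψc : HasCompactSupport ψ := by
    rw [hψe]; exact chi_cs.mul_right
  have hψ1 : ∀ i, ∀ x ∈ Bn n, pd i ψ x = chi x * pd i w x + w x * pd i chi x := by
    intro i x hx
    rw [hψe]
    exact pd_mulR (chi_sm.differentiable (by simp) x) ((hwd x hx).differentiableAt (by simp)) i
  have hψ2 : ∀ x ∈ Bn n, ∑ i, pd i (pd i ψ) x =
      chi x * φ x + 2 * ∑ i, pd i chi x * pd i w x + w x * ∑ i, pd i (pd i chi) x := by
    intro x hx
    have e1 : ∀ i, pd i (pd i ψ) x = (chi x * pd i (pd i w) x + pd i w x * pd i chi x) +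
        (w x * pd i (pd i chi) x + pd i chi x * pd i w x) := by
      intro i
      have d1 : DifferentiableAt ℝ chi x := chi_sm.differentiable (by simp) x
      have d2 : DifferentiableAt ℝ (pd i w) x :=
        ((hpw i).contDiffAt (hO.mem_nhds hx)).differentiableAt (by simp)
      have d3 : DifferentiableAt ℝ w x := (hwd x hx).differentiableAt (by simp)
      have d4 : DifferentiableAt ℝ (pd i (chi : V n → ℝ)) x :=
        (cd_pd chi_sm i).differentiable (by simp) x
      rw [pd_congr hO (hψ1 i) i hx, pd_addR (f := fun y => chi y * pd i w y)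
        (g := fun y => w y * pd i chi y) (d1.mul d2) (d3.mul d4), pd_mulR d1 d2, pd_mulR d3 d4]
    simp only [e1, Finset.sum_add_distrib, ← Finset.mul_sum, hwΔ x hx]
    have e2 : ∑ i, pd i w x * pd i chi x = ∑ i, pd i chi x * pd i w x :=
      Finset.sum_congr rfl fun i _ => mul_comm _ _
    rw [e2]
    ring
  have hψ0 : ∀ x, 3 / 4 < HY.sq x → ∑ i, pd i (pd i ψ) x = 0 := by
    intro x hx
    have hO' : IsOpen {y : V n | 3 / 4 < HY.sq y} := isOpen_lt continuous_const sq_sm.continuous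
    refine Finset.sum_eq_zero fun i _ => ?_
    have e1 : ∀ y ∈ {y : V n | 3 / 4 < HY.sq y}, ψ y = (fun _ => (0 : ℝ)) y := fun y hy => by
      rw [hψe]
      show chi y * w y = 0
      rw [chi_zero (le_of_lt hy), zero_mul]
    have e2 : ∀ y ∈ {y : V n | 3 / 4 < HY.sq y}, pd i ψ y = (fun _ => (0 : ℝ)) y := fun y hy => by
      rw [pd_congr hO' e1 i hy]
      unfold pd
      rw [fderiv_fun_const]; rfl
    rw [pd_congr hO' e2 i hx]
    unfold pd
    rw [fderiv_fun_const]; rfl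
  -- pointwise bounds
  obtain ⟨E, hE⟩ : ∃ E : V n → ℝ, E = fun x => w x ^ 2 / rr x ^ 2 + ∑ i, pd i w x ^ 2 := ⟨_, rfl⟩
  have hrr : ∀ x ∈ Bn n, w x ^ 2 ≤ w x ^ 2 / rr x ^ 2 := by
    intro x hx
    have h1 : HY.sq x < 1 := hx
    have h2 : 0 ≤ HY.sq x := Finset.sum_nonneg fun j _ => sq_nonneg _
    have h3 : 0 < rr x := by unfold HY.rr; linarith
    have h4 : rr x ≤ 1 := by unfold HY.rr; linarith
    rw [le_div_iff₀ (by positivity)]
    have h5 : rr x ^ 2 ≤ 1 := pow_le_one₀ h3.le h4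
    nlinarith [sq_nonneg (w x)]
  have hsum0 : ∀ x, 0 ≤ ∑ i, pd i w x ^ 2 := fun x => Finset.sum_nonneg fun i _ => sq_nonneg _
  have hwE : ∀ x ∈ Bn n, w x ^ 2 + ∑ i, pd i w x ^ 2 ≤ E x := fun x hx => by
    rw [hE]
    have := hrr x hx
    show _ ≤ w x ^ 2 / rr x ^ 2 + ∑ i, pd i w x ^ 2
    linarith
  have hg1 : ∀ x ∈ Bn n, ∑ i, pd i ψ x ^ 2 ≤ (2 + 2 * M) * E x := by
    intro x hx
    have h1 : ∑ i, pd i ψ x ^ 2 ≤ 2 * ∑ i, pd i w x ^ 2 + 2 * (w x ^ 2 * ∑ i, pd i chi x ^ 2) := by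
      rw [Finset.mul_sum, Finset.mul_sum, Finset.mul_sum, ← Finset.sum_add_distrib]
      refine Finset.sum_le_sum fun i _ => ?_
      rw [hψ1 i x hx]
      have h2 := chi_nonneg x
      have h3 := chi_le x
      have h4 : chi x ^ 2 ≤ 1 := pow_le_one₀ h2 h3
      have h5 : chi x ^ 2 * pd i w x ^ 2 ≤ pd i w x ^ 2 := mul_le_of_le_one_left (sq_nonneg _) h4
      nlinarith [sq_nonneg (chi x * pd i w x - w x * pd i chi x)]
    have h2 := hMa x
    have h3 : w x ^ 2 * ∑ i, pd i chi x ^ 2 ≤ w x ^ 2 * M :=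
      mul_le_mul_of_nonneg_left h2 (sq_nonneg _)
    have h4 := hwE x hx
    have h5 := hsum0 x
    nlinarith [sq_nonneg (w x), mul_nonneg hM0 h5]
  have hg2 : ∀ x ∈ Bn n, (∑ i, pd i (pd i ψ) x) ^ 2 ≤ 3 * φ x ^ 2 + (12 * M + 3 * M) * E x := by
    intro x hx
    rw [hψ2 x hx]
    have h2 := chi_nonneg x
    have h3 := chi_le x
    have h4 : chi x ^ 2 ≤ 1 := pow_le_one₀ h2 h3
    have h5 : (chi x * φ x) ^ 2 ≤ φ x ^ 2 := by
      rw [mul_pow]; exact mul_le_of_le_one_left (sq_nonneg _) h4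
    have h6 : (∑ i, pd i chi x * pd i w x) ^ 2 ≤ M * ∑ i, pd i w x ^ 2 :=
      (Finset.sum_mul_sq_le_sq_mul_sq _ _ _).trans
        (mul_le_mul_of_nonneg_right (hMa x) (hsum0 x))
    have h7 : (w x * ∑ i, pd i (pd i chi) x) ^ 2 ≤ w x ^ 2 * M := by
      rw [mul_pow]; exact mul_le_mul_of_nonneg_left (hMb x) (sq_nonneg _)
    have h8 := hwE x hx
    have h9 := hsum0 x
    obtain ⟨a, ha⟩ : ∃ a, a = chi x * φ x := ⟨_, rfl⟩
    obtain ⟨b, hb⟩ : ∃ b, b = ∑ i, pd i chi x * pd i w x := ⟨_, rfl⟩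
    obtain ⟨c, hc⟩ : ∃ c, c = w x * ∑ i, pd i (pd i chi) x := ⟨_, rfl⟩
    rw [← ha] at h5
    rw [← hb] at h6
    rw [← hc] at h7
    rw [← ha, ← hb, ← hc]
    have h10 : (a + 2 * b + c) ^ 2 ≤ 3 * a ^ 2 + 12 * b ^ 2 + 3 * c ^ 2 := by
      nlinarith [sq_nonneg (a - 2 * b), sq_nonneg (a - c), sq_nonneg (2 * b - c)]
    have h11 : M * (w x ^ 2 + ∑ i, pd i w x ^ 2) ≤ M * E x := mul_le_mul_of_nonneg_left h8 hM0
    nlinarith [mul_nonneg hM0 h9, mul_nonneg hM0 (sq_nonneg (w x))]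
  -- integrals
  have hEi : IntegrableOn E (Bn n) := by rw [hE]; exact hwi
  have hEb : ∫ x in Bn n, E x ≤ C * ∫ x in Bn n, φ x ^ 2 := by rw [hE]; exact hwb
  have hmB : MeasurableSet (Bn n) := hO.measurableSet
  have hsub : bl0 n ⊆ Bn n := fun x hx => by
    have : HY.sq x ≤ 1 / 4 := hx
    show HY.sq x < 1
    linarith
  have hφB : ∫ x in Bn n, φ x ^ 2 = ∫ x, φ x ^ 2 := by
    refine setIntegral_eq_integral_of_forall_compl_eq_zero fun x hx => ?_
    rw [hφ0 x fun h => hx (hsub h)]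
    simp
  have hψi1 : Integrable (fun x => ∑ i, pd i ψ x ^ 2) :=
    integrable_finsetSum _ fun i _ => Continuous.integrable_of_hasCompactSupport
      ((cd_pd hψ i).continuous.pow 2)
      ((hc_pd hψc i).comp_left (g := fun t : ℝ => t ^ 2) (by simp))
  have hψi2 : Integrable (fun x => ∑ i, ∑ j, pd j (pd i ψ) x ^ 2) :=
    integrable_finsetSum _ fun i _ => integrable_finsetSum _ fun j _ =>
      Continuous.integrable_of_hasCompactSupport ((cd_pd (cd_pd hψ i) j).continuous.pow 2)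
      ((hc_pd (hc_pd hψc i) j).comp_left (g := fun t : ℝ => t ^ 2) (by simp))
  have hψi3 : Integrable (fun x => (∑ i, pd i (pd i ψ) x) ^ 2) := by
    refine Continuous.integrable_of_hasCompactSupport
      ((continuous_finsetSum _ fun i _ => (cd_pd (cd_pd hψ i) i).continuous).pow 2) ?_
    refine HasCompactSupport.intro (cpt_sq (3 / 4)) fun x hx => ?_
    rw [hψ0 x (not_le.1 hx)]
    simp
  refine ⟨fun i => pd i ψ, fun i => cd_pd hψ i, fun x hx => ?_, ?_⟩
  · have h1 : HY.sq x ≤ 1 / 4 := hx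
    rw [hψ2 x (hsub hx), chi_one (by linarith), one_mul]
    have hO' : IsOpen {y : V n | HY.sq y < 1 / 2} := isOpen_lt sq_sm.continuous continuous_const
    have hx' : x ∈ {y : V n | HY.sq y < 1 / 2} := by show HY.sq x < 1 / 2; linarith
    have e1 : ∀ y ∈ {y : V n | HY.sq y < 1 / 2}, chi y = (fun _ => (1 : ℝ)) y := fun y hy =>
      chi_one (le_of_lt hy)
    have e2 : ∀ i, ∀ y ∈ {y : V n | HY.sq y < 1 / 2}, pd i chi y = (fun _ => (0 : ℝ)) y :=
      fun i y hy => by
      rw [pd_congr hO' e1 i hy]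
      unfold pd
      rw [fderiv_fun_const]; rfl
    have e3 : ∀ i, pd i (pd i chi) x = 0 := fun i => by
      rw [pd_congr hO' (e2 i) i hx']
      unfold pd
      rw [fderiv_fun_const]; rfl
    have e4 : ∀ i, pd i chi x = 0 := fun i => e2 i x hx'
    simp [e3, e4]
  · have k1 : ∫ x in bl0 n, ∑ i, (pd i ψ x ^ 2 + ∑ j, pd j (pd i ψ) x ^ 2) ≤
        (∫ x in Bn n, ∑ i, pd i ψ x ^ 2) + ∫ x, ∑ i, ∑ j, pd j (pd i ψ) x ^ 2 := by
      simp_rw [Finset.sum_add_distrib]
      rw [integral_add hψi1.integrableOn hψi2.integrableOn]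
      refine add_le_add ?_ ?_
      · exact setIntegral_mono_set hψi1.integrableOn (Filter.Eventually.of_forall fun x =>
          Finset.sum_nonneg fun i _ => sq_nonneg _) hsub.eventuallyLE
      · exact setIntegral_le_integral hψi2 (Filter.Eventually.of_forall fun x =>
          Finset.sum_nonneg fun i _ => Finset.sum_nonneg fun j _ => sq_nonneg _)
    have k2 : ∫ x, (∑ i, pd i (pd i ψ) x) ^ 2 = ∫ x in Bn n, (∑ i, pd i (pd i ψ) x) ^ 2 := by
      symm
      refine setIntegral_eq_integral_of_forall_compl_eq_zero fun x hx => ?_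
      have : ¬ HY.sq x < 1 := hx
      rw [hψ0 x (by linarith [not_lt.1 this])]
      simp
    have k3 : ∫ x in Bn n, ∑ i, pd i ψ x ^ 2 ≤ (2 + 2 * M) * ∫ x in Bn n, E x := by
      rw [← integral_const_mul]
      exact setIntegral_mono_on hψi1.integrableOn (hEi.const_mul _) hmB hg1
    have k4 : ∫ x in Bn n, (∑ i, pd i (pd i ψ) x) ^ 2 ≤
        3 * (∫ x in Bn n, φ x ^ 2) + (12 * M + 3 * M) * ∫ x in Bn n, E x := by
      rw [← integral_const_mul, ← integral_const_mul, ← integral_add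
        (hφi.integrableOn.const_mul _) (hEi.const_mul _)]
      exact setIntegral_mono_on hψi3.integrableOn
        ((hφi.integrableOn.const_mul _).add (hEi.const_mul _)) hmB hg2
    rw [hess_lap hψ hψc, k2] at k1
    rw [← hφB]
    have k5 : (2 + 2 * M + 12 * M + 3 * M) * ∫ x in Bn n, E x ≤
        (2 + 2 * M + 12 * M + 3 * M) * (C * ∫ x in Bn n, φ x ^ 2) :=
      mul_le_mul_of_nonneg_left hEb (by positivity)
    calc _ ≤ _ := k1
      _ ≤ (2 + 2 * M) * (∫ x in Bn n, E x) + (3 * (∫ x in Bn n, φ x ^ 2) +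
          (12 * M + 3 * M) * ∫ x in Bn n, E x) := add_le_add k3 k4
      _ = (2 + 2 * M + 12 * M + 3 * M) * (∫ x in Bn n, E x) + 3 * ∫ x in Bn n, φ x ^ 2 := by ring
      _ ≤ (2 + 2 * M + 12 * M + 3 * M) * (C * ∫ x in Bn n, φ x ^ 2) + 3 * ∫ x in Bn n, φ x ^ 2 :=
          by linarith
      _ = _ := by ring

end Vale.Agent.P088.PJ.H437
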