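import Vale.Agent.P088.R2.H437.KEL2

/-!
# P088, stage 3, row P2, first part: the change of variables `x = y / |y|²` in weighted integrals
-/

open MeasureTheory Set Filter Topology
open scoped ContDiff Matrix

noncomputable section

namespace Vale.Agent.P088.HY.H437.Kel

open Vale.Agent.P088.LR Vale.Agent.P088.HY Vale.Agent.P088.HY.T3

variable {n : ℕ}

theorem fd_iv {x : V n} (hx : x ≠ 0) (i k : Fin n) :
    fderiv ℝ (iv : V n → V n) x (Pi.single i 1) k = rf x k i * (HY.sq x)⁻¹ := by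
  rw [← pd_iv i k hx]
  unfold pd
  have h4 := (hasFDerivAt_pi'.1 (da_iv hx).hasFDerivAt k).fderiv
  rw [h4]
  rfl

theorem rf_le {x : V n} (hx : x ≠ 0) (i k : Fin n) : |rf x k i| ≤ 3 := by
  have hq := sq_pos hx
  have h1 : ∀ j, x j ^ 2 ≤ HY.sq x := fun j =>
    Finset.single_le_sum (f := fun j => x j ^ 2) (fun j _ => _root_.sq_nonneg _) (Finset.mem_univ j)
  have h2 : |2 * x k * x i / HY.sq x| ≤ 2 := by
    rw [abs_div, abs_of_pos hq, div_le_iff₀ hq]
    have h3 : |2 * x k * x i| ≤ x k ^ 2 + x i ^ 2 := by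
      rw [abs_le]
      constructor <;> nlinarith [_root_.sq_nonneg (x k + x i), _root_.sq_nonneg (x k - x i)]
    linarith [h1 k, h1 i]
  have h3 : |(1 : Matrix (Fin n) (Fin n) ℝ) k i| ≤ 1 := by
    rw [Matrix.one_apply]; split_ifs <;> simp
  have h4 : rf x k i = (1 : Matrix (Fin n) (Fin n) ℝ) k i - 2 * x k * x i / HY.sq x := rfl
  rw [h4]
  exact (abs_sub _ _).trans (by linarith)

/-- A bound of the Jacobian determinant of the inversion. -/
theorem det_iv {x : V n} (hx : x ≠ 0) {r : ℝ} (hr : (HY.sq x)⁻¹ ≤ r) :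
    |(fderiv ℝ (iv : V n → V n) x).det| ≤ (n.factorial : ℝ) * (3 * r) ^ n := by
  have h1 : (fderiv ℝ (iv : V n → V n) x).det =
      (LinearMap.toMatrix' (fderiv ℝ (iv : V n → V n) x : V n →ₗ[ℝ] V n)).det := by
    rw [LinearMap.det_toMatrix']
  rw [h1]
  have h2 := Matrix.det_le (abv := AbsoluteValue.abs) (x := 3 * r)
    (A := LinearMap.toMatrix' (fderiv ℝ (iv : V n → V n) x : V n →ₗ[ℝ] V n)) (fun k i => by
      rw [LinearMap.toMatrix'_apply]
      show |fderiv ℝ (iv : V n → V n) x (Pi.single i 1) k| ≤ _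
      rw [fd_iv hx i k, abs_mul, abs_of_pos (inv_pos.2 (sq_pos hx))]
      exact mul_le_mul (rf_le hx i k) hr (inv_pos.2 (sq_pos hx)).le (by norm_num))
  rw [Fintype.card_fin, nsmul_eq_mul] at h2
  exact h2

theorem cont_det {U : Set (V n)} (h0 : ∀ y ∈ U, y ≠ 0) :
    ContinuousOn (fun x => (fderiv ℝ (iv : V n → V n) x).det) U := by
  intro x hx
  have h1 : ContDiffAt ℝ 0 (fderiv ℝ (iv : V n → V n)) x :=
    (cd_iv (h0 x hx)).fderiv_right (m := 0) (by simp)
  have h2 : ContinuousAt (fderiv ℝ (iv : V n → V n)) x := h1.continuousAt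
  exact (ContinuousLinearMap.continuous_det.continuousAt.comp h2).continuousWithinAt

theorem iv_inj {U : Set (V n)} (h0 : ∀ y ∈ U, y ≠ 0) : InjOn (iv : V n → V n) U := by
  intro x hx y hy hxy
  rw [← iv_iv (h0 x hx), hxy, iv_iv (h0 y hy)]

theorem iv_img {U : Set (V n)} (h0 : ∀ y ∈ U, y ≠ 0) : iv '' (iv '' U) = U := by
  ext x
  constructor
  · rintro ⟨_, ⟨y, hy, rfl⟩, rfl⟩
    rwa [iv_iv (h0 y hy)]
  · intro hx
    exact ⟨iv x, ⟨x, hx, rfl⟩, iv_iv (h0 x hx)⟩

theorem mem_img {U : Set (V n)} (h0 : ∀ y ∈ U, y ≠ 0) {y : V n} :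
    y ∈ iv '' U ↔ y ≠ 0 ∧ iv y ∈ U := by
  constructor
  · rintro ⟨x, hx, rfl⟩
    exact ⟨iv_ne (h0 x hx), by rwa [iv_iv (h0 x hx)]⟩
  · rintro ⟨h1, h2⟩
    exact ⟨iv y, h2, iv_iv h1⟩

theorem isOpen_img {U : Set (V n)} (hU : IsOpen U) (h0 : ∀ y ∈ U, y ≠ 0) :
    IsOpen (iv '' U : Set (V n)) := by
  have h1 : (iv '' U : Set (V n)) = {y | y ≠ 0} ∩ iv ⁻¹' U := by
    ext y
    exact mem_img h0
  rw [h1]
  refine ContinuousOn.isOpen_inter_preimage (fun y hy => ?_) isOpen_ne hU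
  exact (da_iv hy).continuousAt.continuousWithinAt

/-- **Change of variables, one-sided.** -/
theorem cov {U : Set (V n)} (hU : IsOpen U) (h0 : ∀ y ∈ U, y ≠ 0) {r : ℝ}
    (hr : ∀ y ∈ U, (HY.sq y)⁻¹ ≤ r) {g h : V n → ℝ} (hg : ContinuousOn g (iv '' U))
    (hg0 : ∀ y ∈ U, 0 ≤ g (iv y)) (hh : IntegrableOn h U) {A : ℝ}
    (hA : ∀ y ∈ U, g (iv y) ≤ A * h y) :
    IntegrableOn g (iv '' U) ∧
      ∫ x in iv '' U, g x ≤ (n.factorial : ℝ) * (3 * r) ^ n * A * ∫ y in U, h y := by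
  have hd : ∀ x ∈ U, HasFDerivWithinAt (iv : V n → V n) (fderiv ℝ (iv : V n → V n) x) U x :=
    fun x hx => (da_iv (h0 x hx)).hasFDerivAt.hasFDerivWithinAt
  have hc : ContinuousOn (fun y => |(fderiv ℝ (iv : V n → V n) y).det| • g (iv y)) U :=
    ((cont_det h0).abs).smul (hg.comp (fun y hy => (da_iv (h0 y hy)).continuousAt.continuousWithinAt)
      (mapsTo_image _ _))
  have hb : ∀ y ∈ U, |(fderiv ℝ (iv : V n → V n) y).det| • g (iv y) ≤
      (n.factorial : ℝ) * (3 * r) ^ n * A * h y := by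
    intro y hy
    have h1 := det_iv (h0 y hy) (hr y hy)
    rw [smul_eq_mul, mul_assoc ((n.factorial : ℝ) * (3 * r) ^ n)]
    exact mul_le_mul h1 (hA y hy) (hg0 y hy) ((abs_nonneg _).trans h1)
  have hi : IntegrableOn (fun y => |(fderiv ℝ (iv : V n → V n) y).det| • g (iv y)) U := by
    refine Integrable.mono' (hh.const_mul ((n.factorial : ℝ) * (3 * r) ^ n * A))
      (hc.aestronglyMeasurable hU.measurableSet) ?_
    filter_upwards [ae_restrict_mem hU.measurableSet] with y hy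
    rw [Real.norm_eq_abs, abs_of_nonneg]
    · exact hb y hy
    · rw [smul_eq_mul]
      exact mul_nonneg (abs_nonneg _) (hg0 y hy)
  constructor
  · exact (integrableOn_image_iff_integrableOn_abs_det_fderiv_smul volume hU.measurableSet hd
      (iv_inj h0) g).2 hi
  · rw [integral_image_eq_integral_abs_det_fderiv_smul volume hU.measurableSet hd (iv_inj h0) g,
      ← integral_const_mul]
    exact setIntegral_mono_on hi (hh.const_mul _) hU.measurableSet hb

end Vale.Agent.P088.HY.H437.Kel
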