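import Vale.Agent.P088.R2.H558.Spec

/-!
# P088, stage 4, row X-KO: the conformal Korn inequality with a weight `e^{2ρG}`, without loss
-/

open MeasureTheory Set Filter Topology
open scoped ContDiff Matrix

noncomputable section

namespace Vale.Agent.P088.HY.H437.XK

open Vale.Agent.P088.LR

variable {n : ℕ}

theorem cd_pd {f : V n → ℝ} (hf : ContDiff ℝ ∞ f) (i : Fin n) : ContDiff ℝ ∞ (pd i f) :=
  (hf.fderiv_right (m := ∞) (by simp)).clm_apply contDiff_const

theorem hc_pd {f : V n → ℝ} (hf : HasCompactSupport f) (i : Fin n) :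
    HasCompactSupport (pd i f) :=
  (hf.fderiv (𝕜 := ℝ)).comp_left (g := fun L : V n →L[ℝ] ℝ => L (Pi.single i 1)) rfl

theorem pd_comm {f : V n → ℝ} (hf : ContDiff ℝ ∞ f) (i j : Fin n) (x : V n) :
    pd i (pd j f) x = pd j (pd i f) x := by
  have h1 : DifferentiableAt ℝ (fderiv ℝ f) x :=
    (hf.fderiv_right (m := ∞) (by simp)).differentiable (by simp) x
  have h2 : ∀ a b : Fin n, pd a (pd b f) x =
      fderiv ℝ (fderiv ℝ f) x (Pi.single a 1) (Pi.single b 1) := by
    intro a b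
    unfold pd
    rw [fderiv_clm_apply h1 (differentiableAt_const _)]
    simp
  rw [h2, h2]
  have h3 : minSmoothness ℝ 2 ≤ (∞ : WithTop ℕ∞) := by
    rw [minSmoothness_of_isRCLikeNormedField]
    exact WithTop.coe_le_coe.2 le_top
  exact (hf.contDiffAt.isSymmSndFDerivAt h3) _ _

theorem int_pd {f : V n → ℝ} (hf : ContDiff ℝ ∞ f) (hc : HasCompactSupport f) (i : Fin n) :
    ∫ x, pd i f x = 0 := by
  have hi : Integrable f := hf.continuous.integrable_of_hasCompactSupport hc
  have hi' : Integrable (pd i f) :=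
    (cd_pd hf i).continuous.integrable_of_hasCompactSupport (hc_pd hc i)
  have h := integral_mul_fderiv_eq_neg_fderiv_mul_of_integrable (μ := (volume : Measure (V n)))
    (f := fun _ => (1 : ℝ)) (g := f) (v := Pi.single i 1) (by simp)
    (by simp only [one_mul]; exact hi') (by simpa using hi) (fun x _ => differentiableAt_const _)
    (fun x _ => hf.differentiable (by simp) x)
  simp only [one_mul, fderiv_fun_const, Pi.zero_apply, zero_apply, zero_mul, integral_zero,
    neg_zero] at h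
  exact h

theorem pd_mul {f g : V n → ℝ} (hf : ContDiff ℝ ∞ f) (hg : ContDiff ℝ ∞ g) (i : Fin n)
    (x : V n) : pd i (fun x => f x * g x) x = f x * pd i g x + g x * pd i f x := by
  unfold pd
  rw [fderiv_fun_mul (hf.differentiable (by simp) x) (hg.differentiable (by simp) x)]
  simp

/-! ## Algebra of matrices -/

/-- `∑ (X_ij + X_ji - (2/n) δ_ij tr X)²`. -/
def dev (X : Fin n → Fin n → ℝ) : ℝ :=
  ∑ i, ∑ j, (X i j + X j i - 2 / n * (if i = j then 1 else 0) * ∑ k, X k k) ^ 2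

theorem dev_eq (hn : 0 < n) (X : Fin n → Fin n → ℝ) :
    dev X = 2 * (∑ i, ∑ j, X i j ^ 2) + 2 * (∑ i, ∑ j, X i j * X j i) -
      4 / n * (∑ k, X k k) ^ 2 := by
  have hn' : (n : ℝ) ≠ 0 := by positivity
  set t := ∑ k, X k k with ht
  have h1 : dev X = (∑ i, ∑ j, (X i j + X j i) ^ 2) -
      (∑ i, ∑ j, (if i = j then 4 / n * t * (X i j + X j i) else 0)) +
      ∑ i : Fin n, ∑ j : Fin n, (if i = j then (2 / n * t) ^ 2 else 0) := by
    unfold dev
    rw [← Finset.sum_sub_distrib, ← Finset.sum_add_distrib]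
    refine Finset.sum_congr rfl fun i _ => ?_
    rw [← Finset.sum_sub_distrib, ← Finset.sum_add_distrib]
    refine Finset.sum_congr rfl fun j _ => ?_
    by_cases h : i = j
    · rw [if_pos h, if_pos h, if_pos h]
      ring
    · rw [if_neg h, if_neg h, if_neg h]
      ring
  have h2 : ∑ i, ∑ j, (X i j + X j i) ^ 2 =
      2 * (∑ i, ∑ j, X i j ^ 2) + 2 * (∑ i, ∑ j, X i j * X j i) := by
    have h3 : ∑ i, ∑ j, X j i ^ 2 = ∑ i, ∑ j, X i j ^ 2 := Finset.sum_comm
    have h4 : ∑ i, ∑ j, (X i j + X j i) ^ 2 =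
        ∑ i, ∑ j, X i j ^ 2 + ∑ i, ∑ j, X j i ^ 2 + 2 * (∑ i, ∑ j, X i j * X j i) := by
      rw [Finset.mul_sum, ← Finset.sum_add_distrib, ← Finset.sum_add_distrib]
      refine Finset.sum_congr rfl fun i _ => ?_
      rw [Finset.mul_sum, ← Finset.sum_add_distrib, ← Finset.sum_add_distrib]
      exact Finset.sum_congr rfl fun j _ => by ring
    rw [h4, h3]
    ring
  have h3 : ∑ i, ∑ j, (if i = j then 4 / n * t * (X i j + X j i) else 0) = 8 / n * t ^ 2 := by
    have : ∀ i, ∑ j, (if i = j then 4 / n * t * (X i j + X j i) else 0) =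
        8 / n * t * X i i := by
      intro i
      rw [Finset.sum_ite_eq Finset.univ i, if_pos (Finset.mem_univ i)]
      ring
    rw [Finset.sum_congr rfl fun i _ => this i, ← Finset.mul_sum, ← ht]
    ring
  have h4 : ∑ i : Fin n, ∑ j : Fin n, (if i = j then (2 / n * t) ^ 2 else 0) =
      4 / n * t ^ 2 := by
    have : ∀ i : Fin n, ∑ j : Fin n, (if i = j then (2 / n * t) ^ 2 else 0) =
        (2 / n * t) ^ 2 := by
      intro i
      rw [Finset.sum_ite_eq Finset.univ i, if_pos (Finset.mem_univ i)]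
    rw [Finset.sum_congr rfl fun i _ => this i, Finset.sum_const, Finset.card_univ,
      Fintype.card_fin, nsmul_eq_mul]
    field_simp
    ring
  rw [h1, h2, h3, h4]
  ring

/-- The algebraic identity: `a = ∇u`, `X = a - g ⊗ u`, `h = Hess`. -/
theorem alg (hn : 0 < n) (a h : Fin n → Fin n → ℝ) (g v : Fin n → ℝ) :
    dev (fun i j => a i j - g i * v j) =
      (2 - 4 / n) * (∑ i, ∑ j, (a i j - g i * v j) ^ 2) +
      2 * (∑ i, (a i i + g i * v i)) ^ 2 +
      (4 - 8 / n) * (∑ i, ∑ j, h i j * v i * v j) + 8 / n * (∑ i, ∑ j, h j j * v i ^ 2) +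
      2 / n * (∑ i, ∑ j, ((a i j + g i * v j) - (a j i + g j * v i)) ^ 2) +
      (2 + 4 / n) * (∑ i, ∑ j, (a i j * a j i - a i i * a j j)) +
      (-4 + 8 / n) * (∑ i, ∑ j, (h i j * v i * v j + g j * (a i i * v j + v i * a i j))) +
      (-8 / n) * (∑ i, ∑ j, (h j j * v i ^ 2 + 2 * g j * v i * a j i)) := by
  have hn' : (n : ℝ) ≠ 0 := by positivity
  rw [dev_eq hn]
  set p1 := ∑ i, ∑ j, a i j ^ 2 with hp1
  set p2 := ∑ i, ∑ j, a i j * a j i with hp2
  set p3 := ∑ i, a i i with hp3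
  set q1 := ∑ i, ∑ j, g i * v j * a i j with hq1
  set q2 := ∑ i, ∑ j, g i * v j * a j i with hq2
  set q3 := ∑ i, g i * v i with hq3
  set r1 := ∑ i, ∑ j, (g i * v j) ^ 2 with hr1
  set y1 := ∑ i, ∑ j, h i j * v i * v j with hy1
  set y2 := ∑ i, ∑ j, h j j * v i ^ 2 with hy2
  have e1 : ∑ i, ∑ j, (a i j - g i * v j) ^ 2 = p1 - 2 * q1 + r1 := by
    rw [hp1, hq1, hr1, Finset.mul_sum, ← Finset.sum_sub_distrib, ← Finset.sum_add_distrib]
    refine Finset.sum_congr rfl fun i _ => ?_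
    rw [Finset.mul_sum, ← Finset.sum_sub_distrib, ← Finset.sum_add_distrib]
    exact Finset.sum_congr rfl fun j _ => by ring
  have hq2' : ∑ i, ∑ j, g j * v i * a i j = q2 := by
    rw [hq2, Finset.sum_comm]
  have hq1' : ∑ i, ∑ j, g j * v i * a j i = q1 := by
    rw [hq1, Finset.sum_comm]
  have hr2 : ∑ i, ∑ j, (g i * v i) * (g j * v j) = q3 ^ 2 := by
    rw [hq3, pow_two, Finset.sum_mul_sum]
  have e2 : ∑ i, ∑ j, (a i j - g i * v j) * (a j i - g j * v i) = p2 - 2 * q2 + q3 ^ 2 := by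
    have : ∑ i, ∑ j, (a i j - g i * v j) * (a j i - g j * v i) =
        p2 - (∑ i, ∑ j, g j * v i * a i j) - q2 + ∑ i, ∑ j, (g i * v i) * (g j * v j) := by
      rw [hp2, hq2, ← Finset.sum_sub_distrib, ← Finset.sum_sub_distrib, ← Finset.sum_add_distrib]
      refine Finset.sum_congr rfl fun i _ => ?_
      rw [← Finset.sum_sub_distrib, ← Finset.sum_sub_distrib, ← Finset.sum_add_distrib]
      exact Finset.sum_congr rfl fun j _ => by ring
    rw [this, hq2', hr2]
    ring
  have e3 : ∑ i, (a i i - g i * v i) = p3 - q3 := by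
    rw [hp3, hq3, ← Finset.sum_sub_distrib]
  have e4 : ∑ i, (a i i + g i * v i) = p3 + q3 := by
    rw [hp3, hq3, ← Finset.sum_add_distrib]
  have e5 : ∑ i, ∑ j, ((a i j + g i * v j) - (a j i + g j * v i)) ^ 2 =
      2 * (p1 + 2 * q1 + r1) - 2 * (p2 + 2 * q2 + q3 ^ 2) := by
    have h1 : ∑ i, ∑ j, (a i j + g i * v j) ^ 2 = p1 + 2 * q1 + r1 := by
      rw [hp1, hq1, hr1, Finset.mul_sum, ← Finset.sum_add_distrib, ← Finset.sum_add_distrib]
      refine Finset.sum_congr rfl fun i _ => ?_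
      rw [Finset.mul_sum, ← Finset.sum_add_distrib, ← Finset.sum_add_distrib]
      exact Finset.sum_congr rfl fun j _ => by ring
    have h2 : ∑ i, ∑ j, (a j i + g j * v i) ^ 2 = p1 + 2 * q1 + r1 := by
      rw [Finset.sum_comm, h1]
    have h3 : ∑ i, ∑ j, (a i j + g i * v j) * (a j i + g j * v i) = p2 + 2 * q2 + q3 ^ 2 := by
      have : ∑ i, ∑ j, (a i j + g i * v j) * (a j i + g j * v i) =
          p2 + (∑ i, ∑ j, g j * v i * a i j) + q2 + ∑ i, ∑ j, (g i * v i) * (g j * v j) := by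
        rw [hp2, hq2, ← Finset.sum_add_distrib, ← Finset.sum_add_distrib,
          ← Finset.sum_add_distrib]
        refine Finset.sum_congr rfl fun i _ => ?_
        rw [← Finset.sum_add_distrib, ← Finset.sum_add_distrib, ← Finset.sum_add_distrib]
        exact Finset.sum_congr rfl fun j _ => by ring
      rw [this, hq2', hr2]
      ring
    have h4 : ∑ i, ∑ j, ((a i j + g i * v j) - (a j i + g j * v i)) ^ 2 =
        (∑ i, ∑ j, (a i j + g i * v j) ^ 2) + (∑ i, ∑ j, (a j i + g j * v i) ^ 2) -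
          2 * ∑ i, ∑ j, (a i j + g i * v j) * (a j i + g j * v i) := by
      rw [Finset.mul_sum, ← Finset.sum_add_distrib, ← Finset.sum_sub_distrib]
      refine Finset.sum_congr rfl fun i _ => ?_
      rw [Finset.mul_sum, ← Finset.sum_add_distrib, ← Finset.sum_sub_distrib]
      exact Finset.sum_congr rfl fun j _ => by ring
    rw [h4, h1, h2, h3]
    ring
  have e6 : ∑ i, ∑ j, (a i j * a j i - a i i * a j j) = p2 - p3 ^ 2 := by
    have h1 : ∑ i, ∑ j, a i i * a j j = p3 ^ 2 := by rw [hp3, pow_two, Finset.sum_mul_sum]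
    rw [← h1, hp2, ← Finset.sum_sub_distrib]
    exact Finset.sum_congr rfl fun i _ => by rw [← Finset.sum_sub_distrib]
  have e7 : ∑ i, ∑ j, (h i j * v i * v j + g j * (a i i * v j + v i * a i j)) =
      y1 + p3 * q3 + q2 := by
    have h1 : ∑ i, ∑ j, a i i * (g j * v j) = p3 * q3 := by rw [hp3, hq3, Finset.sum_mul_sum]
    rw [← h1, ← hq2', hy1, ← Finset.sum_add_distrib, ← Finset.sum_add_distrib]
    refine Finset.sum_congr rfl fun i _ => ?_
    rw [← Finset.sum_add_distrib, ← Finset.sum_add_distrib]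
    exact Finset.sum_congr rfl fun j _ => by ring
  have e8 : ∑ i, ∑ j, (h j j * v i ^ 2 + 2 * g j * v i * a j i) = y2 + 2 * q1 := by
    rw [← hq1', hy2, Finset.mul_sum, ← Finset.sum_add_distrib]
    refine Finset.sum_congr rfl fun i _ => ?_
    rw [Finset.mul_sum, ← Finset.sum_add_distrib]
    exact Finset.sum_congr rfl fun j _ => by ring
  rw [e1, e2, e3, e4, e5, e6, e7, e8]
  field_simp
  ring

/-! ## The estimate -/

theorem int_cpt {f : V n → ℝ} (hf : Continuous f) (hc : HasCompactSupport f) : Integrable f :=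
  hf.integrable_of_hasCompactSupport hc

/-- The integrals of the three divergences vanish. -/
theorem div_zero {g u : Fin n → V n → ℝ} (hg : ∀ i, ContDiff ℝ ∞ (g i))
    (hu : ∀ i, ContDiff ℝ ∞ (u i)) (hc : ∀ i, HasCompactSupport (u i)) :
    (∫ x, ∑ i, ∑ j, (pd i (u j) x * pd j (u i) x - pd i (u i) x * pd j (u j) x) = 0) ∧
    (∫ x, ∑ i, ∑ j, (pd i (g j) x * u i x * u j x + g j x * (pd i (u i) x * u j x +
      u i x * pd i (u j) x)) = 0) ∧
    (∫ x, ∑ i, ∑ j, (pd j (g j) x * u i x ^ 2 + 2 * g j x * u i x * pd j (u i) x) = 0) := by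
  refine ⟨?_, ?_, ?_⟩
  · have h1 : ∀ x, ∑ i, ∑ j, (pd i (u j) x * pd j (u i) x - pd i (u i) x * pd j (u j) x) =
        ∑ i, ∑ j, (pd i (fun y => u j y * pd j (u i) y) x -
          pd j (fun y => u j y * pd i (u i) y) x) := by
      intro x
      refine Finset.sum_congr rfl fun i _ => Finset.sum_congr rfl fun j _ => ?_
      rw [pd_mul (hu j) (cd_pd (hu i) j), pd_mul (hu j) (cd_pd (hu i) i), pd_comm (hu i) j i]
      ring
    simp only [h1]
    have s1 : ∀ i j, ContDiff ℝ ∞ fun y => u j y * pd j (u i) y := fun i j =>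
      (hu j).mul (cd_pd (hu i) j)
    have s2 : ∀ i j, ContDiff ℝ ∞ fun y => u j y * pd i (u i) y := fun i j =>
      (hu j).mul (cd_pd (hu i) i)
    have c1 : ∀ i j, HasCompactSupport fun y => u j y * pd j (u i) y := fun i j => (hc j).mul_right
    have c2 : ∀ i j, HasCompactSupport fun y => u j y * pd i (u i) y := fun i j => (hc j).mul_right
    have i1 : ∀ i j, Integrable (fun x => pd i (fun y => u j y * pd j (u i) y) x -
        pd j (fun y => u j y * pd i (u i) y) x) := fun i j =>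
      (int_cpt (cd_pd (s1 i j) i).continuous (hc_pd (c1 i j) i)).sub
        (int_cpt (cd_pd (s2 i j) j).continuous (hc_pd (c2 i j) j))
    rw [integral_finsetSum _ fun i _ => integrable_finsetSum _ fun j _ => i1 i j]
    refine Finset.sum_eq_zero fun i _ => ?_
    rw [integral_finsetSum _ fun j _ => i1 i j]
    refine Finset.sum_eq_zero fun j _ => ?_
    rw [integral_sub (int_cpt (cd_pd (s1 i j) i).continuous (hc_pd (c1 i j) i))
      (int_cpt (cd_pd (s2 i j) j).continuous (hc_pd (c2 i j) j)), int_pd (s1 i j) (c1 i j),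
      int_pd (s2 i j) (c2 i j), sub_zero]
  · have h1 : ∀ x, ∑ i, ∑ j, (pd i (g j) x * u i x * u j x + g j x * (pd i (u i) x * u j x +
        u i x * pd i (u j) x)) = ∑ i, ∑ j, pd i (fun y => g j y * (u i y * u j y)) x := by
      intro x
      refine Finset.sum_congr rfl fun i _ => Finset.sum_congr rfl fun j _ => ?_
      rw [pd_mul (hg j) ((hu i).mul (hu j)), pd_mul (hu i) (hu j)]
      ring
    simp only [h1]
    have s1 : ∀ i j, ContDiff ℝ ∞ fun y => g j y * (u i y * u j y) := fun i j =>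
      (hg j).mul ((hu i).mul (hu j))
    have c1 : ∀ i j, HasCompactSupport fun y => g j y * (u i y * u j y) := fun i j =>
      (HasCompactSupport.mul_right (hc i)).mul_left
    have i1 : ∀ i j, Integrable (fun x => pd i (fun y => g j y * (u i y * u j y)) x) := fun i j =>
      int_cpt (cd_pd (s1 i j) i).continuous (hc_pd (c1 i j) i)
    rw [integral_finsetSum _ fun i _ => integrable_finsetSum _ fun j _ => i1 i j]
    refine Finset.sum_eq_zero fun i _ => ?_
    rw [integral_finsetSum _ fun j _ => i1 i j]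
    exact Finset.sum_eq_zero fun j _ => int_pd (s1 i j) (c1 i j) i
  · have h1 : ∀ x, ∑ i, ∑ j, (pd j (g j) x * u i x ^ 2 + 2 * g j x * u i x * pd j (u i) x) =
        ∑ i, ∑ j, pd j (fun y => g j y * (u i y * u i y)) x := by
      intro x
      refine Finset.sum_congr rfl fun i _ => Finset.sum_congr rfl fun j _ => ?_
      rw [pd_mul (hg j) ((hu i).mul (hu i)), pd_mul (hu i) (hu i)]
      ring
    simp only [h1]
    have s1 : ∀ i j, ContDiff ℝ ∞ fun y => g j y * (u i y * u i y) := fun i j =>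
      (hg j).mul ((hu i).mul (hu i))
    have c1 : ∀ i j, HasCompactSupport fun y => g j y * (u i y * u i y) := fun i j =>
      (HasCompactSupport.mul_right (hc i)).mul_left
    have i1 : ∀ i j, Integrable (fun x => pd j (fun y => g j y * (u i y * u i y)) x) := fun i j =>
      int_cpt (cd_pd (s1 i j) j).continuous (hc_pd (c1 i j) j)
    rw [integral_finsetSum _ fun i _ => integrable_finsetSum _ fun j _ => i1 i j]
    refine Finset.sum_eq_zero fun i _ => ?_
    rw [integral_finsetSum _ fun j _ => i1 i j]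
    exact Finset.sum_eq_zero fun j _ => int_pd (s1 i j) (c1 i j) j

theorem quad_le {h : Fin n → Fin n → ℝ} {v : Fin n → ℝ} {B : ℝ}
    (hB : (∃ i, v i ≠ 0) → ∀ i j, |h i j| ≤ B) :
    |∑ i, ∑ j, h i j * v i * v j| ≤ n * B * ∑ i, v i ^ 2 := by
  by_cases hv : ∃ i, v i ≠ 0
  · have hB' := hB hv
    obtain ⟨i₀, _⟩ := hv
    have hB0 : 0 ≤ B := (abs_nonneg _).trans (hB' i₀ i₀)
    calc |∑ i, ∑ j, h i j * v i * v j| ≤ ∑ i, ∑ j, |h i j * v i * v j| :=
          (Finset.abs_sum_le_sum_abs _ _).trans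
            (Finset.sum_le_sum fun i _ => Finset.abs_sum_le_sum_abs _ _)
      _ ≤ ∑ i : Fin n, ∑ j : Fin n, (B / 2 * v i ^ 2 + B / 2 * v j ^ 2) := by
          refine Finset.sum_le_sum fun i _ => Finset.sum_le_sum fun j _ => ?_
          rw [abs_mul, abs_mul, mul_assoc]
          have h1 : |v i| * |v j| ≤ (v i ^ 2 + v j ^ 2) / 2 := by
            have h2 := sq_nonneg (|v i| - |v j|)
            have h3 := sq_abs (v i)
            have h4 := sq_abs (v j)
            nlinarith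
          calc |h i j| * (|v i| * |v j|) ≤ B * ((v i ^ 2 + v j ^ 2) / 2) :=
                mul_le_mul (hB' i j) h1 (by positivity) hB0
            _ = B / 2 * v i ^ 2 + B / 2 * v j ^ 2 := by ring
      _ = n * B * ∑ i, v i ^ 2 := by
          simp only [Finset.sum_add_distrib, Finset.sum_const, Finset.card_univ, Fintype.card_fin,
            nsmul_eq_mul, ← Finset.mul_sum]
          ring
  · push Not at hv
    simp [hv]

theorem diag_le {h : Fin n → Fin n → ℝ} {v : Fin n → ℝ} {B : ℝ}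
    (hB : (∃ i, v i ≠ 0) → ∀ i j, |h i j| ≤ B) :
    |∑ i, ∑ j, h j j * v i ^ 2| ≤ n * B * ∑ i, v i ^ 2 := by
  by_cases hv : ∃ i, v i ≠ 0
  · have hB' := hB hv
    calc |∑ i, ∑ j, h j j * v i ^ 2| ≤ ∑ i, ∑ j, |h j j * v i ^ 2| :=
          (Finset.abs_sum_le_sum_abs _ _).trans
            (Finset.sum_le_sum fun i _ => Finset.abs_sum_le_sum_abs _ _)
      _ ≤ ∑ i : Fin n, ∑ j : Fin n, B * v i ^ 2 := by
          refine Finset.sum_le_sum fun i _ => Finset.sum_le_sum fun j _ => ?_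
          rw [abs_mul, abs_of_nonneg (sq_nonneg (v i))]
          exact mul_le_mul_of_nonneg_right (hB' j j) (sq_nonneg _)
      _ = n * B * ∑ i, v i ^ 2 := by
          simp only [Finset.sum_const, Finset.card_univ, Fintype.card_fin, nsmul_eq_mul,
            ← Finset.mul_sum]
          ring
  · push Not at hv
    simp [hv]

/-- The pointwise estimate. -/
theorem korn_pt (hn : 3 ≤ n) (a h : Fin n → Fin n → ℝ) (g v : Fin n → ℝ) {M c₀ ρ : ℝ}
    (hρ : 0 < ρ) (hρM : 26 * n * M ≤ ρ * c₀)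
    (hh : (∃ i, v i ≠ 0) → ∀ i j, |h i j| ≤ ρ * M)
    (hg : (∃ i, v i ≠ 0) → ρ ^ 2 * c₀ ≤ ∑ i, g i ^ 2) :
    1 / 3 * (∑ i, ∑ j, (a i j - g i * v j) ^ 2) + c₀ / 6 * ρ ^ 2 * (∑ i, v i ^ 2) +
      (2 + 4 / n) * (∑ i, ∑ j, (a i j * a j i - a i i * a j j)) +
      (-4 + 8 / n) * (∑ i, ∑ j, (h i j * v i * v j + g j * (a i i * v j + v i * a i j))) +
      (-8 / n - 1 / 3) * (∑ i, ∑ j, (h j j * v i ^ 2 + 2 * g j * v i * a j i)) ≤
      dev (fun i j => a i j - g i * v j) := by
  have hn' : (3 : ℝ) ≤ n := by exact_mod_cast hn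
  have hn0 : (0 : ℝ) < n := by linarith
  rw [alg (by omega) a h g v]
  set t1 := ∑ i, ∑ j, (a i j - g i * v j) ^ 2 with ht1
  set w := ∑ i, v i ^ 2 with hw
  set F3 := ∑ i, ∑ j, (h j j * v i ^ 2 + 2 * g j * v i * a j i) with hF3
  set y1 := ∑ i, ∑ j, h i j * v i * v j with hy1
  set y2 := ∑ i, ∑ j, h j j * v i ^ 2 with hy2
  have hw0 : 0 ≤ w := Finset.sum_nonneg fun i _ => sq_nonneg _
  have b1 := quad_le hh
  have b2 := diag_le hh
  rw [← hy1, ← hw] at b1
  rw [← hy2, ← hw] at b2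
  have b1' := (abs_le.1 b1).1
  have b2' := (abs_le.1 b2).1
  -- the lower bound of `t1`
  have h1 : ρ ^ 2 * c₀ * w ≤ ∑ i, ∑ j, (g i * v j) ^ 2 := by
    have h2 : ∑ i, ∑ j, (g i * v j) ^ 2 = (∑ i, g i ^ 2) * w := by
      rw [hw, Finset.sum_mul_sum]
      exact Finset.sum_congr rfl fun i _ => Finset.sum_congr rfl fun j _ => by ring
    rw [h2]
    by_cases hv : ∃ i, v i ≠ 0
    · exact mul_le_mul_of_nonneg_right (hg hv) hw0
    · push Not at hv
      have : w = 0 := by rw [hw]; simp [hv]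
      rw [this]
      simp
  have h2 : t1 = (∑ i, ∑ j, a i j ^ 2) + (∑ i, ∑ j, (g i * v j) ^ 2) + y2 - F3 := by
    have h3 : ∑ i, ∑ j, g j * v i * a j i = ∑ i, ∑ j, g i * v j * a i j := Finset.sum_comm
    have h4 : F3 = y2 + 2 * ∑ i, ∑ j, g j * v i * a j i := by
      rw [hF3, hy2, Finset.mul_sum, ← Finset.sum_add_distrib]
      refine Finset.sum_congr rfl fun i _ => ?_
      rw [Finset.mul_sum, ← Finset.sum_add_distrib]
      exact Finset.sum_congr rfl fun j _ => by ring
    have h5 : t1 = (∑ i, ∑ j, a i j ^ 2) + (∑ i, ∑ j, (g i * v j) ^ 2) -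
        2 * ∑ i, ∑ j, g i * v j * a i j := by
      rw [ht1, Finset.mul_sum, ← Finset.sum_add_distrib, ← Finset.sum_sub_distrib]
      refine Finset.sum_congr rfl fun i _ => ?_
      rw [Finset.mul_sum, ← Finset.sum_add_distrib, ← Finset.sum_sub_distrib]
      exact Finset.sum_congr rfl fun j _ => by ring
    rw [h5, h4, h3]
    ring
  have h3 : 0 ≤ ∑ i, ∑ j, a i j ^ 2 :=
    Finset.sum_nonneg fun i _ => Finset.sum_nonneg fun j _ => sq_nonneg _
  have h4 : ρ ^ 2 * c₀ * w - n * (ρ * M) * w - F3 ≤ t1 := by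
    rw [h2]
    linarith
  have h5 : 0 ≤ t1 := Finset.sum_nonneg fun i _ => Finset.sum_nonneg fun j _ => sq_nonneg _
  have h6 : 0 ≤ 2 * (∑ i, (a i i + g i * v i)) ^ 2 := by positivity
  have h7 : 0 ≤ 2 / (n : ℝ) * (∑ i, ∑ j, ((a i j + g i * v j) - (a j i + g j * v i)) ^ 2) :=
    mul_nonneg (by positivity)
      (Finset.sum_nonneg fun i _ => Finset.sum_nonneg fun j _ => sq_nonneg _)
  have hn4 : 4 / (n : ℝ) ≤ 4 / 3 := by
    rw [div_le_div_iff₀ hn0 (by norm_num)]
    linarith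
  have hn8 : 8 / (n : ℝ) ≤ 8 / 3 := by
    rw [div_le_div_iff₀ hn0 (by norm_num)]
    linarith
  have hn8' : 0 ≤ 8 / (n : ℝ) := by positivity
  -- coefficients
  have k1 : 2 / 3 * t1 ≤ (2 - 4 / n) * t1 := mul_le_mul_of_nonneg_right (by linarith) h5
  have k2 : (4 - 8 / n) * (-(n * (ρ * M) * w)) ≤ (4 - 8 / n) * y1 :=
    mul_le_mul_of_nonneg_left (by linarith) (by linarith)
  have k3 : 8 / n * (-(n * (ρ * M) * w)) ≤ 8 / n * y2 :=
    mul_le_mul_of_nonneg_left (by linarith) hn8'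
  have k4 : (4 - 8 / n) * (-(n * (ρ * M) * w)) + 8 / n * (-(n * (ρ * M) * w)) =
      -(4 * n * (ρ * M) * w) := by ring
  have k5 : 13 / 3 * n * (ρ * M) * w ≤ c₀ / 6 * ρ ^ 2 * w := by
    have : 13 / 3 * n * (ρ * M) ≤ c₀ / 6 * ρ ^ 2 := by
      nlinarith [mul_le_mul_of_nonneg_left hρM hρ.le]
    exact mul_le_mul_of_nonneg_right this hw0
  have k6 : c₀ / 6 * ρ ^ 2 * w = ρ ^ 2 * c₀ * w / 3 - c₀ / 6 * ρ ^ 2 * w := by ring
  have k7 : (-8 / n - 1 / 3) * F3 = -8 / n * F3 - F3 / 3 := by ring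
  rw [k7]
  nlinarith [k1, k2, k3, k4, k5, k6, h4, h6, h7]

theorem dev_smul (c : ℝ) (X : Fin n → Fin n → ℝ) : dev (fun i j => c * X i j) = c ^ 2 * dev X := by
  unfold dev
  rw [Finset.mul_sum]
  refine Finset.sum_congr rfl fun i _ => ?_
  rw [Finset.mul_sum]
  refine Finset.sum_congr rfl fun j _ => ?_
  rw [← Finset.mul_sum]
  ring

theorem pd_off {f : V n → ℝ} {x : V n} (hx : x ∉ tsupport f) (i : Fin n) : pd i f x = 0 := by
  unfold pd
  have : fderiv ℝ f x = 0 := by
    have h1 : f =ᶠ[𝓝 x] fun _ => 0 := by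
      filter_upwards [(isClosed_tsupport f).isOpen_compl.mem_nhds hx] with y hy
      exact image_eq_zero_of_notMem_tsupport hy
    rw [h1.fderiv_eq]
    simp
  rw [this]
  rfl

theorem intK {K : Set (V n)} (hK : IsCompact K) {f : V n → ℝ} (hf : Continuous f)
    (h0 : ∀ x ∉ K, f x = 0) : Integrable f :=
  hf.integrable_of_hasCompactSupport (HasCompactSupport.intro hK h0)

theorem fin5 {f1 f2 f3 f4 f5 f6 : V n → ℝ} {c1 c2 c3 c4 c5 : ℝ}
    (h : ∀ x, c1 * f1 x + c2 * f2 x + c3 * f3 x + c4 * f4 x + c5 * f5 x ≤ f6 x)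
    (i1 : Integrable f1) (i2 : Integrable f2) (i3 : Integrable f3) (i4 : Integrable f4)
    (i5 : Integrable f5) (i6 : Integrable f6) (h3 : ∫ x, f3 x = 0) (h4 : ∫ x, f4 x = 0)
    (h5 : ∫ x, f5 x = 0) : c1 * (∫ x, f1 x) + c2 * (∫ x, f2 x) ≤ ∫ x, f6 x := by
  have e1 : ∫ x, (c1 * f1 x + c2 * f2 x + c3 * f3 x + c4 * f4 x + c5 * f5 x) =
      c1 * (∫ x, f1 x) + c2 * (∫ x, f2 x) := by
    rw [integral_add, integral_add, integral_add, integral_add, integral_const_mul,
      integral_const_mul, integral_const_mul, integral_const_mul, integral_const_mul, h3, h4, h5]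
    · ring
    · exact i1.const_mul _
    · exact i2.const_mul _
    · exact (i1.const_mul _).add (i2.const_mul _)
    · exact i3.const_mul _
    · exact ((i1.const_mul _).add (i2.const_mul _)).add (i3.const_mul _)
    · exact i4.const_mul _
    · exact (((i1.const_mul _).add (i2.const_mul _)).add (i3.const_mul _)).add (i4.const_mul _)
    · exact i5.const_mul _
  rw [← e1]
  refine integral_mono ?_ i6 h
  exact ((((i1.const_mul _).add (i2.const_mul _)).add (i3.const_mul _)).add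
    (i4.const_mul _)).add (i5.const_mul _)

/-- **Weighted conformal Korn inequality**, weight smooth on `ℝ^n`, hypotheses on the supports. -/
theorem korn_core (hn : 3 ≤ n) {M c₀ ρ : ℝ} {G : V n → ℝ} (hG : ContDiff ℝ ∞ G)
    {φ : Fin n → V n → ℝ} (hφ : ∀ i, ContDiff ℝ ∞ (φ i)) (hc : ∀ i, HasCompactSupport (φ i))
    (hh : ∀ x, (∃ i, φ i x ≠ 0) → ∀ i j, |pd i (pd j G) x| ≤ M)
    (hg : ∀ x, (∃ i, φ i x ≠ 0) → c₀ ≤ ∑ i, pd i G x ^ 2)
    (hρ : 0 < ρ) (hρM : 26 * n * M ≤ ρ * c₀) :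
    1 / 3 * (∫ x, Real.exp (2 * ρ * G x) * ∑ i, ∑ j, pd i (φ j) x ^ 2) +
      c₀ / 6 * ρ ^ 2 * (∫ x, Real.exp (2 * ρ * G x) * ∑ i, φ i x ^ 2) ≤
      ∫ x, Real.exp (2 * ρ * G x) * dev (fun i j => pd i (φ j) x) := by
  set E : V n → ℝ := fun x => Real.exp (ρ * G x) with hE
  have hEs : ContDiff ℝ ∞ E := (contDiff_const.mul hG).exp
  have hE2 : ∀ x, Real.exp (2 * ρ * G x) = E x ^ 2 := by
    intro x
    rw [hE, pow_two, ← Real.exp_add]
    congr 1
    ring
  set u : Fin n → V n → ℝ := fun i x => E x * φ i x with hu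
  have hus : ∀ i, ContDiff ℝ ∞ (u i) := fun i => hEs.mul (hφ i)
  have huc : ∀ i, HasCompactSupport (u i) := fun i => (hc i).mul_left
  set g : Fin n → V n → ℝ := fun i x => ρ * pd i G x with hgd
  have hgs : ∀ i, ContDiff ℝ ∞ (g i) := fun i => contDiff_const.mul (cd_pd hG i)
  have hpE : ∀ i x, pd i E x = ρ * pd i G x * E x := by
    intro i x
    unfold pd
    have h1 : HasFDerivAt E (Real.exp (ρ * G x) • (ρ • fderiv ℝ G x)) x :=
      (((hG.differentiable (by simp)) x).hasFDerivAt.const_mul ρ).exp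
    rw [h1.fderiv]
    simp only [hE, FunLike.coe_smul, Pi.smul_apply, smul_eq_mul]
    ring
  have ha : ∀ i j x, pd i (u j) x - g i x * u j x = E x * pd i (φ j) x := by
    intro i j x
    have : pd i (u j) x = E x * pd i (φ j) x + φ j x * pd i E x := pd_mul hEs (hφ j) i x
    rw [this, hpE, hgd, hu]
    ring
  have hph : ∀ i j x, pd i (g j) x = ρ * pd i (pd j G) x := by
    intro i j x
    have : pd i (g j) x = ρ * pd i (pd j G) x + pd j G x * pd i (fun _ => ρ) x :=
      pd_mul contDiff_const (cd_pd hG j) i x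
    rw [this]
    unfold pd
    simp
  obtain ⟨d1, d2, d3⟩ := div_zero hgs hus huc
  have hne : ∀ x, (∃ i, u i x ≠ 0) → ∃ i, φ i x ≠ 0 := by
    rintro x ⟨i, hi⟩
    exact ⟨i, fun h => hi (by rw [hu]; simp [h])⟩
  have key : ∀ x, 1 / 3 * (Real.exp (2 * ρ * G x) * ∑ i, ∑ j, pd i (φ j) x ^ 2) +
      c₀ / 6 * ρ ^ 2 * (Real.exp (2 * ρ * G x) * ∑ i, φ i x ^ 2) +
      (2 + 4 / n) * (∑ i, ∑ j, (pd i (u j) x * pd j (u i) x - pd i (u i) x * pd j (u j) x)) +
      (-4 + 8 / n) * (∑ i, ∑ j, (pd i (g j) x * u i x * u j x + g j x * (pd i (u i) x * u j x +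
        u i x * pd i (u j) x))) +
      (-8 / n - 1 / 3) * (∑ i, ∑ j, (pd j (g j) x * u i x ^ 2 +
        2 * g j x * u i x * pd j (u i) x)) ≤
      Real.exp (2 * ρ * G x) * dev (fun i j => pd i (φ j) x) := by
    intro x
    have h1 := korn_pt hn (fun i j => pd i (u j) x) (fun i j => pd i (g j) x) (fun i => g i x)
      (fun i => u i x) (M := M) (c₀ := c₀) hρ hρM (fun hv i j => by
        rw [hph, abs_mul, abs_of_pos hρ]
        exact mul_le_mul_of_nonneg_left (hh x (hne x hv) i j) hρ.le) (fun hv => by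
        have h2 : ∑ i, g i x ^ 2 = ρ ^ 2 * ∑ i, pd i G x ^ 2 := by
          rw [Finset.mul_sum]
          exact Finset.sum_congr rfl fun i _ => by rw [hgd]; ring
        rw [h2]
        exact mul_le_mul_of_nonneg_left (hg x (hne x hv)) (sq_nonneg _))
    have h2 : dev (fun i j => pd i (u j) x - g i x * u j x) =
        Real.exp (2 * ρ * G x) * dev (fun i j => pd i (φ j) x) := by
      rw [hE2, ← dev_smul]
      congr 1
      funext i j
      exact ha i j x
    have h3 : ∑ i, ∑ j, (pd i (u j) x - g i x * u j x) ^ 2 =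
        Real.exp (2 * ρ * G x) * ∑ i, ∑ j, pd i (φ j) x ^ 2 := by
      rw [hE2, Finset.mul_sum]
      refine Finset.sum_congr rfl fun i _ => ?_
      rw [Finset.mul_sum]
      exact Finset.sum_congr rfl fun j _ => by rw [ha]; ring
    have h4 : ∑ i, u i x ^ 2 = Real.exp (2 * ρ * G x) * ∑ i, φ i x ^ 2 := by
      rw [hE2, Finset.mul_sum]
      exact Finset.sum_congr rfl fun i _ => by rw [hu]; ring
    rw [h2, h3, h4] at h1
    exact h1
  -- integrability
  set K : Set (V n) := ⋃ i, tsupport (φ i) with hK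
  have hKc : IsCompact K := isCompact_iUnion fun i => hc i
  have z0 : ∀ x ∉ K, ∀ i, φ i x = 0 := fun x hx i =>
    image_eq_zero_of_notMem_tsupport fun h => hx (mem_iUnion.2 ⟨i, h⟩)
  have z1 : ∀ x ∉ K, ∀ i j, pd i (φ j) x = 0 := fun x hx i j =>
    pd_off (fun h => hx (mem_iUnion.2 ⟨j, h⟩)) i
  have z2 : ∀ x ∉ K, ∀ i, u i x = 0 := fun x hx i => by rw [hu]; simp [z0 x hx i]
  have z3 : ∀ x ∉ K, ∀ i j, pd i (u j) x = 0 := fun x hx i j => by
    have h1 := ha i j x
    rw [z2 x hx j, z1 x hx i j, mul_zero, mul_zero, sub_zero] at h1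
    exact h1
  have cE : Continuous fun x => Real.exp (2 * ρ * G x) :=
    (continuous_const.mul hG.continuous).rexp
  have cφ : ∀ i, Continuous (φ i) := fun i => (hφ i).continuous
  have cpφ : ∀ i j, Continuous (pd i (φ j)) := fun i j => (cd_pd (hφ j) i).continuous
  have cu : ∀ i, Continuous (u i) := fun i => (hus i).continuous
  have cpu : ∀ i j, Continuous (pd i (u j)) := fun i j => (cd_pd (hus j) i).continuous
  have cg : ∀ i, Continuous (g i) := fun i => (hgs i).continuous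
  have cpg : ∀ i j, Continuous (pd i (g j)) := fun i j => (cd_pd (hgs j) i).continuous
  have I1 : Integrable fun x => Real.exp (2 * ρ * G x) * ∑ i, ∑ j, pd i (φ j) x ^ 2 := by
    refine intK hKc ?_ fun x hx => ?_
    · exact cE.mul (continuous_finsetSum _ fun i _ => continuous_finsetSum _ fun j _ =>
        (cpφ i j).pow 2)
    · simp [z1 x hx]
  have I2 : Integrable fun x => Real.exp (2 * ρ * G x) * ∑ i, φ i x ^ 2 := by
    refine intK hKc ?_ fun x hx => ?_
    · exact cE.mul (continuous_finsetSum _ fun i _ => (cφ i).pow 2)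
    · simp [z0 x hx]
  have I3 : Integrable fun x => Real.exp (2 * ρ * G x) * dev (fun i j => pd i (φ j) x) := by
    refine intK hKc ?_ fun x hx => ?_
    · refine cE.mul (continuous_finsetSum _ fun i _ => continuous_finsetSum _ fun j _ => ?_)
      exact (((cpφ i j).add (cpφ j i)).sub (continuous_const.mul
        (continuous_finsetSum _ fun k _ => cpφ k k))).pow 2
    · unfold dev
      simp [z1 x hx]
  have I4 : Integrable fun x => ∑ i, ∑ j, (pd i (u j) x * pd j (u i) x -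
      pd i (u i) x * pd j (u j) x) := by
    refine intK hKc ?_ fun x hx => ?_
    · exact continuous_finsetSum _ fun i _ => continuous_finsetSum _ fun j _ =>
        ((cpu i j).mul (cpu j i)).sub ((cpu i i).mul (cpu j j))
    · simp [z3 x hx]
  have I5 : Integrable fun x => ∑ i, ∑ j, (pd i (g j) x * u i x * u j x +
      g j x * (pd i (u i) x * u j x + u i x * pd i (u j) x)) := by
    refine intK hKc ?_ fun x hx => ?_
    · exact continuous_finsetSum _ fun i _ => continuous_finsetSum _ fun j _ =>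
        (((cpg i j).mul (cu i)).mul (cu j)).add ((cg j).mul (((cpu i i).mul (cu j)).add
          ((cu i).mul (cpu i j))))
    · simp [z2 x hx]
  have I6 : Integrable fun x => ∑ i, ∑ j, (pd j (g j) x * u i x ^ 2 +
      2 * g j x * u i x * pd j (u i) x) := by
    refine intK hKc ?_ fun x hx => ?_
    · exact continuous_finsetSum _ fun i _ => continuous_finsetSum _ fun j _ =>
        ((cpg j j).mul ((cu i).pow 2)).add (((continuous_const.mul (cg j)).mul (cu i)).mul
          (cpu j i))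
    · simp [z2 x hx]
  exact fin5 key I1 I2 I4 I5 I6 I3 d1 d2 d3

end Vale.Agent.P088.HY.H437.XK
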