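import Vale.Agent.P088.R2.H349.S4.SpecA
import Vale.Agent.P088.R2.H437.XKO

/-!
# P088, stage 4, row X-KO: proof of the row
-/

open MeasureTheory Set Filter Topology
open scoped ContDiff Matrix

noncomputable section

namespace Vale.Agent.P088.S4.H437

open Vale.Agent.P088.LR Vale.Agent.P088.S4 Vale.Agent.P088.HY.H437.XK

variable {n : ℕ}

theorem pd_re {f : V n → ℂ} (hf : ContDiff ℝ ∞ f) (i : Fin n) (x : V n) :
    pd i (fun y => (f y).re) x = (pd i f x).re := by
  unfold pd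
  have h : HasFDerivAt (fun y => (f y).re) (Complex.reCLM.comp (fderiv ℝ f x)) x :=
    Complex.reCLM.hasFDerivAt.comp x ((hf.differentiable (by simp)) x).hasFDerivAt
  rw [h.fderiv]
  rfl

theorem pd_im {f : V n → ℂ} (hf : ContDiff ℝ ∞ f) (i : Fin n) (x : V n) :
    pd i (fun y => (f y).im) x = (pd i f x).im := by
  unfold pd
  have h : HasFDerivAt (fun y => (f y).im) (Complex.imCLM.comp (fderiv ℝ f x)) x :=
    Complex.imCLM.hasFDerivAt.comp x ((hf.differentiable (by simp)) x).hasFDerivAt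
  rw [h.fderiv]
  rfl

theorem norm_sq (z : ℂ) : ‖z‖ ^ 2 = z.re ^ 2 + z.im ^ 2 := by
  rw [← Complex.normSq_eq_norm_sq, Complex.normSq_apply]
  ring

theorem int4 {f1 f2 f3 f4 : V n → ℝ} (i1 : Integrable f1) (i2 : Integrable f2)
    (i3 : Integrable f3) (i4 : Integrable f4) (c : ℝ) :
    ((∫ x, f1 x) + ∫ x, f2 x) + c * ((∫ x, f3 x) + ∫ x, f4 x) =
      ∫ x, ((f1 x + f2 x) + c * (f3 x + f4 x)) := by
  have h12 : Integrable fun x => f1 x + f2 x := i1.add i2
  have h34 : Integrable fun x => f3 x + f4 x := i3.add i4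
  rw [integral_add h12 (h34.const_mul c), integral_add i1 i2, integral_const_mul,
    integral_add i3 i4]

theorem rowXKO : RowXKO := by
  intro n hn M c₀ hM hc₀
  refine ⟨max 3 (6 / c₀), max 1 (26 * n * M / c₀), lt_max_of_lt_left (by norm_num),
    le_max_left _ _, ?_⟩
  intro O hO g hg h1 h2 h3 ρ hρ v hv hvc hvs
  have hρ1 : 1 ≤ ρ := (le_max_left _ _).trans hρ
  have hρ0 : 0 < ρ := by linarith
  have hρM : 26 * n * M ≤ ρ * c₀ := by
    have := (le_max_right _ _).trans hρ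
    rwa [div_le_iff₀ hc₀] at this
  have hmem : ∀ x, (∃ i, v i x ≠ 0) → x ∈ O := by
    rintro x ⟨i, hi⟩
    exact hvs i (subset_tsupport _ hi)
  have hre : ∀ i, ContDiff ℝ ∞ fun y => (v i y).re := fun i => Complex.reCLM.contDiff.comp (hv i)
  have him : ∀ i, ContDiff ℝ ∞ fun y => (v i y).im := fun i => Complex.imCLM.contDiff.comp (hv i)
  have hrec : ∀ i, HasCompactSupport fun y => (v i y).re := fun i =>
    (hvc i).comp_left (g := Complex.re) rfl
  have himc : ∀ i, HasCompactSupport fun y => (v i y).im := fun i =>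
    (hvc i).comp_left (g := Complex.im) rfl
  have k1 := korn_core hn (M := M) (c₀ := c₀) (ρ := ρ) hg hre hrec
    (fun x hx => h2 x (hmem x (by
      obtain ⟨i, hi⟩ := hx
      exact ⟨i, fun h => hi (by rw [h]; rfl)⟩)))
    (fun x hx => h3 x (hmem x (by
      obtain ⟨i, hi⟩ := hx
      exact ⟨i, fun h => hi (by rw [h]; rfl)⟩))) hρ0 hρM
  have k2 := korn_core hn (M := M) (c₀ := c₀) (ρ := ρ) hg him himc
    (fun x hx => h2 x (hmem x (by
      obtain ⟨i, hi⟩ := hx
      exact ⟨i, fun h => hi (by rw [h]; rfl)⟩)))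
    (fun x hx => h3 x (hmem x (by
      obtain ⟨i, hi⟩ := hx
      exact ⟨i, fun h => hi (by rw [h]; rfl)⟩))) hρ0 hρM
  simp only [pd_re (hv _), pd_im (hv _)] at k1 k2
  -- integrability
  set K : Set (V n) := ⋃ i, tsupport (v i) with hK
  have hKc : IsCompact K := isCompact_iUnion fun i => hvc i
  have z0 : ∀ x ∉ K, ∀ i, v i x = 0 := fun x hx i =>
    image_eq_zero_of_notMem_tsupport fun h => hx (mem_iUnion.2 ⟨i, h⟩)
  have z1 : ∀ x ∉ K, ∀ i j, pd i (v j) x = 0 := by
    intro x hx i j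
    have h : v j =ᶠ[𝓝 x] fun _ => 0 :=
      notMem_tsupport_iff_eventuallyEq.1 fun h => hx (mem_iUnion.2 ⟨j, h⟩)
    unfold pd
    rw [h.fderiv_eq]
    simp
  have cE : Continuous fun x => Real.exp (2 * ρ * g x) :=
    (continuous_const.mul hg.continuous).rexp
  have cv : ∀ i, Continuous (v i) := fun i => (hv i).continuous
  have cpv : ∀ i j, Continuous (pd i (v j)) := fun i j =>
    ((hv j).continuous_fderiv (by simp)).clm_apply continuous_const
  have cre : ∀ i j, Continuous fun x => (pd i (v j) x).re := fun i j =>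
    Complex.continuous_re.comp (cpv i j)
  have cim : ∀ i j, Continuous fun x => (pd i (v j) x).im := fun i j =>
    Complex.continuous_im.comp (cpv i j)
  have I1 : Integrable fun x => Real.exp (2 * ρ * g x) * ∑ i, ∑ j, (pd i (v j) x).re ^ 2 := by
    refine intK hKc ?_ fun x hx => ?_
    · exact cE.mul (continuous_finsetSum _ fun i _ => continuous_finsetSum _ fun j _ =>
        (cre i j).pow 2)
    · simp [z1 x hx]
  have I2 : Integrable fun x => Real.exp (2 * ρ * g x) * ∑ i, ∑ j, (pd i (v j) x).im ^ 2 := by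
    refine intK hKc ?_ fun x hx => ?_
    · exact cE.mul (continuous_finsetSum _ fun i _ => continuous_finsetSum _ fun j _ =>
        (cim i j).pow 2)
    · simp [z1 x hx]
  have I3 : Integrable fun x => Real.exp (2 * ρ * g x) * ∑ i, (v i x).re ^ 2 := by
    refine intK hKc ?_ fun x hx => ?_
    · exact cE.mul (continuous_finsetSum _ fun i _ => (Complex.continuous_re.comp (cv i)).pow 2)
    · simp [z0 x hx]
  have I4 : Integrable fun x => Real.exp (2 * ρ * g x) * ∑ i, (v i x).im ^ 2 := by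
    refine intK hKc ?_ fun x hx => ?_
    · exact cE.mul (continuous_finsetSum _ fun i _ => (Complex.continuous_im.comp (cv i)).pow 2)
    · simp [z0 x hx]
  have I5 : Integrable fun x => Real.exp (2 * ρ * g x) * dev (fun i j => (pd i (v j) x).re) := by
    refine intK hKc ?_ fun x hx => ?_
    · refine cE.mul (continuous_finsetSum _ fun i _ => continuous_finsetSum _ fun j _ => ?_)
      exact (((cre i j).add (cre j i)).sub (continuous_const.mul
        (continuous_finsetSum _ fun k _ => cre k k))).pow 2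
    · unfold dev
      simp [z1 x hx]
  have I6 : Integrable fun x => Real.exp (2 * ρ * g x) * dev (fun i j => (pd i (v j) x).im) := by
    refine intK hKc ?_ fun x hx => ?_
    · refine cE.mul (continuous_finsetSum _ fun i _ => continuous_finsetSum _ fun j _ => ?_)
      exact (((cim i j).add (cim j i)).sub (continuous_const.mul
        (continuous_finsetSum _ fun k _ => cim k k))).pow 2
    · unfold dev
      simp [z1 x hx]
  have e1 : ∫ x, Real.exp (2 * ρ * g x) * ((∑ i, ∑ j, ‖pd i (v j) x‖ ^ 2) +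
      ρ ^ 2 * ∑ j, ‖v j x‖ ^ 2) =
      ((∫ x, Real.exp (2 * ρ * g x) * ∑ i, ∑ j, (pd i (v j) x).re ^ 2) +
        (∫ x, Real.exp (2 * ρ * g x) * ∑ i, ∑ j, (pd i (v j) x).im ^ 2)) +
      ρ ^ 2 * ((∫ x, Real.exp (2 * ρ * g x) * ∑ i, (v i x).re ^ 2) +
        (∫ x, Real.exp (2 * ρ * g x) * ∑ i, (v i x).im ^ 2)) := by
    rw [int4 I1 I2 I3 I4]
    refine integral_congr_ae (Eventually.of_forall fun x => ?_)
    show Real.exp (2 * ρ * g x) * ((∑ i, ∑ j, ‖pd i (v j) x‖ ^ 2) + ρ ^ 2 * ∑ j, ‖v j x‖ ^ 2) =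
      (Real.exp (2 * ρ * g x) * ∑ i, ∑ j, (pd i (v j) x).re ^ 2 +
        Real.exp (2 * ρ * g x) * ∑ i, ∑ j, (pd i (v j) x).im ^ 2) +
      ρ ^ 2 * (Real.exp (2 * ρ * g x) * ∑ i, (v i x).re ^ 2 +
        Real.exp (2 * ρ * g x) * ∑ i, (v i x).im ^ 2)
    have e2 : ∑ i, ∑ j, ‖pd i (v j) x‖ ^ 2 =
        ∑ i, ∑ j, (pd i (v j) x).re ^ 2 + ∑ i, ∑ j, (pd i (v j) x).im ^ 2 := by
      rw [← Finset.sum_add_distrib]
      refine Finset.sum_congr rfl fun i _ => ?_
      rw [← Finset.sum_add_distrib]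
      exact Finset.sum_congr rfl fun j _ => norm_sq _
    have e3 : ∑ j, ‖v j x‖ ^ 2 = ∑ i, (v i x).re ^ 2 + ∑ i, (v i x).im ^ 2 := by
      rw [← Finset.sum_add_distrib]
      exact Finset.sum_congr rfl fun j _ => norm_sq _
    rw [e2, e3]
    ring
  have e4 : ∫ x, Real.exp (2 * ρ * g x) * ∑ i, ∑ j, ‖pd i (v j) x + pd j (v i) x -
      (if i = j then (2 / n : ℂ) * ∑ l, pd l (v l) x else 0)‖ ^ 2 =
      (∫ x, Real.exp (2 * ρ * g x) * dev (fun i j => (pd i (v j) x).re)) +
        ∫ x, Real.exp (2 * ρ * g x) * dev (fun i j => (pd i (v j) x).im) := by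
    rw [← integral_add I5 I6]
    refine integral_congr_ae (Eventually.of_forall fun x => ?_)
    show Real.exp (2 * ρ * g x) * ∑ i, ∑ j, ‖pd i (v j) x + pd j (v i) x -
      (if i = j then (2 / n : ℂ) * ∑ l, pd l (v l) x else 0)‖ ^ 2 =
      Real.exp (2 * ρ * g x) * dev (fun i j => (pd i (v j) x).re) +
        Real.exp (2 * ρ * g x) * dev (fun i j => (pd i (v j) x).im)
    rw [← mul_add]
    congr 1
    unfold dev
    rw [← Finset.sum_add_distrib]
    refine Finset.sum_congr rfl fun i _ => ?_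
    rw [← Finset.sum_add_distrib]
    refine Finset.sum_congr rfl fun j _ => ?_
    have hc : (2 / n : ℂ) = ((2 / n : ℝ) : ℂ) := by push_cast; rfl
    rw [norm_sq, hc]
    by_cases hij : i = j
    · simp only [if_pos hij, Complex.sub_re, Complex.add_re, Complex.sub_im, Complex.add_im,
        Complex.re_ofReal_mul, Complex.im_ofReal_mul, Complex.re_sum, Complex.im_sum, mul_one]
    · simp only [if_neg hij, Complex.sub_re, Complex.add_re, Complex.sub_im, Complex.add_im,
        Complex.zero_re, Complex.zero_im, mul_zero, zero_mul]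
  rw [e1, e4]
  set A1 := ∫ x, Real.exp (2 * ρ * g x) * ∑ i, ∑ j, (pd i (v j) x).re ^ 2
  set A2 := ∫ x, Real.exp (2 * ρ * g x) * ∑ i, ∑ j, (pd i (v j) x).im ^ 2
  set B1 := ∫ x, Real.exp (2 * ρ * g x) * ∑ i, (v i x).re ^ 2 with hB1
  set B2 := ∫ x, Real.exp (2 * ρ * g x) * ∑ i, (v i x).im ^ 2 with hB2
  set D1 := ∫ x, Real.exp (2 * ρ * g x) * dev (fun i j => (pd i (v j) x).re)
  set D2 := ∫ x, Real.exp (2 * ρ * g x) * dev (fun i j => (pd i (v j) x).im)
  have hA1 : 0 ≤ A1 := integral_nonneg fun x => mul_nonneg (Real.exp_pos _).le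
    (Finset.sum_nonneg fun i _ => Finset.sum_nonneg fun j _ => sq_nonneg _)
  have hA2 : 0 ≤ A2 := integral_nonneg fun x => mul_nonneg (Real.exp_pos _).le
    (Finset.sum_nonneg fun i _ => Finset.sum_nonneg fun j _ => sq_nonneg _)
  have hB1' : 0 ≤ B1 := integral_nonneg fun x => mul_nonneg (Real.exp_pos _).le
    (Finset.sum_nonneg fun i _ => sq_nonneg _)
  have hB2' : 0 ≤ B2 := integral_nonneg fun x => mul_nonneg (Real.exp_pos _).le
    (Finset.sum_nonneg fun i _ => sq_nonneg _)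
  set C := max 3 (6 / c₀) with hC
  have hC1 : 3 ≤ C := le_max_left _ _
  have hC2 : 6 / c₀ ≤ C := le_max_right _ _
  have hC3 : 6 ≤ C * c₀ := by rwa [div_le_iff₀ hc₀] at hC2
  have hC0 : 0 < C := by linarith
  have m1 : A1 ≤ C * (1 / 3 * A1) := by nlinarith
  have m2 : A2 ≤ C * (1 / 3 * A2) := by nlinarith
  have m3 : ρ ^ 2 * (B1 + B2) ≤ C * (c₀ / 6 * ρ ^ 2 * (B1 + B2)) := by
    have h4 : 0 ≤ ρ ^ 2 * (B1 + B2) := by positivity
    nlinarith
  calc A1 + A2 + ρ ^ 2 * (B1 + B2) ≤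
        C * (1 / 3 * A1) + C * (1 / 3 * A2) + C * (c₀ / 6 * ρ ^ 2 * (B1 + B2)) := by linarith
    _ = C * ((1 / 3 * A1 + c₀ / 6 * ρ ^ 2 * B1) + (1 / 3 * A2 + c₀ / 6 * ρ ^ 2 * B2)) := by ring
    _ ≤ C * (D1 + D2) := mul_le_mul_of_nonneg_left (add_le_add k1 k2) hC0.le

end Vale.Agent.P088.S4.H437
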